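import Mathlib

namespace Vale.Agent.P184

open UniformSpace

/-- Complete case: pull back the spectral norm along a lift into the algebraic closure. -/
theorem exists_abv_of_complete {F L K : Type*} [Field F] [Field L] [Algebra F L]
    [Algebra.IsAlgebraic F L] [NontriviallyNormedField K] [CompleteSpace K]
    [IsUltrametricDist K] (i : F →+* K) :
    ∃ v : AbsoluteValue L ℝ, ∀ x : F, v (algebraMap F L x) = ‖i x‖ := by
  classical
  let _ : Algebra F (AlgebraicClosure K) :=
    ((algebraMap K (AlgebraicClosure K)).comp i).toAlgebra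
  let φ : L →ₐ[F] AlgebraicClosure K := IsAlgClosed.lift
  let N := spectralMulAlgNorm K (AlgebraicClosure K)
  refine ⟨{ toFun := fun x => N (φ x)
            map_mul' := fun x y => by simp [map_mul]
            nonneg' := fun x => apply_nonneg N _
            eq_zero' := fun x => by
              rw [map_eq_zero_iff_eq_zero N]
              exact map_eq_zero φ
            add_le' := fun x y => by
              rw [map_add]
              exact map_add_le_add N _ _ }, fun x => ?_⟩
  change N (φ (algebraMap F L x)) = ‖i x‖
  rw [AlgHom.commutes]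
  change spectralNorm K (AlgebraicClosure K) (algebraMap K (AlgebraicClosure K) (i x)) = ‖i x‖
  exact spectralNorm_extends _

theorem exists_abv_extension {F L : Type*} [Field F] [Field L] [Algebra F L]
    [Algebra.IsAlgebraic F L] (v0 : AbsoluteValue F ℝ) (hna : IsNonarchimedean v0)
    (hnt : ∃ x, x ≠ 0 ∧ v0 x ≠ 1) :
    ∃ v : AbsoluteValue L ℝ, ∀ x : F, v (algebraMap F L x) = v0 x := by
  classical
  have hu0 : IsUltrametricDist (WithAbs v0) :=
    IsUltrametricDist.isUltrametricDist_of_isNonarchimedean_norm
      (fun x y => hna x.ofAbs y.ofAbs)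
  have hu : IsUltrametricDist v0.Completion := IsUltrametricDist.of_normedAlgebra (WithAbs v0)
  obtain ⟨x, hx0, hx1⟩ := hnt
  have hnt' : ∃ y : v0.Completion, 1 < ‖y‖ := by
    rcases lt_or_gt_of_ne hx1 with h | h
    · refine ⟨((WithAbs.toAbs v0 x⁻¹ : WithAbs v0) : v0.Completion), ?_⟩
      rw [UniformSpace.Completion.norm_coe, WithAbs.norm_toAbs_eq, map_inv₀]
      exact (one_lt_inv₀ (v0.pos hx0)).2 h
    · refine ⟨((WithAbs.toAbs v0 x : WithAbs v0) : v0.Completion), ?_⟩
      rw [UniformSpace.Completion.norm_coe, WithAbs.norm_toAbs_eq]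
      exact h
  let _ : NontriviallyNormedField v0.Completion :=
    { (inferInstance : NormedField v0.Completion) with non_trivial := hnt' }
  let i : F →+* v0.Completion :=
    (UniformSpace.Completion.coeRingHom).comp (WithAbs.equiv v0).symm.toRingHom
  obtain ⟨v, hv⟩ := exists_abv_of_complete (F := F) (L := L) i
  refine ⟨v, fun x => ?_⟩
  rw [hv]
  change ‖((WithAbs.toAbs v0 x : WithAbs v0) : v0.Completion)‖ = v0 x
  rw [UniformSpace.Completion.norm_coe, WithAbs.norm_toAbs_eq]

end Vale.Agent.P184
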