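import Vale.Agent.P184.AbvExt

namespace Vale.Agent.P184

open IntermediateField

/-- An absolute value on a domain extends to its field of fractions. -/
theorem exists_abv_fraction {R K : Type*} [CommRing R] [IsDomain R] [Field K] [Algebra R K]
    [IsFractionRing R K] (v : AbsoluteValue R ℝ) :
    ∃ w : AbsoluteValue K ℝ, ∀ r : R, w (algebraMap R K r) = v r := by
  classical
  have hinj : Function.Injective (algebraMap R K) := IsFractionRing.injective R K
  choose a b hb hab using fun z : K => IsFractionRing.div_surjective (A := R) z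
  have hb0 : ∀ z, b z ≠ 0 := fun z => nonZeroDivisors.ne_zero (hb z)
  have key : ∀ (z : K) (p r : R), r ≠ 0 → algebraMap R K p / algebraMap R K r = z →
      v (a z) / v (b z) = v p / v r := by
    intro z p r hr h
    have h1 : algebraMap R K r ≠ 0 := fun h0 => hr (hinj (by rw [h0, map_zero]))
    have h2 : algebraMap R K (b z) ≠ 0 := fun h0 => hb0 z (hinj (by rw [h0, map_zero]))
    have h3 : algebraMap R K (a z) / algebraMap R K (b z) = algebraMap R K p / algebraMap R K r := by
      rw [hab, h]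
    rw [div_eq_div_iff h2 h1, ← map_mul, ← map_mul] at h3
    have h4 := hinj h3
    have h5 : v (a z) * v r = v p * v (b z) := by rw [← map_mul, ← map_mul, h4]
    rw [div_eq_div_iff (v.ne_zero (hb0 z)) (v.ne_zero hr)]
    exact h5
  have hne : ∀ r : R, r ≠ 0 → algebraMap R K r ≠ 0 := fun r hr h0 =>
    hr (hinj (by rw [h0, map_zero]))
  refine ⟨{ toFun := fun z => v (a z) / v (b z)
            map_mul' := ?_
            nonneg' := fun z => div_nonneg (v.nonneg _) (v.nonneg _)
            eq_zero' := ?_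
            add_le' := ?_ }, ?_⟩
  · intro z z'
    rw [key (z * z') (a z * a z') (b z * b z') (mul_ne_zero (hb0 z) (hb0 z')) (by
      rw [map_mul, map_mul, ← div_mul_div_comm, hab, hab])]
    rw [map_mul, map_mul, div_mul_div_comm]
  · intro z
    change v (a z) / v (b z) = 0 ↔ z = 0
    rw [div_eq_zero_iff]
    constructor
    · rintro (h | h)
      · rw [← hab z, (v.eq_zero).mp h, map_zero, zero_div]
      · exact absurd ((v.eq_zero).mp h) (hb0 z)
    · intro h
      left
      have h1 : algebraMap R K (a z) / algebraMap R K (b z) = 0 := by rw [hab z, h]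
      rw [div_eq_zero_iff] at h1
      rcases h1 with h1 | h1
      · rw [v.eq_zero]
        exact hinj (by rw [h1, map_zero])
      · exact absurd h1 (hne _ (hb0 z))
  · intro z z'
    change v (a (z + z')) / v (b (z + z')) ≤ v (a z) / v (b z) + v (a z') / v (b z')
    rw [key (z + z') (a z * b z' + a z' * b z) (b z * b z') (mul_ne_zero (hb0 z) (hb0 z')) (by
      rw [map_add, map_mul, map_mul, map_mul]
      rw [← hab z, ← hab z']
      have h1 := hne _ (hb0 z)
      have h2 := hne _ (hb0 z')
      rw [hab z, hab z']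
      conv_rhs => rw [← hab z, ← hab z']
      field_simp)]
    have p1 : 0 < v (b z) := v.pos (hb0 z)
    have p2 : 0 < v (b z') := v.pos (hb0 z')
    rw [map_mul, div_add_div _ _ p1.ne' p2.ne', div_le_div_iff_of_pos_right (mul_pos p1 p2)]
    calc v (a z * b z' + a z' * b z) ≤ v (a z * b z') + v (a z' * b z) := v.add_le _ _
      _ = v (a z) * v (b z') + v (b z) * v (a z') := by
        rw [map_mul, map_mul]; ring
  · intro r
    change v (a (algebraMap R K r)) / v (b (algebraMap R K r)) = v r
    rw [key (algebraMap R K r) r 1 one_ne_zero (by simp)]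
    simp

/-- An absolute value bounded by one on the natural numbers is nonarchimedean. -/
theorem isNonarchimedean_of_natCast_le_one {L : Type*} [Field L] (v : AbsoluteValue L ℝ)
    (h : ∀ n : ℕ, v (n : L) ≤ 1) : IsNonarchimedean v := by
  have hu : IsUltrametricDist (WithAbs v) :=
    IsUltrametricDist.isUltrametricDist_of_forall_norm_natCast_le_one (fun n => by
      have : ‖(n : WithAbs v)‖ = v (n : L) := rfl
      rw [this]
      exact h n)
  intro x y
  exact IsUltrametricDist.norm_add_le_max (WithAbs.toAbs v x) (WithAbs.toAbs v y)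

/-- One step: extension of a nonarchimedean absolute value to a simple extension. -/
theorem exists_abv_adjoin_simple {E L : Type*} [Field E] [Field L] [Algebra E L]
    (w : AbsoluteValue E ℝ) (hna : IsNonarchimedean w) (hnt : ∃ x, x ≠ 0 ∧ w x ≠ 1) (x : L) :
    ∃ w' : AbsoluteValue E⟮x⟯ ℝ, ∀ r : E, w' (algebraMap E E⟮x⟯ r) = w r := by
  classical
  by_cases halg : IsAlgebraic E x
  · have : Algebra.IsAlgebraic E E⟮x⟯ := isAlgebraic_adjoin_simple halg.isIntegral
    exact exists_abv_extension w hna hnt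
  · have hG : IsAbsoluteValue (Polynomial.gaussNorm w 1) :=
      Polynomial.gaussNorm_isAbsoluteValue hna one_pos
    let Gv : AbsoluteValue (Polynomial E) ℝ := IsAbsoluteValue.toAbsoluteValue (Polynomial.gaussNorm w 1)
    obtain ⟨W, hW⟩ := exists_abv_fraction (K := RatFunc E) Gv
    let Eq := RatFunc.algEquivOfTranscendental x halg
    let f : E⟮x⟯ →+* RatFunc E := Eq.symm.toRingEquiv.toRingHom
    have hf : Function.Injective f := Eq.symm.injective
    refine ⟨W.comp hf, fun r => ?_⟩
    change W (Eq.symm (algebraMap E E⟮x⟯ r)) = w r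
    rw [AlgEquiv.commutes, IsScalarTower.algebraMap_apply E (Polynomial E) (RatFunc E), hW]
    change Polynomial.gaussNorm w 1 (algebraMap E (Polynomial E) r) = w r
    rw [Polynomial.algebraMap_eq, Polynomial.gaussNorm_C]

section zorn

variable {F L : Type*} [Field F] [Field L] [Algebra F L]

/-- An absolute value defined on an intermediate field and extending `v0`, stored as a function on
the big field. -/
structure PExt (v0 : AbsoluteValue F ℝ) (L : Type*) [Field L] [Algebra F L] where
  /-- the domain -/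
  E : IntermediateField F L
  /-- the function -/
  f : L → ℝ
  map_mul : ∀ x ∈ E, ∀ y ∈ E, f (x * y) = f x * f y
  nonneg : ∀ x ∈ E, 0 ≤ f x
  eq_zero : ∀ x ∈ E, f x = 0 ↔ x = 0
  add_le : ∀ x ∈ E, ∀ y ∈ E, f (x + y) ≤ f x + f y
  ext : ∀ a : F, f (algebraMap F L a) = v0 a

variable {v0 : AbsoluteValue F ℝ}

instance : Preorder (PExt v0 L) where
  le p p' := p.E ≤ p'.E ∧ ∀ x ∈ p.E, p'.f x = p.f x
  le_refl p := ⟨le_rfl, fun _ _ => rfl⟩
  le_trans p p' p'' h h' := ⟨h.1.trans h'.1, fun x hx => by rw [h'.2 x (h.1 hx), h.2 x hx]⟩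

/-- the absolute value on the domain -/
def PExt.toAbv (p : PExt v0 L) : AbsoluteValue p.E ℝ where
  toFun x := p.f x
  map_mul' x y := p.map_mul x x.2 y y.2
  nonneg' x := p.nonneg x x.2
  eq_zero' x := by
    rw [p.eq_zero x x.2]
    exact ⟨fun h => Subtype.ext h, fun h => by rw [h]; rfl⟩
  add_le' x y := p.add_le x x.2 y y.2

open Classical in
/-- extension by zero of an absolute value on a subfield given by a predicate -/
noncomputable def PExt.mk' (E : IntermediateField F L) {E₀ : Type*} [Field E₀] [Algebra E₀ L]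
    (K : IntermediateField E₀ L) (hK : ∀ y, y ∈ E ↔ y ∈ K) (w : AbsoluteValue K ℝ)
    (hw : ∀ a : F, ∀ h : algebraMap F L a ∈ K, w ⟨algebraMap F L a, h⟩ = v0 a) : PExt v0 L where
  E := E
  f := fun y => if h : y ∈ K then w ⟨y, h⟩ else 0
  map_mul x hx y hy := by
    have hx' := (hK x).mp hx
    have hy' := (hK y).mp hy
    rw [dif_pos hx', dif_pos hy', dif_pos (K.mul_mem hx' hy')]
    exact w.map_mul ⟨x, hx'⟩ ⟨y, hy'⟩
  nonneg x hx := by
    rw [dif_pos ((hK x).mp hx)]
    exact w.nonneg _
  eq_zero x hx := by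
    rw [dif_pos ((hK x).mp hx), w.eq_zero]
    exact ⟨fun h => congrArg Subtype.val h, fun h => Subtype.ext h⟩
  add_le x hx y hy := by
    have hx' := (hK x).mp hx
    have hy' := (hK y).mp hy
    rw [dif_pos hx', dif_pos hy', dif_pos (K.add_mem hx' hy')]
    exact w.add_le ⟨x, hx'⟩ ⟨y, hy'⟩
  ext a := by
    have h : algebraMap F L a ∈ K := (hK _).mp (E.algebraMap_mem a)
    rw [dif_pos h]
    exact hw a h

open Classical in
lemma PExt.chain_bdd (c : Set (PExt v0 L)) (hc : IsChain (· ≤ ·) c) (hne : c.Nonempty) :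
    BddAbove c := by
  have hnonempty : Nonempty c := hne.to_subtype
  let S : c → IntermediateField F L := fun i => i.1.E
  have dir : Directed (· ≤ ·) S := by
    intro i j
    rcases hc.total i.2 j.2 with h | h
    · exact ⟨j, h.1, le_rfl⟩
    · exact ⟨i, le_rfl, h.1⟩
  have hmem : ∀ x, x ∈ (⨆ i, S i) ↔ ∃ i : c, x ∈ i.1.E := by
    intro x
    rw [← SetLike.mem_coe, IntermediateField.coe_iSup_of_directed dir, Set.mem_iUnion]
    rfl
  let g : L → ℝ := fun x => if h : ∃ i : c, x ∈ i.1.E then (Classical.choose h).1.f x else 0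
  have hg : ∀ (i : c) x, x ∈ i.1.E → g x = i.1.f x := by
    intro i x hx
    have h : ∃ i : c, x ∈ i.1.E := ⟨i, hx⟩
    simp only [g, dif_pos h]
    have hx' := Classical.choose_spec h
    rcases hc.total (Classical.choose h).2 i.2 with h1 | h1
    · exact (h1.2 x hx').symm
    · exact h1.2 x hx
  have two : ∀ x y, x ∈ (⨆ i, S i) → y ∈ (⨆ i, S i) → ∃ i : c, x ∈ i.1.E ∧ y ∈ i.1.E := by
    intro x y hx hy
    obtain ⟨i, hi⟩ := (hmem x).mp hx
    obtain ⟨j, hj⟩ := (hmem y).mp hy
    obtain ⟨k, hik, hjk⟩ := dir i j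
    exact ⟨k, hik hi, hjk hj⟩
  refine ⟨⟨⨆ i, S i, g, ?_, ?_, ?_, ?_, ?_⟩, ?_⟩
  · intro x hx y hy
    obtain ⟨i, hi, hj⟩ := two x y hx hy
    rw [hg i x hi, hg i y hj, hg i (x * y) (i.1.E.mul_mem hi hj)]
    exact i.1.map_mul x hi y hj
  · intro x hx
    obtain ⟨i, hi⟩ := (hmem x).mp hx
    rw [hg i x hi]
    exact i.1.nonneg x hi
  · intro x hx
    obtain ⟨i, hi⟩ := (hmem x).mp hx
    rw [hg i x hi]
    exact i.1.eq_zero x hi
  · intro x hx y hy
    obtain ⟨i, hi, hj⟩ := two x y hx hy
    rw [hg i x hi, hg i y hj, hg i (x + y) (i.1.E.add_mem hi hj)]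
    exact i.1.add_le x hi y hj
  · intro a
    obtain ⟨i⟩ := hnonempty
    rw [hg i _ (i.1.E.algebraMap_mem a)]
    exact i.1.ext a
  · intro p hp
    refine ⟨le_iSup S ⟨p, hp⟩, fun x hx => hg ⟨p, hp⟩ x hx⟩

/-- A nontrivial nonarchimedean absolute value extends to every extension field. -/
theorem exists_abv_extension_field (v0 : AbsoluteValue F ℝ) (hna : IsNonarchimedean v0)
    (hnt : ∃ x, x ≠ 0 ∧ v0 x ≠ 1) :
    ∃ v : AbsoluteValue L ℝ, ∀ x : F, v (algebraMap F L x) = v0 x := by
  classical
  -- one step, in terms of the extension data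
  have step : ∀ (p : PExt v0 L) (x : L), ∃ p' : PExt v0 L, p ≤ p' ∧ x ∈ p'.E := by
    intro p x
    have hna' : IsNonarchimedean p.toAbv := by
      apply isNonarchimedean_of_natCast_le_one
      intro n
      change p.f ((n : p.E) : L) ≤ 1
      have h1 : ((n : p.E) : L) = algebraMap F L (n : F) := by simp
      rw [h1, p.ext]
      exact IsNonarchimedean.apply_natCast_le_one hna
    have hnt' : ∃ y : p.E, y ≠ 0 ∧ p.toAbv y ≠ 1 := by
      obtain ⟨a, ha0, ha1⟩ := hnt
      refine ⟨algebraMap F p.E a, ?_, ?_⟩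
      · intro h
        exact ha0 ((algebraMap F p.E).injective (by rw [h, map_zero]))
      · change p.f (algebraMap F L a) ≠ 1
        rw [p.ext]
        exact ha1
    obtain ⟨w', hw'⟩ := exists_abv_adjoin_simple p.toAbv hna' hnt' x
    let K : IntermediateField p.E L := (p.E)⟮x⟯
    have hsub : ∀ y (hy : y ∈ p.E), y ∈ K := fun y hy => K.algebraMap_mem ⟨y, hy⟩
    have hval : ∀ y (hy : y ∈ p.E) (h : y ∈ K), w' ⟨y, h⟩ = p.f y := by
      intro y hy h
      exact hw' ⟨y, hy⟩
    refine ⟨PExt.mk' (K.restrictScalars F) K (fun y => Iff.rfl) w' ?_, ⟨?_, ?_⟩, ?_⟩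
    · intro a h
      rw [hval _ (p.E.algebraMap_mem a) h, p.ext]
    · intro y hy
      exact hsub y hy
    · intro y hy
      change (if h : y ∈ K then w' ⟨y, h⟩ else 0) = p.f y
      rw [dif_pos (hsub y hy)]
      exact hval y hy _
    · exact mem_adjoin_simple_self (p.E) x
  -- a first element
  have hne : Nonempty (PExt v0 L) := by
    obtain ⟨w, hw⟩ := exists_abv_adjoin_simple (L := L) v0 hna hnt 0
    exact ⟨PExt.mk' F⟮(0 : L)⟯ F⟮(0 : L)⟯ (fun y => Iff.rfl) w (fun a h => hw a)⟩
  obtain ⟨m, hm⟩ := zorn_le_nonempty (α := PExt v0 L) PExt.chain_bdd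
  have htop : ∀ x : L, x ∈ m.E := by
    intro x
    obtain ⟨p', hle, hx⟩ := step m x
    exact (hm hle).1 hx
  refine ⟨{ toFun := m.f
            map_mul' := fun x y => m.map_mul x (htop x) y (htop y)
            nonneg' := fun x => m.nonneg x (htop x)
            eq_zero' := fun x => m.eq_zero x (htop x)
            add_le' := fun x y => m.add_le x (htop x) y (htop y) }, fun a => m.ext a⟩

end zorn

end Vale.Agent.P184
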