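import Vale.Agent.P184.AbvExt

namespace Vale.Agent.P184

open IntermediateField

/-- The `X`-adic absolute value on a simple transcendental extension. -/
lemma exists_abv_simple {K L : Type*} [Field K] [Field L] [Algebra K L] (μ : L)
    (h : Transcendental K μ) :
    ∃ v₀ : AbsoluteValue K⟮μ⟯ ℝ, IsNonarchimedean v₀ ∧ v₀ (AdjoinSimple.gen K μ) < 1 := by
  classical
  let E := RatFunc.algEquivOfTranscendental μ h
  have hb : (1 : NNReal) < 2 := by norm_num
  let w : AbsoluteValue (RatFunc K) ℝ := (Polynomial.idealX K).adicAbv hb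
  have hw : IsNonarchimedean w := (Polynomial.idealX K).isNonarchimedean_adicAbv hb
  let f : K⟮μ⟯ →+* RatFunc K := E.symm.toRingEquiv.toRingHom
  have hf : Function.Injective f := E.symm.injective
  refine ⟨w.comp hf, ?_, ?_⟩
  · intro x y
    change w (f (x + y)) ≤ max (w (f x)) (w (f y))
    rw [map_add]
    exact hw _ _
  · have h1 : f (AdjoinSimple.gen K μ) = RatFunc.X := by
      have h2 : E RatFunc.X = AdjoinSimple.gen K μ := by
        apply Subtype.ext
        simp [E]
      change E.symm (AdjoinSimple.gen K μ) = RatFunc.X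
      rw [← h2, AlgEquiv.symm_apply_apply]
    change w (f (AdjoinSimple.gen K μ)) < 1
    rw [h1]
    have h3 : (RatFunc.X : RatFunc K) = algebraMap (Polynomial K) (RatFunc K) Polynomial.X :=
      RatFunc.algebraMap_X.symm
    rw [h3]
    change (Polynomial.idealX K).adicAbv hb _ < 1
    rw [IsDedekindDomain.HeightOneSpectrum.adicAbv_coe_lt_one_iff]
    rw [Polynomial.idealX_span]
    exact Ideal.mem_span_singleton_self _

open algebraAdjoinAdjoin in
/-- A field with an element transcendental over a subfield carries a real absolute value which is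
not one at this element. -/
theorem exists_abv_of_transcendental {k L : Type*} [Field k] [Field L] [Algebra k L] (μ : L)
    (hμ : Transcendental k μ) : ∃ v : AbsoluteValue L ℝ, v μ ≠ 1 := by
  classical
  have hs : AlgebraicIndepOn k id ({μ} : Set L) :=
    (algebraicIndependent_singleton_iff (⟨μ, rfl⟩ : ({μ} : Set L))).mpr hμ
  obtain ⟨t, hst, ht⟩ := exists_isTranscendenceBasis_superset hs
  let x : t → L := fun i => (i : L)
  let i₀ : t := ⟨μ, hst rfl⟩
  let s : Set t := {i₀}ᶜ
  have htr : Transcendental (Algebra.adjoin k (x '' s)) (x i₀) :=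
    ht.1.transcendental_adjoin (s := s) (i := i₀) (by simp [s])
  let K₁ : IntermediateField k L := IntermediateField.adjoin k (x '' s)
  have htr₁ : Transcendental K₁ μ := by
    intro halg
    apply htr
    exact (IsFractionRing.isAlgebraic_iff (Algebra.adjoin k (x '' s)) K₁ L).mpr halg
  obtain ⟨v₀, hna, hlt⟩ := exists_abv_simple μ htr₁
  have htower : IsScalarTower k K₁⟮μ⟯ L := IsScalarTower.of_algebraMap_eq fun _ => rfl
  have halg : Algebra.IsAlgebraic K₁⟮μ⟯ L := by
    rw [ht.isAlgebraic_iff]
    intro i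
    have hmem : (i : L) ∈ K₁⟮μ⟯ := by
      by_cases hi : i = i₀
      · rw [hi]
        exact mem_adjoin_simple_self K₁ μ
      · have h1 : (i : L) ∈ K₁ := IntermediateField.subset_adjoin k _ ⟨i, by simpa [s] using hi, rfl⟩
        exact IntermediateField.algebraMap_mem K₁⟮μ⟯ (⟨(i : L), h1⟩ : K₁)
    exact isAlgebraic_algebraMap (⟨(i : L), hmem⟩ : K₁⟮μ⟯)
  have hgen0 : AdjoinSimple.gen K₁ μ ≠ 0 := by
    intro h0
    have h1 : μ = 0 := by
      have := congrArg Subtype.val h0
      simpa using this
    exact htr₁ (h1 ▸ isAlgebraic_zero)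
  obtain ⟨v, hv⟩ := exists_abv_extension (L := L) v₀ hna ⟨AdjoinSimple.gen K₁ μ, hgen0, hlt.ne⟩
  refine ⟨v, ?_⟩
  have h2 := hv (AdjoinSimple.gen K₁ μ)
  have h3 : algebraMap K₁⟮μ⟯ L (AdjoinSimple.gen K₁ μ) = μ := rfl
  rw [h3] at h2
  rw [h2]
  exact hlt.ne

end Vale.Agent.P184
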