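import Mathlib

namespace Vale.Agent.P184

/-- Two idempotents of a ring whose difference is small for a submultiplicative size
relation `D` have the same value under every bounded trace. -/
theorem trace_eq_of_close {B : Type*} [Ring B] (D : B → ℝ → Prop) (Tr : B →+ ℂ) (K : ℝ)
    (hmul : ∀ x y r s, D x r → D y s → D (x * y) (r * s))
    (hTr : ∀ x y, Tr (x * y) = Tr (y * x))
    (hbd : ∀ x r, D x r → ‖Tr x‖ ≤ K * r)
    {e f : B} (he : e * e = e) (hf : f * f = f) {r : ℝ} (hr0 : 0 ≤ r) (hr : r < 1)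
    (hD : D (e - f) r) : Tr e = Tr f := by
  set A : B := e - f with hA
  set C : B := 1 - e - f with hC
  have hAC : A * C = -(C * A) := by
    simp only [hA, hC, sub_mul, mul_sub, mul_one, one_mul, he, hf]
    abel
  have hsq : A * A + C * C = 1 := by
    simp only [hA, hC, sub_mul, mul_sub, mul_one, one_mul, he, hf]
    abel
  have hodd : ∀ k : ℕ, A ^ (2 * k + 1) * C = -(C * A ^ (2 * k + 1)) := by
    intro k
    induction k with
    | zero => simpa using hAC
    | succ k ih =>
      have h1 : A ^ (2 * (k + 1) + 1) = A ^ (2 * k + 1) * A * A := by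
        rw [show 2 * (k + 1) + 1 = (2 * k + 1) + 1 + 1 by ring, pow_succ, pow_succ]
      calc A ^ (2 * (k + 1) + 1) * C = A ^ (2 * k + 1) * A * (A * C) := by
            rw [h1]; simp only [mul_assoc]
        _ = A ^ (2 * k + 1) * A * (-(C * A)) := by rw [hAC]
        _ = -(A ^ (2 * k + 1) * (A * C) * A) := by
            simp only [mul_neg, mul_assoc]
        _ = -(A ^ (2 * k + 1) * (-(C * A)) * A) := by rw [hAC]
        _ = A ^ (2 * k + 1) * C * A * A := by
            simp only [mul_neg, neg_mul, neg_neg, mul_assoc]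
        _ = -(C * A ^ (2 * (k + 1) + 1)) := by
            rw [ih, h1]; simp only [neg_mul, mul_assoc]
  have hzero : ∀ k : ℕ, Tr (A ^ (2 * k + 1) * (C * C)) = 0 := by
    intro k
    have h1 : Tr (A ^ (2 * k + 1) * (C * C)) = Tr (C * (A ^ (2 * k + 1) * C)) := by
      rw [← mul_assoc, hTr]
    have h2 : C * (A ^ (2 * k + 1) * C) = -(A ^ (2 * k + 1) * (C * C)) := by
      have := hodd k
      calc C * (A ^ (2 * k + 1) * C) = (C * A ^ (2 * k + 1)) * C := by rw [mul_assoc]
        _ = -(A ^ (2 * k + 1) * C) * C := by rw [this, neg_neg]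
        _ = -(A ^ (2 * k + 1) * (C * C)) := by rw [neg_mul, mul_assoc]
    rw [h2, map_neg] at h1
    have h3 : (2 : ℂ) * Tr (A ^ (2 * k + 1) * (C * C)) = 0 := by
      linear_combination h1
    simpa using h3
  have hstep : ∀ k : ℕ, Tr (A ^ (2 * k + 1)) = Tr A := by
    intro k
    induction k with
    | zero => simp
    | succ k ih =>
      have h1 : A ^ (2 * (k + 1) + 1) = A ^ (2 * k + 1) * (A * A) := by
        rw [show 2 * (k + 1) + 1 = (2 * k + 1) + 1 + 1 by ring, pow_succ, pow_succ, mul_assoc]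
      have h2 : A ^ (2 * k + 1) = A ^ (2 * k + 1) * (A * A) + A ^ (2 * k + 1) * (C * C) := by
        rw [← mul_add, hsq, mul_one]
      rw [h1, ← ih]
      conv_rhs => rw [h2]
      rw [map_add, hzero k, add_zero]
  have hDpow : ∀ n : ℕ, D (A ^ (n + 1)) (r ^ (n + 1)) := by
    intro n
    induction n with
    | zero => simpa using hD
    | succ n ih =>
      rw [pow_succ A, pow_succ r]
      exact hmul _ _ _ _ ih hD
  have hbound : ∀ k : ℕ, ‖Tr A‖ ≤ K * r ^ (2 * k + 1) := by
    intro k
    rw [← hstep k]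
    exact hbd _ _ (hDpow (2 * k))
  have hlim : Filter.Tendsto (fun k : ℕ => K * r ^ (2 * k + 1)) Filter.atTop (nhds 0) := by
    have h1 : Filter.Tendsto (fun n : ℕ => r ^ n) Filter.atTop (nhds 0) :=
      tendsto_pow_atTop_nhds_zero_of_lt_one hr0 hr
    have h2 : Filter.Tendsto (fun k : ℕ => 2 * k + 1) Filter.atTop Filter.atTop := by
      apply Filter.tendsto_atTop_mono (fun k => by omega : ∀ k : ℕ, k ≤ 2 * k + 1)
      exact Filter.tendsto_id
    have h3 := (h1.comp h2).const_mul K
    simpa using h3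
  have hle : ‖Tr A‖ ≤ 0 := ge_of_tendsto' hlim hbound
  have h0 : Tr A = 0 := by simpa using le_antisymm hle (norm_nonneg _)
  have : Tr e - Tr f = 0 := by rw [← map_sub]; exact h0
  exact sub_eq_zero.mp this

end Vale.Agent.P184
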