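import Vale.Agent.P184.Kernel
import Vale.Agent.P184.CloseIdem

set_option linter.unusedSectionVars false

namespace Vale.Agent.P184

open scoped BigOperators

section trace

variable {G : Type*} [Group G] {R : Type*} [NormedRing R] [NormedAlgebra ℂ R] [CompleteSpace R]

open Classical in
/-- the trace of a kernel along the conjugation invariant set `P` -/
noncomputable def ktr (P : G → Prop) (t : R →L[ℂ] ℂ) (b : G → G → R) : ℂ :=
  ∑' x, if P x then t (b x x) else 0

open Classical in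
lemma ktr_term_bound (P : G → Prop) (t : R →L[ℂ] ℂ) {b : G → G → R} {m : G → ℝ} (hb : Maj b m)
    (x : G) : ‖(if P x then t (b x x) else 0 : ℂ)‖ ≤ ‖t‖ * m x := by
  split_ifs
  · exact (t.le_opNorm _).trans (mul_le_mul_of_nonneg_left (hb.2 _ _) (norm_nonneg _))
  · simpa using mul_nonneg (norm_nonneg t) (hb.nonneg x)

open Classical in
lemma ktr_summable (P : G → Prop) (t : R →L[ℂ] ℂ) {b : G → G → R} {m : G → ℝ} (hb : Maj b m) :
    Summable (fun x => (if P x then t (b x x) else 0 : ℂ)) :=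
  Summable.of_norm_bounded (hb.1.mul_left ‖t‖) (ktr_term_bound P t hb)

lemma ktr_bound (P : G → Prop) (t : R →L[ℂ] ℂ) {b : G → G → R} {m : G → ℝ} (hb : Maj b m) :
    ‖ktr P t b‖ ≤ ‖t‖ * ∑' x, m x := by
  unfold ktr
  refine tsum_of_norm_bounded ?_ (ktr_term_bound P t hb)
  exact hb.1.hasSum.mul_left ‖t‖

lemma ktr_add (P : G → Prop) (t : R →L[ℂ] ℂ) {a b : G → G → R} {m n : G → ℝ} (ha : Maj a m)
    (hb : Maj b n) : ktr P t (a + b) = ktr P t a + ktr P t b := by
  unfold ktr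
  rw [← (ktr_summable P t ha).tsum_add (ktr_summable P t hb)]
  refine tsum_congr (fun x => ?_)
  split_ifs <;> simp

open Classical in
lemma ktr_kmul (P : G → Prop) (t : R →L[ℂ] ℂ) {a b : G → G → R} {m n : G → ℝ} (ha : Maj a m)
    (hb : Maj b n) :
    Summable (fun p : G × G =>
      (if P (p.1 * p.2) then t (a p.1 (p.1 * p.2) * b p.2 (p.2 * p.1)) else 0 : ℂ)) ∧
    ktr P t (kmul a b) = ∑' p : G × G,
      (if P (p.1 * p.2) then t (a p.1 (p.1 * p.2) * b p.2 (p.2 * p.1)) else 0 : ℂ) := by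
  set F : G × G → ℂ := fun p =>
      (if P (p.1 * p.2) then t (a p.1 (p.1 * p.2) * b p.2 (p.2 * p.1)) else 0 : ℂ) with hFdef
  have hF : Summable F := by
    refine Summable.of_norm_bounded (g := fun p : G × G => ‖t‖ * (m p.1 * n p.2))
      ((ha.1.mul_of_nonneg hb.1 ha.nonneg hb.nonneg).mul_left _) ?_
    intro p
    simp only [hFdef]
    split_ifs
    · refine (t.le_opNorm _).trans (mul_le_mul_of_nonneg_left ?_ (norm_nonneg _))
      exact (norm_mul_le _ _).trans
        (mul_le_mul (ha.2 _ _) (hb.2 _ _) (norm_nonneg _) (ha.nonneg _))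
    · simpa using mul_nonneg (norm_nonneg t) (mul_nonneg (ha.nonneg p.1) (hb.nonneg p.2))
  refine ⟨hF, ?_⟩
  rw [← tsum_shear hF]
  unfold ktr kmul
  refine tsum_congr (fun w => ?_)
  split_ifs with hw
  · rw [t.map_tsum (kmul_term_summable ha hb w w)]
    refine tsum_congr (fun x => ?_)
    simp only [hFdef, mul_inv_cancel_left, if_pos hw]
  · symm
    have : ∀ x : G, F (x, x⁻¹ * w) = 0 := by
      intro x
      simp only [hFdef, mul_inv_cancel_left, if_neg hw]
    simp [this]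

lemma ktr_kmul_comm (P : G → Prop) (hP : ∀ c x, P c → P (x⁻¹ * c * x)) (t : R →L[ℂ] ℂ)
    (ht : ∀ a b, t (a * b) = t (b * a)) {a b : G → G → R} {m n : G → ℝ} (ha : Maj a m)
    (hb : Maj b n) : ktr P t (kmul a b) = ktr P t (kmul b a) := by
  classical
  rw [(ktr_kmul P t ha hb).2, (ktr_kmul P t hb ha).2, ← (Equiv.prodComm G G).tsum_eq]
  refine tsum_congr (fun p => ?_)
  obtain ⟨x, y⟩ := p
  have hiff : P (x * y) ↔ P (y * x) := by
    constructor
    · intro h
      have := hP _ x h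
      simpa [mul_assoc] using this
    · intro h
      have := hP _ y h
      simpa [mul_assoc] using this
  change (if P (y * x) then t (a y (y * x) * b x (x * y)) else 0 : ℂ) =
    (if P (x * y) then t (b x (x * y) * a y (y * x)) else 0 : ℂ)
  by_cases h : P (x * y)
  · rw [if_pos h, if_pos (hiff.mp h), ht]
  · rw [if_neg h, if_neg (fun h' => h (hiff.mpr h'))]

/-- the trace as an additive map on the ring of kernels -/
noncomputable def ktrHom (P : G → Prop) (t : R →L[ℂ] ℂ) : kerSub G R →+ ℂ where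
  toFun b := ktr P t b.1
  map_zero' := by simp [ktr]
  map_add' := by
    rintro ⟨a, m, ha⟩ ⟨b, n, hb⟩
    exact ktr_add P t ha hb

end trace

section core

variable {G : Type*} [Group G] {R : Type*} [NormedRing R] [NormedAlgebra ℂ R] [CompleteSpace R]

/-- the unimodular number with angle `φ` -/
noncomputable def ph (φ : ℝ) : ℂ := Complex.exp (Complex.I * φ)

lemma norm_ph (φ : ℝ) : ‖ph φ‖ = 1 := Complex.norm_exp_I_mul_ofReal φ

lemma ph_add (φ ψ : ℝ) : ph (φ + ψ) = ph φ * ph ψ := by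
  unfold ph
  rw [← Complex.exp_add]
  congr 1
  push_cast
  ring

lemma ph_zero : ph 0 = 1 := by simp [ph]

lemma norm_ph_sub_one_le (φ : ℝ) : ‖ph φ - 1‖ ≤ min 2 |φ| := by
  refine le_min ?_ ?_
  · calc ‖ph φ - 1‖ ≤ ‖ph φ‖ + ‖(1 : ℂ)‖ := norm_sub_le _ _
      _ = 2 := by rw [norm_ph]; norm_num
  · exact Real.norm_exp_I_mul_ofReal_sub_one_le

lemma ph_ne_one {φ : ℝ} (h0 : 0 < φ) (h1 : φ < 1) : ph φ ≠ 1 := by
  intro h
  have h2 : ‖ph φ - 1‖ = ‖2 * Real.sin (φ / 2)‖ := Complex.norm_exp_I_mul_ofReal_sub_one φ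
  rw [h, sub_self, norm_zero] at h2
  have h3 : 0 < Real.sin (φ / 2) :=
    Real.sin_pos_of_pos_of_lt_pi (by linarith) (by linarith [Real.pi_gt_three])
  have h4 : 0 < ‖2 * Real.sin (φ / 2)‖ := by
    rw [norm_pos_iff]
    positivity
  linarith

/-- the deformed kernel -/
noncomputable def defK (E : G → R) (κ : G → G → ℝ) (θ : ℝ) : G → G → R :=
  fun x s => ph (θ * κ s x) • E x

lemma defK_maj {E : G → R} (hE : Summable fun x => ‖E x‖) (κ : G → G → ℝ) (θ : ℝ) :
    Maj (defK E κ θ) (fun x => ‖E x‖) :=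
  ⟨hE, fun x s => by simp [defK, norm_smul, norm_ph]⟩

lemma defK_idem {E : G → R} (hidem : ∀ w, ∑' x, E x * E (x⁻¹ * w) = E w)
    {κ : G → G → ℝ} (hκ : ∀ s x y, κ s (x * y) = κ s x + κ (x⁻¹ * s * x) y) (θ : ℝ) :
    kmul (defK E κ θ) (defK E κ θ) = defK E κ θ := by
  funext w s
  unfold kmul defK
  have : ∀ x : G, ph (θ * κ s x) • E x * ph (θ * κ (x⁻¹ * s * x) (x⁻¹ * w)) • E (x⁻¹ * w) =
      ph (θ * κ s w) • (E x * E (x⁻¹ * w)) := by
    intro x
    rw [smul_mul_smul_comm, ← ph_add, ← mul_add, ← hκ, mul_inv_cancel_left]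
  simp only [this]
  rw [tsum_const_smul'', hidem]

theorem core (t : R →L[ℂ] ℂ) (ht : ∀ a b, t (a * b) = t (b * a))
    (E : G → R) (hE : Summable fun x => ‖E x‖) (hidem : ∀ w, ∑' x, E x * E (x⁻¹ * w) = E w)
    (P : G → Prop) (hP : ∀ c x, P c → P (x⁻¹ * c * x))
    (κ : G → G → ℝ) (h1 : ∀ c, P c → ∀ x y, κ c (x * y) = κ c x + κ (x⁻¹ * c * x) y)
    (h2 : ∀ c, P c → κ c c = 1) (h3 : ∀ x, ∃ M, ∀ c, P c → |κ c x| ≤ M) :
    ∑' x : {x // P x}, t (E x) = 0 := by
  classical
  choose M hM using h3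
  set κ' : G → G → ℝ := fun s x => if P s then κ s x else 0 with hκ'
  have hP' : ∀ c x, P (x⁻¹ * c * x) → P c := by
    intro c x h
    have := hP _ x⁻¹ h
    simpa [mul_assoc] using this
  have hcoc : ∀ s x y, κ' s (x * y) = κ' s x + κ' (x⁻¹ * s * x) y := by
    intro s x y
    by_cases hs : P s
    · simp only [hκ', if_pos hs, if_pos (hP s x hs)]
      exact h1 s hs x y
    · have : ¬ P (x⁻¹ * s * x) := fun h => hs (hP' s x h)
      simp only [hκ', if_neg hs, if_neg this, add_zero]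
  have hbd : ∀ s x, |κ' s x| ≤ |M x| := by
    intro s x
    by_cases hs : P s
    · simp only [hκ', if_pos hs]
      exact (hM x s hs).trans (le_abs_self _)
    · simp only [hκ', if_neg hs, abs_zero]
      exact abs_nonneg _
  let e : ℝ → kerSub G R := fun θ => ⟨defK E κ' θ, _, defK_maj hE κ' θ⟩
  have he : ∀ θ, e θ * e θ = e θ := fun θ => Subtype.ext (defK_idem hidem hcoc θ)
  -- size of the difference
  let r : ℝ → G → ℝ := fun θ x => min 2 (|θ| * |M x|) * ‖E x‖
  have hr_le : ∀ θ x, ‖r θ x‖ ≤ 2 * ‖E x‖ := by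
    intro θ x
    have h0 : 0 ≤ min 2 (|θ| * |M x|) := le_min (by norm_num) (by positivity)
    rw [Real.norm_of_nonneg (mul_nonneg h0 (norm_nonneg _))]
    exact mul_le_mul_of_nonneg_right (min_le_left _ _) (norm_nonneg _)
  have hr_sum : ∀ θ, Summable (r θ) := fun θ =>
    Summable.of_norm_bounded (hE.mul_left 2) (hr_le θ)
  have hDom : ∀ θ, Dom (e θ - e 0) (∑' x, r θ x) := by
    intro θ
    refine ⟨r θ, ⟨hr_sum θ, fun x s => ?_⟩, le_rfl⟩
    change ‖ph (θ * κ' s x) • E x - ph (0 * κ' s x) • E x‖ ≤ _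
    rw [zero_mul, ph_zero, ← sub_smul, norm_smul]
    refine mul_le_mul_of_nonneg_right ?_ (norm_nonneg _)
    refine (norm_ph_sub_one_le _).trans (min_le_min le_rfl ?_)
    rw [abs_mul]
    exact mul_le_mul_of_nonneg_left (hbd s x) (abs_nonneg _)
  have hlim : Filter.Tendsto (fun θ => ∑' x, r θ x) (nhds 0) (nhds (∑' _x : G, (0 : ℝ))) := by
    refine tendsto_tsum_of_dominated_convergence (hE.mul_left 2) ?_
      (Filter.Eventually.of_forall (fun θ x => hr_le θ x))
    intro x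
    have hc : Continuous (fun θ : ℝ => min 2 (|θ| * |M x|) * ‖E x‖) := by fun_prop
    have := hc.tendsto 0
    simpa using this
  rw [tsum_zero] at hlim
  have hev : ∀ᶠ θ in nhds (0 : ℝ), ∑' x, r θ x < 1 := hlim.eventually (gt_mem_nhds one_pos)
  obtain ⟨δ, hδ, hball⟩ := Metric.eventually_nhds_iff.mp hev
  set θ : ℝ := min (δ / 2) (1 / 2) with hθ
  have hθ0 : 0 < θ := lt_min (by linarith) (by norm_num)
  have hθ1 : θ < 1 := (min_le_right _ _).trans_lt (by norm_num)
  have hθδ : dist θ 0 < δ := by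
    rw [Real.dist_eq, sub_zero, abs_of_pos hθ0]
    exact (min_le_left _ _).trans_lt (by linarith)
  have hsmall := hball hθδ
  have hnn : 0 ≤ ∑' x, r θ x :=
    tsum_nonneg (fun x => mul_nonneg (le_min (by norm_num) (by positivity)) (norm_nonneg _))
  have key : ktrHom P t (e θ) = ktrHom P t (e 0) := by
    refine trace_eq_of_close (B := kerSub G R) Dom (ktrHom P t) ‖t‖
      (fun x y r s hx hy => hx.mul hy) ?_ ?_ (he θ) (he 0) hnn hsmall (hDom θ)
    · rintro ⟨a, m, ha⟩ ⟨b, n, hb⟩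
      exact ktr_kmul_comm P hP t ht ha hb
    · rintro ⟨a, ma⟩ r ⟨m, hm, hmr⟩
      exact (ktr_bound P t hm).trans (mul_le_mul_of_nonneg_left hmr (norm_nonneg _))
  have hval : ∀ φ, ktrHom P t (e φ) = ph φ * ∑' x, (if P x then t (E x) else 0 : ℂ) := by
    intro φ
    change ktr P t (defK E κ' φ) = _
    unfold ktr defK
    rw [← tsum_mul_left]
    refine tsum_congr (fun x => ?_)
    by_cases hx : P x
    · simp only [if_pos hx, hκ', h2 x hx, mul_one, map_smul, smul_eq_mul]
    · simp only [if_neg hx, mul_zero]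
  rw [hval θ, hval 0, ph_zero, one_mul] at key
  have hzero : ∑' x, (if P x then t (E x) else 0 : ℂ) = 0 := by
    have h4 : (ph θ - 1) * ∑' x, (if P x then t (E x) else 0 : ℂ) = 0 := by
      rw [sub_mul, key, one_mul, sub_self]
    rcases mul_eq_zero.mp h4 with h | h
    · exact absurd (sub_eq_zero.mp h) (ph_ne_one hθ0 hθ1)
    · exact h
  have hsub := tsum_subtype {x | P x} (fun x => t (E x))
  rw [← hzero]
  refine hsub.trans (tsum_congr (fun x => ?_))
  simp [Set.indicator_apply]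

end core

end Vale.Agent.P184
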