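import Vale.Agent.P184.Defs
import Vale.Agent.P184.Core

namespace Vale.Agent.P184

open scoped BigOperators Matrix.Norms.Operator

section

variable {q : ℕ}

lemma mat_norm_le_sum (A : Matrix (Fin q) (Fin q) ℂ) : ‖A‖ ≤ ∑ i, ∑ j, ‖A i j‖ := by
  rw [Matrix.linfty_opNorm_def]
  have : (Finset.univ.sup fun i => ∑ j, ‖A i j‖₊) ≤ ∑ i, ∑ j, ‖A i j‖₊ := by
    refine Finset.sup_le (fun i _ => ?_)
    exact Finset.single_le_sum (f := fun i => ∑ j, ‖A i j‖₊) (fun _ _ => bot_le)
      (Finset.mem_univ i)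
  have h2 := NNReal.coe_le_coe.mpr this
  simpa using h2

/-- the matrix valued function attached to a matrix of functions -/
def toMat {G : Type*} (e : Fin q → Fin q → G → ℂ) (x : G) : Matrix (Fin q) (Fin q) ℂ :=
  Matrix.of (fun i j => e i j x)

/-- the entry functional -/
noncomputable def entryL (i j : Fin q) : Matrix (Fin q) (Fin q) ℂ →L[ℂ] ℂ :=
  LinearMap.toContinuousLinearMap (Matrix.entryLinearMap ℂ ℂ i j)

/-- the matrix trace as a continuous functional -/
noncomputable def traceL : Matrix (Fin q) (Fin q) ℂ →L[ℂ] ℂ :=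
  LinearMap.toContinuousLinearMap (Matrix.traceLinearMap (Fin q) ℂ ℂ)

variable {G : Type*} [Group G]

lemma toMat_summable {e : Fin q → Fin q → G → ℂ} (he : IsIdem e) :
    Summable (fun x => ‖toMat e x‖) := by
  refine Summable.of_nonneg_of_le (fun _ => norm_nonneg _) (fun x => mat_norm_le_sum _) ?_
  exact summable_sum (fun i _ => summable_sum (fun j _ => he.mem i j))

lemma toMat_idem {e : Fin q → Fin q → G → ℂ} (he : IsIdem e) (w : G) :
    ∑' x, toMat e x * toMat e (x⁻¹ * w) = toMat e w := by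
  have hs := toMat_summable he
  have hsum : Summable (fun x => toMat e x * toMat e (x⁻¹ * w)) := by
    refine Summable.of_norm_bounded
      (cv_fiber hs hs (fun _ => norm_nonneg _) (fun _ => norm_nonneg _) w) (fun x => ?_)
    exact norm_mul_le _ _
  ext i j
  have h1 : (∑' x, toMat e x * toMat e (x⁻¹ * w)) i j =
      ∑' x, (toMat e x * toMat e (x⁻¹ * w)) i j := (entryL i j).map_tsum hsum
  rw [h1]
  have h2 : ∀ x, (toMat e x * toMat e (x⁻¹ * w)) i j = ∑ k, e i k x * e k j (x⁻¹ * w) := by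
    intro x
    simp [Matrix.mul_apply, toMat]
  simp only [h2]
  rw [Summable.tsum_finsetSum]
  · exact he.idem i j w
  · intro k _
    refine Summable.of_norm_bounded
      (cv_fiber (he.mem i k) (he.mem k j) (fun _ => norm_nonneg _) (fun _ => norm_nonneg _) w)
      (fun x => ?_)
    exact norm_mul_le _ _

/-- The cocycle criterion. -/
theorem cocycle_criterion {e : Fin q → Fin q → G → ℂ} (he : IsIdem e) (C : ConjClasses G)
    (κ : G → G → ℝ)
    (h1 : ∀ c ∈ C.carrier, ∀ x y, κ c (x * y) = κ c x + κ (x⁻¹ * c * x) y)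
    (h2 : ∀ c ∈ C.carrier, κ c c = 1)
    (h3 : ∀ x, ∃ M, ∀ c ∈ C.carrier, |κ c x| ≤ M) : hs e C = 0 := by
  have hP : ∀ c x, c ∈ C.carrier → x⁻¹ * c * x ∈ C.carrier := by
    intro c x hc
    rw [ConjClasses.mem_carrier_iff_mk_eq] at hc ⊢
    rw [← hc]
    apply ConjClasses.mk_eq_mk_iff_isConj.mpr
    exact (isConj_iff.mpr ⟨x, by group⟩)
  have := core (traceL (q := q)) (fun a b => Matrix.trace_mul_comm a b) (toMat e)
    (toMat_summable he) (toMat_idem he) (fun c => c ∈ C.carrier) hP κ h1 h2 h3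
  unfold hs
  refine Eq.trans (tsum_congr (fun g => ?_)) this
  change ∑ i, e i i g = Matrix.trace (toMat e g)
  simp [toMat, Matrix.trace]

end

end Vale.Agent.P184
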