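import Vale.Agent.P184.Criteria

namespace Vale.Agent.P184

/-- The centralizer criterion for a homomorphism defined on the centralizer subgroup. -/
theorem centralizer_hom_criterion {G : Type*} [Group G] {q : ℕ} {e : Fin q → Fin q → G → ℂ}
    (he : IsIdem e) (l : G → ℝ) (hl : ∀ x y, l (x * y) ≤ l x + l y) (g : G)
    (φ : Subgroup.centralizer ({g} : Set G) →* Multiplicative ℝ)
    (hφ : ∀ z : Subgroup.centralizer ({g} : Set G), Multiplicative.toAdd (φ z) ≤ l (z : G))
    (hg : ∀ z : Subgroup.centralizer ({g} : Set G), (z : G) = g → φ z ≠ 1) :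
    hs e (ConjClasses.mk g) = 0 := by
  classical
  let Z := Subgroup.centralizer ({g} : Set G)
  let φ' : G → ℝ := fun y => if hy : y ∈ Z then Multiplicative.toAdd (φ ⟨y, hy⟩) else 0
  refine centralizer_criterion he l hl g φ' ?_ ?_ ?_
  · intro z w hz hw
    have hz' : z ∈ Z := (mem_cent_iff g z).mpr hz
    have hw' : w ∈ Z := (mem_cent_iff g w).mpr hw
    simp only [φ', dif_pos hz', dif_pos hw', dif_pos (Z.mul_mem hz' hw')]
    have : (⟨z * w, Z.mul_mem hz' hw'⟩ : Z) = ⟨z, hz'⟩ * ⟨w, hw'⟩ := rfl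
    rw [this, map_mul, toAdd_mul]
  · intro z hz
    have hz' : z ∈ Z := (mem_cent_iff g z).mpr hz
    simp only [φ', dif_pos hz']
    exact hφ ⟨z, hz'⟩
  · have hg' : g ∈ Z := (mem_cent_iff g g).mpr rfl
    simp only [φ', dif_pos hg']
    intro h
    exact hg ⟨g, hg'⟩ rfl h

/-- The conjecture in its literal form for RFRS groups is deduced in the hand-ins from this. -/
theorem finset_form {G : Type*} [Group G] {q : ℕ} {e : Fin q → Fin q → G → ℂ}
    (h : ∀ C : ConjClasses G, C ≠ ConjClasses.mk 1 → hs e C = 0) :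
    ∃ F : Finset (ConjClasses G), (∀ C ∈ F, ∀ g ∈ C.carrier, IsOfFinOrder g) ∧
      ∀ C, C ∉ F → hs e C = 0 := by
  refine ⟨{ConjClasses.mk 1}, ?_, ?_⟩
  · intro C hC g hg
    rw [Finset.mem_singleton] at hC
    rw [hC, ConjClasses.mem_carrier_iff_mk_eq, ConjClasses.mk_eq_mk_iff_isConj,
      isConj_one_left] at hg
    rw [hg]
    exact IsOfFinOrder.one
  · intro C hC
    rw [Finset.mem_singleton] at hC
    exact h C hC

end Vale.Agent.P184
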