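import Vale.Agent.P184.Bolic
import Vale.Agent.P184.CentHom

namespace Vale.Agent.P184

open Filter Topology

section round

variable {X : Type*} [PseudoMetricSpace X]

/-- The quadrilateral inequality (Enflo roundness two) implies the asymptotic four point
property. -/
lemma bolic_of_round
    (hQ : ∀ a b c d : X, dist a c ^ 2 + dist b d ^ 2 ≤
      dist a b ^ 2 + dist b c ^ 2 + dist c d ^ 2 + dist d a ^ 2) :
    ∀ r δ : ℝ, 0 < δ → ∃ R : ℝ, ∀ x₁ x₂ y₁ y₂ : X, dist x₁ x₂ + dist y₁ y₂ ≤ r →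
      R ≤ dist x₁ y₁ + dist x₂ y₂ →
      dist x₁ y₂ + dist x₂ y₁ ≤ dist x₁ y₁ + dist x₂ y₂ + δ := by
  intro r δ hδ
  refine ⟨3 * r ^ 2 / (2 * δ) + 1, ?_⟩
  intro x₁ x₂ y₁ y₂ hr hR
  have hq := hQ x₁ x₂ y₂ y₁
  set A := dist x₁ y₁ with hA
  set B := dist x₂ y₂ with hB
  set C := dist x₁ y₂ with hC
  set D := dist x₂ y₁ with hD
  set p := dist x₁ x₂ with hp
  set t := dist y₁ y₂ with ht
  have hp0 : 0 ≤ p := dist_nonneg
  have ht0 : 0 ≤ t := dist_nonneg
  have hA0 : 0 ≤ A := dist_nonneg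
  have hB0 : 0 ≤ B := dist_nonneg
  have hC0 : 0 ≤ C := dist_nonneg
  have hD0 : 0 ≤ D := dist_nonneg
  rw [dist_comm y₂ y₁, dist_comm y₁ x₁] at hq
  -- |A - B| ≤ p + t
  have hAB1 : A ≤ p + B + t := by
    have h1 := dist_triangle4 x₁ x₂ y₂ y₁
    rw [dist_comm y₂ y₁] at h1
    exact h1
  have hAB2 : B ≤ p + A + t := by
    have h1 := dist_triangle4 x₂ x₁ y₁ y₂
    rw [dist_comm x₂ x₁] at h1
    exact h1
  have hr0 : 0 ≤ r := by linarith
  have h3 : 0 ≤ 3 * r ^ 2 / (2 * δ) := by positivity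
  have hS : 0 < A + B := by linarith
  have hkey : 3 * r ^ 2 ≤ 2 * δ * (A + B) := by
    have h4 : 3 * r ^ 2 / (2 * δ) ≤ A + B := by linarith
    rw [div_le_iff₀ (by positivity)] at h4
    linarith
  have hAB : (A - B) ^ 2 ≤ r ^ 2 := by
    have h5 : |A - B| ≤ r := by
      rw [abs_le]
      constructor <;> linarith
    have := sq_le_sq' (by linarith [abs_le.mp h5 |>.1]) (abs_le.mp h5).2
    exact this
  have hpt : p ^ 2 + t ^ 2 ≤ r ^ 2 := by nlinarith
  have hsq : (C + D) ^ 2 ≤ (A + B + δ) ^ 2 := by nlinarith [sq_nonneg (C - D), sq_nonneg δ]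
  exact abs_le_of_sq_le_sq' hsq (by positivity) |>.2

/-- The CN inequality of Bruhat and Tits implies the quadrilateral inequality. -/
lemma round_of_CN
    (hCN : ∀ x y : X, ∃ m : X, ∀ z : X,
      dist z m ^ 2 ≤ (dist z x ^ 2 + dist z y ^ 2) / 2 - dist x y ^ 2 / 4) :
    ∀ a b c d : X, dist a c ^ 2 + dist b d ^ 2 ≤
      dist a b ^ 2 + dist b c ^ 2 + dist c d ^ 2 + dist d a ^ 2 := by
  intro a b c d
  obtain ⟨m, hm⟩ := hCN a c
  have h1 := hm b
  have h2 := hm d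
  have h3 := dist_triangle b m d
  rw [dist_comm m d] at h3
  rw [dist_comm b a] at h1
  rw [dist_comm d c] at h2
  have h4 : dist b d ^ 2 ≤ 2 * (dist b m ^ 2 + dist d m ^ 2) := by
    have h5 : dist b d ^ 2 ≤ (dist b m + dist d m) ^ 2 :=
      pow_le_pow_left₀ dist_nonneg h3 2
    nlinarith [sq_nonneg (dist b m - dist d m)]
  linarith

end round

section geom

variable {X : Type*} [PseudoMetricSpace X] {G : Type*} [Group G] [MulAction G X]

lemma CN_double (hiso : ∀ (a : G) (x y : X), dist (a • x) (a • y) = dist x y)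
    (hCN : ∀ x y : X, ∃ m : X, ∀ z : X,
      dist z m ^ 2 ≤ (dist z x ^ 2 + dist z y ^ 2) / 2 - dist x y ^ 2 / 4)
    (γ : G) (y : X) : ∃ m : X, 2 * dist m (γ • m) ≤ dist y (γ ^ 2 • y) := by
  obtain ⟨m, hm⟩ := hCN y (γ • y)
  refine ⟨m, ?_⟩
  have hγ2 : γ ^ 2 • y = γ • (γ • y) := by rw [pow_two, mul_smul]
  have h1 : dist m (γ • m) ^ 2 ≤ (dist m (γ • y) ^ 2 + dist m (γ ^ 2 • y) ^ 2) / 2
      - dist y (γ • y) ^ 2 / 4 := by
    have h := hm (γ⁻¹ • m)
    have e1 : dist (γ⁻¹ • m) m = dist m (γ • m) := by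
      have := hiso γ (γ⁻¹ • m) m
      rw [smul_inv_smul] at this
      exact this.symm
    have e2 : dist (γ⁻¹ • m) y = dist m (γ • y) := by
      have := hiso γ (γ⁻¹ • m) y
      rw [smul_inv_smul] at this
      exact this.symm
    have e3 : dist (γ⁻¹ • m) (γ • y) = dist m (γ ^ 2 • y) := by
      have := hiso γ (γ⁻¹ • m) (γ • y)
      rw [smul_inv_smul] at this
      rw [hγ2]
      exact this.symm
    rw [e1, e2, e3] at h
    exact h
  have h2 := hm (γ ^ 2 • y)
  have h3 := hm (γ • y)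
  rw [dist_self] at h3
  have e4 : dist (γ ^ 2 • y) (γ • y) = dist y (γ • y) := by
    rw [hγ2, hiso, dist_comm]
  rw [e4] at h2
  rw [dist_comm (γ • y) m, dist_comm (γ • y) y] at h3
  rw [dist_comm (γ ^ 2 • y) m, dist_comm (γ ^ 2 • y) y] at h2
  have h5 : (2 * dist m (γ • m)) ^ 2 ≤ dist y (γ ^ 2 • y) ^ 2 := by nlinarith
  exact abs_le_of_sq_le_sq' h5 dist_nonneg |>.2

lemma CN_pow_two (hiso : ∀ (a : G) (x y : X), dist (a • x) (a • y) = dist x y)
    (hCN : ∀ x y : X, ∃ m : X, ∀ z : X,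
      dist z m ^ 2 ≤ (dist z x ^ 2 + dist z y ^ 2) / 2 - dist x y ^ 2 / 4)
    (g : G) (δ : ℝ) (hδ : ∀ x : X, δ ≤ dist x (g • x)) (k : ℕ) :
    ∀ y : X, 2 ^ k * δ ≤ dist y (g ^ (2 ^ k) • y) := by
  induction k with
  | zero => intro y; simpa using hδ y
  | succ k ih =>
    intro y
    obtain ⟨m, hm⟩ := CN_double hiso hCN (g ^ (2 ^ k)) y
    have h1 := ih m
    have h2 : (g ^ (2 ^ k)) ^ 2 = g ^ (2 ^ (k + 1)) := by rw [← pow_mul, pow_succ]
    rw [h2] at hm
    calc (2 : ℝ) ^ (k + 1) * δ = 2 * (2 ^ k * δ) := by ring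
      _ ≤ 2 * dist m (g ^ (2 ^ k) • m) := by linarith
      _ ≤ _ := hm

lemma CN_linear (hiso : ∀ (a : G) (x y : X), dist (a • x) (a • y) = dist x y)
    (hCN : ∀ x y : X, ∃ m : X, ∀ z : X,
      dist z m ^ 2 ≤ (dist z x ^ 2 + dist z y ^ 2) / 2 - dist x y ^ 2 / 4)
    (g : G) (δ : ℝ) (hδ : ∀ x : X, δ ≤ dist x (g • x)) (x₀ : X) (n : ℕ) :
    δ * n ≤ dist x₀ (g ^ n • x₀) := by
  let a : ℕ → ℝ := fun n => dist x₀ (g ^ n • x₀)
  have hsub : Subadditive a := by
    intro m n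
    have h1 : dist (g ^ m • x₀) (g ^ (m + n) • x₀) = a n := by
      have : g ^ (m + n) • x₀ = g ^ m • (g ^ n • x₀) := by rw [← mul_smul, ← pow_add]
      rw [this, hiso]
    have := dist_triangle x₀ (g ^ m • x₀) (g ^ (m + n) • x₀)
    simp only [a]
    simp only [a] at h1
    linarith
  have hbdd : BddBelow (Set.range fun n => a n / n) := by
    refine ⟨0, ?_⟩
    rintro _ ⟨n, rfl⟩
    simp only [a]
    positivity
  have hlim := hsub.tendsto_lim hbdd
  have hpow : Tendsto (fun k : ℕ => 2 ^ k) atTop atTop :=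
    tendsto_pow_atTop_atTop_of_one_lt (by norm_num)
  have hlim2 := hlim.comp hpow
  have hge : δ ≤ hsub.lim := by
    refine ge_of_tendsto hlim2 (Filter.Eventually.of_forall ?_)
    intro k
    have h1 := CN_pow_two hiso hCN g δ hδ k x₀
    simp only [Function.comp, a]
    rw [le_div_iff₀ (by positivity)]
    push_cast
    linarith
  rcases Nat.eq_zero_or_pos n with rfl | hn
  · simp
  · have h2 := hsub.lim_le_div hbdd (Nat.pos_iff_ne_zero.mp hn)
    have h3 : δ ≤ a n / n := hge.trans h2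
    rw [le_div_iff₀ (by exact_mod_cast hn)] at h3
    exact h3

/-- Positive translation length on a CN space. -/
theorem CN_criterion {q : ℕ} {e : Fin q → Fin q → G → ℂ} (he : IsIdem e)
    (hiso : ∀ (a : G) (x y : X), dist (a • x) (a • y) = dist x y)
    (hCN : ∀ x y : X, ∃ m : X, ∀ z : X,
      dist z m ^ 2 ≤ (dist z x ^ 2 + dist z y ^ 2) / 2 - dist x y ^ 2 / 4)
    (g : G) (δ : ℝ) (hδ0 : 0 < δ) (hδ : ∀ x : X, δ ≤ dist x (g • x)) (x₀ : X) :
    hs e (ConjClasses.mk g) = 0 :=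
  bolic_criterion he hiso (bolic_of_round (round_of_CN hCN)) g x₀ δ hδ0
    (CN_linear hiso hCN g δ hδ x₀)

/-- The full statement for groups acting metrically properly and coboundedly on a CN space. -/
theorem CN_group {q : ℕ} {e : Fin q → Fin q → G → ℂ} (he : IsIdem e)
    (hiso : ∀ (a : G) (x y : X), dist (a • x) (a • y) = dist x y)
    (hCN : ∀ x y : X, ∃ m : X, ∀ z : X,
      dist z m ^ 2 ≤ (dist z x ^ 2 + dist z y ^ 2) / 2 - dist x y ^ 2 / 4)
    (x₀ : X) (hprop : ∀ R : ℝ, {s : G | dist x₀ (s • x₀) ≤ R}.Finite)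
    (R₀ : ℝ) (hcob : ∀ y : X, ∃ s : G, dist y (s • x₀) ≤ R₀) :
    ∃ F : Finset (ConjClasses G), (∀ C ∈ F, ∀ g ∈ C.carrier, IsOfFinOrder g) ∧
      ∀ C, C ∉ F → hs e C = 0 := by
  classical
  have hfin := hprop (2 * R₀ + 1)
  let S₀ : Finset G := hfin.toFinset
  have hS₀ : ∀ s, s ∈ S₀ ↔ dist x₀ (s • x₀) ≤ 2 * R₀ + 1 := by
    intro s
    simp [S₀]
  -- the dichotomy
  have hdich : ∀ g : G, (∀ δ : ℝ, 0 < δ → ∃ x : X, dist x (g • x) < δ) →
      ∃ s : G, s⁻¹ * g * s ∈ S₀ ∧ IsOfFinOrder g := by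
    intro g hg
    let N : ℕ := S₀.card + 1
    obtain ⟨x, hx⟩ := hg (1 / N) (by positivity)
    obtain ⟨s, hs⟩ := hcob x
    let g' : G := s⁻¹ * g * s
    have hpow : ∀ j : ℕ, g' ^ j = s⁻¹ * g ^ j * s := by
      intro j
      have : g' = s⁻¹ * g * s⁻¹⁻¹ := by simp [g']
      rw [this, conj_pow, inv_inv]
    have hdisp : ∀ j : ℕ, dist x (g ^ j • x) ≤ j * dist x (g • x) := by
      intro j
      induction j with
      | zero => simp
      | succ j ih =>
        have h1 : dist (g ^ j • x) (g ^ (j + 1) • x) = dist x (g • x) := by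
          have : g ^ (j + 1) • x = g ^ j • (g • x) := by rw [← mul_smul, ← pow_succ]
          rw [this, hiso]
        have := dist_triangle x (g ^ j • x) (g ^ (j + 1) • x)
        push_cast
        linarith
    have hmem : ∀ j : ℕ, j ≤ N → g' ^ j ∈ S₀ := by
      intro j hj
      rw [hS₀, hpow j]
      have h1 : dist x₀ ((s⁻¹ * g ^ j * s) • x₀) = dist (s • x₀) (g ^ j • (s • x₀)) := by
        have := hiso s x₀ ((s⁻¹ * g ^ j * s) • x₀)
        rw [← this, ← mul_smul, ← mul_smul]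
        congr 2
        group
      rw [h1]
      have h2 := dist_triangle4 (s • x₀) x (g ^ j • x) (g ^ j • (s • x₀))
      have h3 : dist (g ^ j • x) (g ^ j • (s • x₀)) = dist x (s • x₀) := hiso _ _ _
      have h4 := hdisp j
      have h5 : (j : ℝ) * dist x (g • x) ≤ 1 := by
        have hN : (0 : ℝ) < N := by positivity
        have h6 : (j : ℝ) ≤ N := by exact_mod_cast hj
        have h7 : dist x (g • x) ≤ 1 / N := hx.le
        calc (j : ℝ) * dist x (g • x) ≤ N * (1 / N) :=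
              mul_le_mul h6 h7 dist_nonneg hN.le
          _ = 1 := by field_simp
      rw [dist_comm (s • x₀) x, h3] at h2
      linarith
    refine ⟨s, by simpa using hmem 1 (by simp [N]), ?_⟩
    -- pigeonhole
    have hcard : S₀.card < (Finset.range (N + 1)).card := by
      simp [N]
    obtain ⟨i, hi, j, hj, hij, heq⟩ := Finset.exists_ne_map_eq_of_card_lt_of_maps_to hcard
      (f := fun j => g' ^ j) (fun j hj => hmem j (by
        have := Finset.mem_range.mp hj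
        omega))
    have hfo' : IsOfFinOrder g' := by
      rw [isOfFinOrder_iff_pow_eq_one]
      rcases lt_or_gt_of_ne hij with h | h
      · refine ⟨j - i, by omega, ?_⟩
        have h1 : g' ^ j = g' ^ i * g' ^ (j - i) := by rw [← pow_add]; congr 1; omega
        have heq' : g' ^ i = g' ^ j := heq
        rw [h1] at heq'
        exact (mul_eq_left.mp heq'.symm)
      · refine ⟨i - j, by omega, ?_⟩
        have h1 : g' ^ i = g' ^ j * g' ^ (i - j) := by rw [← pow_add]; congr 1; omega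
        have heq' : g' ^ i = g' ^ j := heq
        rw [h1] at heq'
        exact (mul_eq_left.mp heq')
    obtain ⟨n, hn, hn1⟩ := (isOfFinOrder_iff_pow_eq_one).mp hfo'
    rw [isOfFinOrder_iff_pow_eq_one]
    refine ⟨n, hn, ?_⟩
    rw [hpow n] at hn1
    have : g ^ n = s * (s⁻¹ * g ^ n * s) * s⁻¹ := by group
    rw [this, hn1]
    group
  have hconj : ∀ a b : G, IsConj a b → IsOfFinOrder a → IsOfFinOrder b := by
    intro a b hab ha
    obtain ⟨c, hc⟩ := isConj_iff.mp hab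
    obtain ⟨n, hn, hn1⟩ := (isOfFinOrder_iff_pow_eq_one).mp ha
    rw [isOfFinOrder_iff_pow_eq_one]
    refine ⟨n, hn, ?_⟩
    rw [← hc, conj_pow, hn1]
    group
  refine ⟨(S₀.filter fun s => IsOfFinOrder s).image ConjClasses.mk, ?_, ?_⟩
  · intro C hC g hg
    obtain ⟨s, hs, rfl⟩ := Finset.mem_image.mp hC
    rw [ConjClasses.mem_carrier_iff_mk_eq, ConjClasses.mk_eq_mk_iff_isConj] at hg
    exact hconj s g hg.symm (Finset.mem_filter.mp hs).2
  · intro C hC
    obtain ⟨g, rfl⟩ := ConjClasses.exists_rep C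
    by_cases hcase : ∃ δ : ℝ, 0 < δ ∧ ∀ x : X, δ ≤ dist x (g • x)
    · obtain ⟨δ, hδ0, hδ⟩ := hcase
      exact CN_criterion he hiso hCN g δ hδ0 hδ x₀
    · exfalso
      push Not at hcase
      obtain ⟨s, hs, hfo⟩ := hdich g hcase
      apply hC
      refine Finset.mem_image.mpr ⟨s⁻¹ * g * s, Finset.mem_filter.mpr ⟨hs, ?_⟩, ?_⟩
      · refine hconj g _ ?_ hfo
        rw [isConj_iff]
        exact ⟨s⁻¹, by simp⟩
      · rw [ConjClasses.mk_eq_mk_iff_isConj, isConj_iff]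
        exact ⟨s, by group⟩

end geom

end Vale.Agent.P184
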