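import Mathlib

namespace Vale.Agent.P184

open Polynomial

section eig

variable {K : Type*} [Field K] [IsAlgClosed K] {V : Type*} [AddCommGroup V] [Module K V]
  [FiniteDimensional K V]

/-- In characteristic `p`, an endomorphism all of whose eigenvalues are roots of unity has
finite order. -/
lemma pow_eq_one_of_eigenvalues (p : ℕ) [Fact p.Prime] [CharP K p] (T : Module.End K V)
    (h : ∀ μ : K, T.HasEigenvalue μ → ∃ m : ℕ, 0 < m ∧ μ ^ m = 1) :
    ∃ N : ℕ, 0 < N ∧ T ^ N = 1 := by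
  classical
  set P := minpoly K T with hP
  have hmonic : P.Monic := minpoly.monic (Algebra.IsIntegral.isIntegral T)
  have hsplit : P.Splits := IsAlgClosed.splits P
  have hroot : ∀ a ∈ P.roots, ∃ m : ℕ, 0 < m ∧ a ^ m = 1 := by
    intro a ha
    apply h
    rw [Module.End.hasEigenvalue_iff_isRoot]
    exact (Polynomial.mem_roots'.mp ha).2
  choose! f hf using hroot
  let m : ℕ := ∏ a ∈ P.roots.toFinset, f a
  have hm0 : 0 < m := Finset.prod_pos fun a ha => (hf a (Multiset.mem_toFinset.mp ha)).1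
  have hpow : ∀ a ∈ P.roots, a ^ m = 1 := by
    intro a ha
    obtain ⟨c, hc⟩ : f a ∣ m := Finset.dvd_prod_of_mem f (Multiset.mem_toFinset.mpr ha)
    rw [hc, pow_mul, (hf a ha).2, one_pow]
  have hdvd1 : ∀ a ∈ P.roots, (X - C a) ∣ (X ^ m - 1 : K[X]) := by
    intro a ha
    rw [Polynomial.dvd_iff_isRoot]
    simp [hpow a ha]
  have hprod : P = (P.roots.map fun a => X - C a).prod := hsplit.eq_prod_roots_of_monic hmonic
  have hdvd2 : P ∣ (X ^ m - 1 : K[X]) ^ (Multiset.card P.roots) := by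
    have h1 := Multiset.prod_dvd_prod_of_dvd (S := P.roots) (fun a => X - C a)
      (fun _ => (X ^ m - 1 : K[X])) hdvd1
    rw [← hprod] at h1
    simpa using h1
  obtain ⟨k, hk⟩ : ∃ k : ℕ, Multiset.card P.roots ≤ p ^ k :=
    ⟨Multiset.card P.roots, (Nat.lt_pow_self (Fact.out : p.Prime).one_lt).le⟩
  have hdvd3 : P ∣ (X ^ (m * p ^ k) - 1 : K[X]) := by
    have h1 : (X ^ m - 1 : K[X]) ^ (p ^ k) = X ^ (m * p ^ k) - 1 := by
      rw [sub_pow_char_pow, one_pow, ← pow_mul]
    rw [← h1]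
    exact hdvd2.trans (pow_dvd_pow _ hk)
  refine ⟨m * p ^ k, Nat.mul_pos hm0 (pow_pos (Fact.out : p.Prime).pos k), ?_⟩
  obtain ⟨Q, hQ⟩ := hdvd3
  have h2 : aeval T (X ^ (m * p ^ k) - 1 : K[X]) = 0 := by
    rw [hQ, map_mul, hP, minpoly.aeval, zero_mul]
  simpa [sub_eq_zero] using h2

end eig

section alg

/-- A nonzero element of a field of characteristic `p` algebraic over the prime field is a root
of unity. -/
lemma pow_eq_one_of_isAlgebraic (p : ℕ) [Fact p.Prime] {L : Type*} [Field L] [Algebra (ZMod p) L]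
    (μ : L) (h0 : μ ≠ 0) (h : IsAlgebraic (ZMod p) μ) : ∃ m : ℕ, 0 < m ∧ μ ^ m = 1 := by
  have hfd : FiniteDimensional (ZMod p) (IntermediateField.adjoin (ZMod p) {μ}) :=
    IntermediateField.adjoin.finiteDimensional h.isIntegral
  have hfin : Finite (IntermediateField.adjoin (ZMod p) {μ}) :=
    Module.finite_of_finite (ZMod p)
  let μ' : IntermediateField.adjoin (ZMod p) {μ} :=
    ⟨μ, IntermediateField.mem_adjoin_simple_self (ZMod p) μ⟩
  have hμ' : μ' ≠ 0 := fun hh => h0 (congrArg Subtype.val hh)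
  have hfo : IsOfFinOrder (Units.mk0 μ' hμ') := isOfFinOrder_of_finite _
  obtain ⟨m, hm, hm1⟩ := (isOfFinOrder_iff_pow_eq_one).mp hfo
  refine ⟨m, hm, ?_⟩
  have h1 : (μ' : IntermediateField.adjoin (ZMod p) {μ}) ^ m = 1 := by
    have := congrArg Units.val hm1
    simpa using this
  have h2 := congrArg Subtype.val h1
  simpa using h2

end alg

end Vale.Agent.P184
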