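import Vale.Agent.P184.FreeProd

namespace Vale.Agent.P184

universe u v

/-- `Q1` is invariant under isomorphism. -/
theorem Q1_of_mulEquiv {H : Type v} {G : Type u} [Group H] [Group G] (Φ : H ≃* G) (hQ : Q1 H) :
    Q1 G := by
  refine Q1_of_directed_colimit (ι := PUnit.{1}) (Gs := fun _ => H)
    (fun _ _ _ => MonoidHom.id H) (fun _ => Φ.toMonoidHom) ?_ ?_ ?_ ?_ (fun _ => hQ)
  · intro _ _ _ _ _ x
    rfl
  · intro _ _ _ x
    rfl
  · intro y
    exact ⟨PUnit.unit, Φ.symm y, Φ.apply_symm_apply y⟩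
  · intro i x y h
    exact ⟨i, le_rfl, Φ.injective h⟩

end Vale.Agent.P184
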