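import Vale.Agent.P184.Defs

namespace Vale.Agent.P184

/-- The statement Q1 (the `ℓ¹`-Bass conjecture) for the group `G`: for every idempotent matrix over
`ℓ¹(G)` there is a finite set of conjugacy classes of elements of finite order outside of which all
coefficients of the Hattori-Stallings trace vanish. -/
def Q1 (G : Type*) [Group G] : Prop :=
  ∀ (q : ℕ) (e : Fin q → Fin q → G → ℂ), IsIdem e →
    ∃ F : Finset (ConjClasses G), (∀ C ∈ F, ∀ g ∈ C.carrier, IsOfFinOrder g) ∧
      ∀ C, C ∉ F → hs e C = 0

end Vale.Agent.P184
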