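import Vale.Agent.P184.L1Push

set_option linter.unusedSectionVars false

namespace Vale.Agent.P184

open scoped BigOperators

variable {G H : Type*} [Group G] [Group H] {R : Type*} [NormedRing R] [CompleteSpace R]

namespace L1

/-- evaluation at a point as an additive map -/
def applyHom (x : G) : L1 G R →+ R where
  toFun a := a x
  map_zero' := rfl
  map_add' _ _ := rfl

lemma sum_apply {ι : Type*} (s : Finset ι) (f : ι → L1 G R) (x : G) :
    (∑ i ∈ s, f i) x = ∑ i ∈ s, f i x := map_sum (applyHom x) f s

open Classical in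
/-- the function `r δ_x` -/
noncomputable def single (x : G) (r : R) : L1 G R :=
  mk (fun y => if y = x then r else 0) (by
    have h : ∀ y : G, ‖(if y = x then r else 0 : R)‖ = if y = x then ‖r‖ else 0 := by
      intro y
      by_cases hy : y = x <;> simp [hy]
    simp only [h]
    exact (hasSum_ite_eq x ‖r‖).summable)

open Classical in
lemma single_apply (x : G) (r : R) (y : G) : single x r y = if y = x then r else 0 := rfl

lemma norm_single (x : G) (r : R) : ‖single x r‖ = ‖r‖ := by
  classical
  rw [norm_eq]
  have h : ∀ y : G, ‖single x r y‖ = if y = x then ‖r‖ else 0 := by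
    intro y
    rw [single_apply]
    by_cases hy : y = x <;> simp [hy]
  simp only [h]
  rw [tsum_ite_eq]

lemma single_mul_single (x x' : G) (r r' : R) :
    single x r * single x' r' = single (x * x') (r * r') := by
  classical
  ext w
  rw [mul_apply, tsum_eq_single x (fun u hu => by rw [single_apply, if_neg hu, zero_mul])]
  simp only [single_apply, if_true]
  by_cases hw : w = x * x'
  · rw [if_pos hw, if_pos (by rw [hw]; group)]
  · rw [if_neg hw, if_neg (fun h => hw (by rw [← h]; group)), mul_zero]

lemma push_single (φ : G →* H) (x : G) (r : R) : push φ (single x r) = single (φ x) r := by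
  classical
  ext y
  rw [push_apply, tsum_eq_single x (fun u hu => by rw [single_apply, if_neg hu, ite_self])]
  simp only [single_apply, if_true]
  by_cases hy : y = φ x
  · rw [if_pos hy, if_pos hy.symm]
  · rw [if_neg hy, if_neg (fun h => hy h.symm)]

/-- the truncation of `a` to the finite set `S` -/
noncomputable def trunc (S : Finset G) (a : L1 G R) : L1 G R := ∑ y ∈ S, single y (a y)

open Classical in
lemma trunc_apply (S : Finset G) (a : L1 G R) (x : G) :
    trunc S a x = if x ∈ S then a x else 0 := by
  unfold trunc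
  rw [sum_apply]
  simp only [single_apply]
  rw [Finset.sum_ite_eq]

lemma norm_trunc_le (S : Finset G) (a : L1 G R) : ‖trunc S a‖ ≤ ‖a‖ := by
  classical
  rw [norm_eq, norm_eq]
  refine (trunc S a).summable.tsum_le_tsum (fun x => ?_) a.summable
  rw [trunc_apply]
  by_cases hx : x ∈ S <;> simp [hx]

lemma exists_trunc_close (a : L1 G R) {η : ℝ} (hη : 0 < η) : ∃ S : Finset G, ‖a - trunc S a‖ < η := by
  classical
  have hs := a.summable
  have hev := hs.hasSum.eventually (lt_mem_nhds (show (∑' x, ‖a x‖) - η < ∑' x, ‖a x‖ by linarith))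
  obtain ⟨S, hS⟩ := hev.exists
  refine ⟨S, ?_⟩
  rw [norm_eq]
  have h1 : ∀ x, ‖(a - trunc S a) x‖ = ‖a x‖ - (if x ∈ S then ‖a x‖ else 0) := by
    intro x
    rw [sub_apply, trunc_apply]
    by_cases hx : x ∈ S <;> simp [hx]
  simp only [h1]
  have h2 : Summable (fun x => if x ∈ S then ‖a x‖ else 0) :=
    summable_of_ne_finset_zero (s := S) (fun x hx => if_neg hx)
  rw [hs.tsum_sub h2, tsum_eq_sum (s := S) (fun x hx => if_neg hx)]
  have h3 : ∑ x ∈ S, (if x ∈ S then ‖a x‖ else 0) = ∑ x ∈ S, ‖a x‖ :=
    Finset.sum_congr rfl (fun x hx => if_pos hx)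
  rw [h3]
  linarith

end L1

end Vale.Agent.P184
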