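import Mathlib

/-!
# Idempotents near almost-idempotents in a Banach ring

Newton iteration `x ↦ x + (1 - 2 x) (x ^ 2 - x) = 3 x ^ 2 - 2 x ^ 3`.
-/

namespace Vale.Agent.P184

open Filter Topology

/-- The Newton step for the equation `x * x = x`. -/
def newtonStep {A : Type*} [Ring A] (x : A) : A :=
  x + (1 - (x + x)) * (x * x - x)

theorem newtonStep_defect {A : Type*} [Ring A] (x : A) :
    newtonStep x * newtonStep x - newtonStep x =
      (x * x - x) * (x * x - x) *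
        ((x * x - x) + (x * x - x) + (x * x - x) + (x * x - x) - 1 - 1 - 1) := by
  unfold newtonStep
  noncomm_ring

/-- The Newton sequence. -/
def newtonSeq {A : Type*} [Ring A] (a : A) : ℕ → A
  | 0 => a
  | (k + 1) => newtonStep (newtonSeq a k)

theorem norm_newtonStep_sub_le {A : Type*} [NormedRing A] (h1 : ‖(1 : A)‖ ≤ 1) (x : A) :
    ‖newtonStep x - x‖ ≤ (1 + 2 * ‖x‖) * ‖x * x - x‖ := by
  have e : newtonStep x - x = (1 - (x + x)) * (x * x - x) := by
    unfold newtonStep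
    abel
  rw [e]
  refine (norm_mul_le _ _).trans ?_
  refine mul_le_mul_of_nonneg_right ?_ (norm_nonneg _)
  have h2 : ‖(1 : A) - (x + x)‖ ≤ ‖(1 : A)‖ + ‖x + x‖ := norm_sub_le _ _
  have h3 : ‖x + x‖ ≤ ‖x‖ + ‖x‖ := norm_add_le _ _
  linarith

theorem norm_newtonStep_defect_le {A : Type*} [NormedRing A] (h1 : ‖(1 : A)‖ ≤ 1) (x : A) :
    ‖newtonStep x * newtonStep x - newtonStep x‖ ≤
      ‖x * x - x‖ * ‖x * x - x‖ * (4 * ‖x * x - x‖ + 3) := by
  rw [newtonStep_defect]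
  set e := x * x - x with he
  refine (norm_mul_le _ _).trans ?_
  have h2 : ‖e * e‖ ≤ ‖e‖ * ‖e‖ := norm_mul_le _ _
  have h3 : ‖e + e + e + e - 1 - 1 - 1‖ ≤ 4 * ‖e‖ + 3 := by
    have a1 : ‖e + e + e + e - 1 - 1 - 1‖ ≤ ‖e + e + e + e - 1 - 1‖ + ‖(1 : A)‖ := norm_sub_le _ _
    have a2 : ‖e + e + e + e - 1 - 1‖ ≤ ‖e + e + e + e - 1‖ + ‖(1 : A)‖ := norm_sub_le _ _
    have a3 : ‖e + e + e + e - 1‖ ≤ ‖e + e + e + e‖ + ‖(1 : A)‖ := norm_sub_le _ _
    have a4 : ‖e + e + e + e‖ ≤ ‖e + e + e‖ + ‖e‖ := norm_add_le _ _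
    have a5 : ‖e + e + e‖ ≤ ‖e + e‖ + ‖e‖ := norm_add_le _ _
    have a6 : ‖e + e‖ ≤ ‖e‖ + ‖e‖ := norm_add_le _ _
    linarith
  exact mul_le_mul h2 h3 (norm_nonneg _) (mul_nonneg (norm_nonneg _) (norm_nonneg _))

theorem newtonSeq_invariant {A : Type*} [NormedRing A] (h1 : ‖(1 : A)‖ ≤ 1) (a : A)
    (h : ‖a * a - a‖ ≤ 1 / 16) (k : ℕ) :
    ‖newtonSeq a k * newtonSeq a k - newtonSeq a k‖ ≤ ‖a * a - a‖ * (1 / 4 : ℝ) ^ k ∧
      ‖newtonSeq a k - a‖ ≤
        8 / 3 * ((1 + 2 * ‖a‖) * ‖a * a - a‖) * (1 - (1 / 4 : ℝ) ^ k) ∧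
      ‖newtonSeq a (k + 1) - newtonSeq a k‖ ≤
        2 * ((1 + 2 * ‖a‖) * ‖a * a - a‖) * (1 / 4 : ℝ) ^ k := by
  set D := ‖a * a - a‖ with hD
  set M := 1 + 2 * ‖a‖ with hM
  have hD0 : 0 ≤ D := norm_nonneg _
  have hM1 : 1 ≤ M := by
    have : 0 ≤ ‖a‖ := norm_nonneg _
    linarith
  -- the third statement follows from the first two
  have key : ∀ k : ℕ,
      ‖newtonSeq a k * newtonSeq a k - newtonSeq a k‖ ≤ D * (1 / 4 : ℝ) ^ k →
      ‖newtonSeq a k - a‖ ≤ 8 / 3 * (M * D) * (1 - (1 / 4 : ℝ) ^ k) →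
      ‖newtonSeq a (k + 1) - newtonSeq a k‖ ≤ 2 * (M * D) * (1 / 4 : ℝ) ^ k := by
    intro k hd hx
    have hq0 : 0 < (1 / 4 : ℝ) ^ k := by positivity
    have hq1 : (1 / 4 : ℝ) ^ k ≤ 1 := pow_le_one₀ (by norm_num) (by norm_num)
    have hstep := norm_newtonStep_sub_le h1 (newtonSeq a k)
    have hxk : ‖newtonSeq a k‖ ≤ ‖a‖ + ‖newtonSeq a k - a‖ := by
      have := norm_add_le a (newtonSeq a k - a)
      simpa using this
    have hMD : M * D ≤ M * (1 / 16) := mul_le_mul_of_nonneg_left h (by linarith)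
    have hMD0 : 0 ≤ M * D := mul_nonneg (by linarith) hD0
    have hx2 : ‖newtonSeq a k - a‖ ≤ 8 / 3 * (M * D) := by
      refine hx.trans ?_
      have : 8 / 3 * (M * D) * (1 - (1 / 4 : ℝ) ^ k) ≤ 8 / 3 * (M * D) * 1 :=
        mul_le_mul_of_nonneg_left (by linarith) (by positivity)
      linarith
    have hm : 1 + 2 * ‖newtonSeq a k‖ ≤ 2 * M := by
      linarith
    have : newtonSeq a (k + 1) = newtonStep (newtonSeq a k) := rfl
    rw [this]
    refine hstep.trans ?_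
    calc (1 + 2 * ‖newtonSeq a k‖) * ‖newtonSeq a k * newtonSeq a k - newtonSeq a k‖
        ≤ (2 * M) * (D * (1 / 4 : ℝ) ^ k) :=
          mul_le_mul hm hd (norm_nonneg _) (by linarith)
      _ = 2 * (M * D) * (1 / 4 : ℝ) ^ k := by ring
  have main : ∀ k : ℕ,
      ‖newtonSeq a k * newtonSeq a k - newtonSeq a k‖ ≤ D * (1 / 4 : ℝ) ^ k ∧
      ‖newtonSeq a k - a‖ ≤ 8 / 3 * (M * D) * (1 - (1 / 4 : ℝ) ^ k) := by
    intro k
    induction k with
    | zero =>
      constructor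
      · simp [newtonSeq, hD]
      · simp [newtonSeq]
    | succ k ih =>
      obtain ⟨hd, hx⟩ := ih
      have hs := key k hd hx
      have hq0 : 0 < (1 / 4 : ℝ) ^ k := by positivity
      have hq1 : (1 / 4 : ℝ) ^ k ≤ 1 := pow_le_one₀ (by norm_num) (by norm_num)
      constructor
      · have hdef := norm_newtonStep_defect_le h1 (newtonSeq a k)
        have e1 : newtonSeq a (k + 1) = newtonStep (newtonSeq a k) := rfl
        rw [e1]
        refine hdef.trans ?_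
        set d := ‖newtonSeq a k * newtonSeq a k - newtonSeq a k‖ with hdd
        have hd0 : 0 ≤ d := norm_nonneg _
        have hd16 : d ≤ 1 / 16 := by
          have : D * (1 / 4 : ℝ) ^ k ≤ D * 1 := mul_le_mul_of_nonneg_left hq1 hD0
          linarith
        have h4 : d * (4 * d + 3) ≤ 1 / 4 := by nlinarith
        calc d * d * (4 * d + 3) = d * (d * (4 * d + 3)) := by ring
          _ ≤ d * (1 / 4) := mul_le_mul_of_nonneg_left h4 hd0
          _ ≤ (D * (1 / 4 : ℝ) ^ k) * (1 / 4) := mul_le_mul_of_nonneg_right hd (by norm_num)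
          _ = D * (1 / 4 : ℝ) ^ (k + 1) := by ring
      · have e2 : newtonSeq a (k + 1) - a =
            (newtonSeq a (k + 1) - newtonSeq a k) + (newtonSeq a k - a) := by abel
        rw [e2]
        refine (norm_add_le _ _).trans ?_
        have : 2 * (M * D) * (1 / 4 : ℝ) ^ k + 8 / 3 * (M * D) * (1 - (1 / 4 : ℝ) ^ k) =
            8 / 3 * (M * D) * (1 - (1 / 4 : ℝ) ^ (k + 1)) := by ring
        linarith
  exact ⟨(main k).1, (main k).2, key k (main k).1 (main k).2⟩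

/-- In a complete normed ring with `‖1‖ ≤ 1`, an element `a` with `‖a * a - a‖ ≤ 1 / 16` is close
to a genuine idempotent, with an explicit linear bound. -/
theorem exists_idem_near {A : Type*} [NormedRing A] [CompleteSpace A] (h1 : ‖(1 : A)‖ ≤ 1)
    (a : A) (h : ‖a * a - a‖ ≤ 1 / 16) :
    ∃ p : A, p * p = p ∧ ‖p - a‖ ≤ 4 * (1 + 2 * ‖a‖) * ‖a * a - a‖ := by
  have inv := newtonSeq_invariant h1 a h
  set D := ‖a * a - a‖ with hD
  set M := 1 + 2 * ‖a‖ with hM
  have hD0 : 0 ≤ D := norm_nonneg _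
  have hM1 : 1 ≤ M := by
    have : 0 ≤ ‖a‖ := norm_nonneg _
    linarith
  have hMD0 : 0 ≤ M * D := mul_nonneg (by linarith) hD0
  have hc : CauchySeq (newtonSeq a) := by
    refine cauchySeq_of_le_geometric (1 / 4 : ℝ) (2 * (M * D)) (by norm_num) ?_
    intro n
    rw [dist_comm, dist_eq_norm]
    exact (inv n).2.2
  obtain ⟨p, hp⟩ := cauchySeq_tendsto_of_complete hc
  refine ⟨p, ?_, ?_⟩
  · have t1 : Tendsto (fun k => newtonSeq a k * newtonSeq a k - newtonSeq a k) atTop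
        (𝓝 (p * p - p)) := (hp.mul hp).sub hp
    have t2 : Tendsto (fun k => newtonSeq a k * newtonSeq a k - newtonSeq a k) atTop
        (𝓝 0) := by
      refine squeeze_zero_norm (fun k => (inv k).1) ?_
      have : Tendsto (fun k : ℕ => D * (1 / 4 : ℝ) ^ k) atTop (𝓝 (D * 0)) :=
        (tendsto_pow_atTop_nhds_zero_of_lt_one (by norm_num) (by norm_num)).const_mul D
      simpa using this
    have := tendsto_nhds_unique t1 t2
    exact sub_eq_zero.mp this
  · have t3 : Tendsto (fun k => ‖newtonSeq a k - a‖) atTop (𝓝 ‖p - a‖) :=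
      (hp.sub_const a).norm
    refine le_of_tendsto t3 (Eventually.of_forall fun k => ?_)
    refine (inv k).2.1.trans ?_
    have hq0 : 0 < (1 / 4 : ℝ) ^ k := by positivity
    have : 8 / 3 * (M * D) * (1 - (1 / 4 : ℝ) ^ k) ≤ 8 / 3 * (M * D) * 1 :=
      mul_le_mul_of_nonneg_left (by linarith) (by positivity)
    nlinarith

end Vale.Agent.P184
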