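import Vale.Agent.P184.L1Bridge
import Vale.Agent.P184.L1Single
import Vale.Agent.P184.Newton
import Vale.Agent.P184.DefsQ1

set_option linter.unusedSectionVars false

namespace Vale.Agent.P184

open scoped BigOperators Matrix.Norms.Operator

section transfer

variable {Γ G : Type*} [Group Γ] [Group G] {R : Type*} [NormedRing R] [CompleteSpace R]

/-- lifting an idempotent up to a small error along `φ`, given a good finite lift of a finite set -/
lemma exists_idem_lift (h1 : ‖(1 : R)‖ ≤ 1) (φ : Γ →* G) (E : L1 G R) (hE : E * E = E)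
    (S : Finset G) (hS : ‖E - L1.trunc S E‖ < 1 / (16 * (2 * ‖E‖ + 1) ^ 2))
    (lift : G → Γ) (hlift : ∀ y ∈ S, φ (lift y) = y)
    (T : Set Γ) (hT : Set.InjOn φ T) (hT1 : ∀ y ∈ S, lift y ∈ T)
    (hT2 : ∀ y ∈ S, ∀ y' ∈ S, lift y * lift y' ∈ T) :
    ∃ P : L1 Γ R, P * P = P ∧ ‖L1.push φ P - E‖ < 1 := by
  classical
  set N := ‖E‖ with hN
  have hN0 : 0 ≤ N := norm_nonneg _
  set M := 2 * N + 1 with hM
  have hM1 : 1 ≤ M := by linarith
  set a := L1.trunc S E with ha
  set η := ‖E - a‖ with hη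
  have hη0 : 0 ≤ η := norm_nonneg _
  set b : L1 Γ R := ∑ y ∈ S, L1.single (lift y) (E y) with hb
  have hpush : L1.push φ b = a := by
    rw [hb, map_sum, ha]
    unfold L1.trunc
    refine Finset.sum_congr rfl (fun y hy => ?_)
    rw [L1.push_single, hlift y hy]
  -- supports
  have hbsupp : ∀ x, x ∉ T → b x = 0 := by
    intro x hx
    rw [hb, L1.sum_apply]
    refine Finset.sum_eq_zero (fun y hy => ?_)
    rw [L1.single_apply, if_neg]
    rintro rfl
    exact hx (hT1 y hy)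
  have hbbsupp : ∀ x, x ∉ T → (b * b) x = 0 := by
    intro x hx
    rw [hb, Finset.sum_mul_sum, L1.sum_apply]
    refine Finset.sum_eq_zero (fun y hy => ?_)
    rw [L1.sum_apply]
    refine Finset.sum_eq_zero (fun y' hy' => ?_)
    rw [L1.single_mul_single, L1.single_apply, if_neg]
    rintro rfl
    exact hx (hT2 y hy y' hy')
  have hnb : ‖b‖ = ‖a‖ := by
    rw [← hpush]
    exact (L1.norm_push_eq_of_injOn φ b T hT hbsupp).symm
  have hna : ‖a‖ ≤ N := L1.norm_trunc_le S E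
  have hdef : ‖b * b - b‖ = ‖a * a - a‖ := by
    have h := L1.norm_push_eq_of_injOn φ (b * b - b) T hT (fun x hx => by
      rw [L1.sub_apply, hbbsupp x hx, hbsupp x hx, sub_zero])
    rw [map_sub, map_mul, hpush] at h
    exact h.symm
  have hid : a * a - a = (a - E) * a + E * (a - E) - (a - E) := by
    have : (a - E) * a + E * (a - E) - (a - E) = a * a - E * E - a + E := by noncomm_ring
    rw [this, hE]
    abel
  have hae : ‖a - E‖ = η := by rw [hη, norm_sub_rev]
  have hdel : ‖a * a - a‖ ≤ η * M := by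
    rw [hid]
    calc ‖(a - E) * a + E * (a - E) - (a - E)‖
        ≤ ‖(a - E) * a‖ + ‖E * (a - E)‖ + ‖a - E‖ :=
          (norm_sub_le _ _).trans (add_le_add_left (norm_add_le _ _) _)
      _ ≤ η * N + N * η + η := by
          refine add_le_add (add_le_add ?_ ?_) hae.le
          · exact (norm_mul_le _ _).trans (by rw [hae]; exact mul_le_mul_of_nonneg_left hna hη0)
          · exact (norm_mul_le _ _).trans (by rw [hae])
      _ = η * M := by rw [hM]; ring
  have hM2 : 0 < 16 * M ^ 2 := by positivity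
  have hηM : η * (16 * M ^ 2) < 1 := by
    have := hS
    rwa [lt_div_iff₀ hM2] at this
  have hδ : ‖b * b - b‖ ≤ 1 / 16 := by
    rw [hdef]
    refine hdel.trans ?_
    nlinarith
  obtain ⟨P, hP, hPb⟩ := exists_idem_near (A := L1 Γ R) (L1.norm_one_le.trans h1) b hδ
  refine ⟨P, hP, ?_⟩
  have h3 : L1.push φ P - E = L1.push φ (P - b) + (a - E) := by
    rw [map_sub, hpush]
    abel
  rw [h3]
  calc ‖L1.push φ (P - b) + (a - E)‖ ≤ ‖L1.push φ (P - b)‖ + ‖a - E‖ := norm_add_le _ _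
    _ ≤ ‖P - b‖ + η := add_le_add (L1.norm_push_le _ _) hae.le
    _ ≤ 4 * (1 + 2 * ‖b‖) * ‖b * b - b‖ + η := by linarith
    _ ≤ 4 * M * (η * M) + η := by
        have h5 : 1 + 2 * ‖b‖ ≤ M := by rw [hnb, hM]; linarith
        have h6 : ‖b * b - b‖ ≤ η * M := hdef ▸ hdel
        have h7 : 0 ≤ ‖b * b - b‖ := norm_nonneg _
        have h8 : 0 ≤ 1 + 2 * ‖b‖ := by positivity
        nlinarith [mul_le_mul h5 h6 h7 (by linarith : (0:ℝ) ≤ M)]
    _ < 1 := by nlinarith

end transfer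

section classes

variable {Γ G : Type*} [Group Γ] [Group G] {q : ℕ}

lemma carrier_conj_inv (C : ConjClasses G) (c x : G) (hc : c ∈ C.carrier) :
    x⁻¹ * c * x ∈ C.carrier := by
  rw [ConjClasses.mem_carrier_iff_mk_eq] at hc ⊢
  rw [← hc]
  apply ConjClasses.mk_eq_mk_iff_isConj.mpr
  exact (isConj_iff.mpr ⟨x, by group⟩)

/-- `Q1` passes along `φ` to an idempotent which is close to a pushed forward idempotent -/
lemma Q1_conclusion_of_close (φ : Γ →* G) (hQ : Q1 Γ) (e : Fin q → Fin q → G → ℂ) (he : IsIdem e)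
    (P : L1 Γ (Matrix (Fin q) (Fin q) ℂ)) (hP : P * P = P)
    (hclose : ‖L1.push φ P - toL1 e he‖ < 1) :
    ∃ F : Finset (ConjClasses G), (∀ C ∈ F, ∀ g ∈ C.carrier, IsOfFinOrder g) ∧
      ∀ C, C ∉ F → hs e C = 0 := by
  classical
  obtain ⟨F', hF'1, hF'2⟩ := hQ q (ofL1 P) (isIdem_ofL1 hP)
  refine ⟨F'.image (ConjClasses.map φ), ?_, ?_⟩
  · intro C hC g hg
    obtain ⟨C', hC', rfl⟩ := Finset.mem_image.mp hC
    obtain ⟨g', rfl⟩ := ConjClasses.exists_rep C'
    have h1 : IsOfFinOrder g' := hF'1 _ hC' g' ConjClasses.mem_carrier_mk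
    have h2 : IsOfFinOrder (φ g') := φ.isOfFinOrder h1
    rw [ConjClasses.mem_carrier_iff_mk_eq] at hg
    change ConjClasses.mk g = ConjClasses.mk (φ g') at hg
    obtain ⟨c, hc⟩ := isConj_iff.mp (ConjClasses.mk_eq_mk_iff_isConj.mp hg)
    have h3 : g = c⁻¹ * φ g' * c := by rw [← hc]; group
    rw [h3]
    have h4 : c⁻¹ * φ g' * c = MulAut.conj c⁻¹ (φ g') := by simp
    rw [h4]
    exact (MulAut.conj c⁻¹).toMonoidHom.isOfFinOrder h2
  · intro C hC
    have hpp : L1.push φ P * L1.push φ P = L1.push φ P := by rw [← map_mul, hP]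
    rw [hs_eq_ctr e he C]
    have hcl := L1.ctr_eq_of_close (traceL (q := q)) (fun a b => Matrix.trace_mul_comm a b)
      (fun x => x ∈ C.carrier) (fun c x hc => carrier_conj_inv C c x hc) hpp (toL1_idem e he) hclose
    refine hcl.symm.trans ?_
    refine (L1.ctr_push φ (traceL (q := q)) (fun x => x ∈ C.carrier) P).trans ?_
    refine L1.ctr_eq_zero_of_classes (traceL (q := q)) (fun x => φ x ∈ C.carrier) ?_ P ?_
    · intro c x hc
      have := carrier_conj_inv C (φ c) (φ x) hc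
      simpa using this
    · intro C' hC'
      have hnot : C' ∉ F' := by
        intro hmem
        apply hC
        refine Finset.mem_image.mpr ⟨C', hmem, ?_⟩
        obtain ⟨g', rfl⟩ := ConjClasses.exists_rep C'
        have := hC' g' ConjClasses.mem_carrier_mk
        rw [ConjClasses.mem_carrier_iff_mk_eq] at this
        exact this
      have h0 := hF'2 C' hnot
      rw [hs_eq_ctr (ofL1 P) (isIdem_ofL1 hP) C', toL1_ofL1 hP] at h0
      exact h0

end classes

section colimit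

universe u v w

variable {ι : Type w} [Preorder ι] [IsDirected ι (· ≤ ·)] [Nonempty ι]
  {Gs : ι → Type v} [∀ i, Group (Gs i)] (f : ∀ i j, i ≤ j → Gs i →* Gs j)
  {G : Type u} [Group G] (φ : ∀ i, Gs i →* G)

lemma exists_common_stage (hcomp : ∀ i j (h : i ≤ j) (x : Gs i), φ j (f i j h x) = φ i x)
    (hsurj : ∀ y : G, ∃ i, ∃ x : Gs i, φ i x = y) (S : Finset G) :
    ∃ i, ∀ y ∈ S, ∃ x : Gs i, φ i x = y := by
  classical
  induction S using Finset.induction_on with
  | empty => exact ⟨Classical.arbitrary ι, fun y hy => absurd hy (Finset.notMem_empty y)⟩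
  | insert y S _ ih =>
    obtain ⟨i₁, h₁⟩ := ih
    obtain ⟨i₂, x₂, h₂⟩ := hsurj y
    obtain ⟨i, hi₁, hi₂⟩ := exists_ge_ge i₁ i₂
    refine ⟨i, fun z hz => ?_⟩
    rcases Finset.mem_insert.mp hz with rfl | hz
    · exact ⟨f i₂ i hi₂ x₂, by rw [hcomp, h₂]⟩
    · obtain ⟨x, hx⟩ := h₁ z hz
      exact ⟨f i₁ i hi₁ x, by rw [hcomp, hx]⟩

lemma exists_identifying_stage
    (hfun : ∀ i j k (hij : i ≤ j) (hjk : j ≤ k) (x : Gs i),
      f j k hjk (f i j hij x) = f i k (hij.trans hjk) x)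
    (hinj : ∀ i (x y : Gs i), φ i x = φ i y → ∃ j, ∃ h : i ≤ j, f i j h x = f i j h y)
    (i : ι) (Ps : Finset (Gs i × Gs i)) (hPs : ∀ p ∈ Ps, φ i p.1 = φ i p.2) :
    ∃ j, ∃ h : i ≤ j, ∀ p ∈ Ps, f i j h p.1 = f i j h p.2 := by
  classical
  induction Ps using Finset.induction_on with
  | empty => exact ⟨i, le_rfl, fun p hp => absurd hp (Finset.notMem_empty p)⟩
  | insert p Ps _ ih =>
    obtain ⟨j₁, h₁, H₁⟩ := ih (fun p' hp' => hPs p' (Finset.mem_insert_of_mem hp'))
    obtain ⟨j₂, h₂, H₂⟩ := hinj i p.1 p.2 (hPs p (Finset.mem_insert_self p Ps))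
    obtain ⟨j, hj₁, hj₂⟩ := exists_ge_ge j₁ j₂
    refine ⟨j, h₁.trans hj₁, fun p' hp' => ?_⟩
    rcases Finset.mem_insert.mp hp' with rfl | hp'
    · have e1 := hfun i j₂ j h₂ hj₂ p'.1
      have e2 := hfun i j₂ j h₂ hj₂ p'.2
      rw [H₂] at e1
      exact e1.symm.trans e2
    · have e1 := hfun i j₁ j h₁ hj₁ p'.1
      have e2 := hfun i j₁ j h₁ hj₁ p'.2
      rw [H₁ p' hp'] at e1
      exact e1.symm.trans e2

/-- **`Q1` is closed under directed colimits of groups** (the structure maps need not be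
injective).  The colimit is described by its explicit characterisation. -/
theorem Q1_of_directed_colimit
    (hfun : ∀ i j k (hij : i ≤ j) (hjk : j ≤ k) (x : Gs i),
      f j k hjk (f i j hij x) = f i k (hij.trans hjk) x)
    (hcomp : ∀ i j (h : i ≤ j) (x : Gs i), φ j (f i j h x) = φ i x)
    (hsurj : ∀ y : G, ∃ i, ∃ x : Gs i, φ i x = y)
    (hinj : ∀ i (x y : Gs i), φ i x = φ i y → ∃ j, ∃ h : i ≤ j, f i j h x = f i j h y)
    (hQ : ∀ i, Q1 (Gs i)) : Q1 G := by
  classical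
  intro q e he
  set E := toL1 e he with hE
  have hEE : E * E = E := toL1_idem e he
  have hpos : 0 < 1 / (16 * (2 * ‖E‖ + 1) ^ 2) := by
    have : 0 ≤ ‖E‖ := norm_nonneg _
    positivity
  obtain ⟨S, hS⟩ := L1.exists_trunc_close E hpos
  obtain ⟨i, hi⟩ := exists_common_stage f φ hcomp hsurj S
  let lift₀ : G → Gs i := fun y => if hy : ∃ x : Gs i, φ i x = y then Classical.choose hy else 1
  have hlift₀ : ∀ y ∈ S, φ i (lift₀ y) = y := by
    intro y hy
    have h := hi y hy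
    simp only [lift₀, dif_pos h]
    exact Classical.choose_spec h
  let T₀ : Finset (Gs i) := S.image lift₀ ∪ (S ×ˢ S).image (fun p => lift₀ p.1 * lift₀ p.2)
  let Ps : Finset (Gs i × Gs i) := (T₀ ×ˢ T₀).filter (fun p => φ i p.1 = φ i p.2)
  obtain ⟨j, hij, hj⟩ := exists_identifying_stage f φ hfun hinj i Ps
    (fun p hp => (Finset.mem_filter.mp hp).2)
  have hT : Set.InjOn (φ j) ((f i j hij) '' (T₀ : Set (Gs i))) := by
    rintro _ ⟨t, ht, rfl⟩ _ ⟨t', ht', rfl⟩ h
    rw [hcomp, hcomp] at h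
    exact hj (t, t') (Finset.mem_filter.mpr ⟨Finset.mem_product.mpr ⟨ht, ht'⟩, h⟩)
  obtain ⟨P, hP, hclose⟩ := exists_idem_lift mat_norm_one_le (φ j) E hEE S hS
    (fun y => f i j hij (lift₀ y)) (fun y hy => by rw [hcomp, hlift₀ y hy])
    ((f i j hij) '' (T₀ : Set (Gs i))) hT
    (fun y hy => ⟨lift₀ y, Finset.mem_coe.mpr (Finset.mem_union_left _
      (Finset.mem_image_of_mem _ hy)), rfl⟩)
    (fun y hy y' hy' => ⟨lift₀ y * lift₀ y', Finset.mem_coe.mpr (Finset.mem_union_right _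
      (Finset.mem_image.mpr ⟨(y, y'), Finset.mem_product.mpr ⟨hy, hy'⟩, rfl⟩)), map_mul _ _ _⟩)
  exact Q1_conclusion_of_close (φ j) (hQ j) e he P hP hclose

/-- the same statement for Mathlib's `DirectLimit` of a directed system of groups -/
theorem Q1_directLimit (Gs : ι → Type v) [∀ i, Group (Gs i)] (f : ∀ i j, i ≤ j → Gs i →* Gs j)
    [DirectedSystem Gs (f · · ·)] (hQ : ∀ i, Q1 (Gs i)) : Q1 (DirectLimit Gs f) := by
  let φ : ∀ i, Gs i →* DirectLimit Gs f := fun i =>
    { toFun := fun x => ⟦⟨i, x⟩⟧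
      map_one' := (DirectLimit.one_def i).symm
      map_mul' := fun x y => (DirectLimit.mul_def i x y).symm }
  refine Q1_of_directed_colimit f φ ?_ ?_ ?_ ?_ hQ
  · intro i j k hij hjk x
    exact DirectedSystem.map_map' f hij hjk x
  · intro i j h x
    exact DirectLimit.mk_apply i j x h
  · intro y
    obtain ⟨i, x, rfl⟩ := DirectLimit.exists_eq_mk f y
    exact ⟨i, x, rfl⟩
  · intro i x y h
    obtain ⟨j, hx, hy, hxy⟩ := Quotient.exact h
    exact ⟨j, hx, hxy⟩

end colimit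

end Vale.Agent.P184
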