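import Mathlib

/-! P184, task T2: any two embeddings of a number field into the complex numbers differ by a
(wild) ring endomorphism of the complex numbers. -/

namespace Vale.Agent.P184

open Cardinal

/-- two algebraically closed extensions with equipotent transcendence bases are isomorphic
over the base. -/
theorem exists_ringEquiv_of_transcendenceBasis {R K L : Type*} [Field R] [Field K] [Field L]
    [Algebra R K] [Algebra R L] [IsAlgClosed K] [IsAlgClosed L] {ι κ : Type*}
    (v : ι → K) (w : κ → L) (e : ι ≃ κ)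
    (hv : IsTranscendenceBasis R v) (hw : IsTranscendenceBasis R w) :
    ∃ f : K ≃+* L, ∀ r : R, f (algebraMap R K r) = algebraMap R L r := by
  letI := IsAlgClosed.isAlgClosure_of_transcendence_basis v hv
  letI := IsAlgClosed.isAlgClosure_of_transcendence_basis w hw
  let E : Algebra.adjoin R (Set.range v) ≃ₐ[R] Algebra.adjoin R (Set.range w) :=
    hv.1.aevalEquiv.symm.trans ((MvPolynomial.renameEquiv R e).trans hw.1.aevalEquiv)
  refine ⟨IsAlgClosure.equivOfEquiv K L E.toRingEquiv, ?_⟩
  intro r
  have h1 : algebraMap R K r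
      = algebraMap (Algebra.adjoin R (Set.range v)) K
          (algebraMap R (Algebra.adjoin R (Set.range v)) r) := rfl
  rw [h1, IsAlgClosure.equivOfEquiv_algebraMap]
  have h2 : E.toRingEquiv (algebraMap R (Algebra.adjoin R (Set.range v)) r)
      = algebraMap R (Algebra.adjoin R (Set.range w)) r := E.commutes r
  rw [h2]
  rfl

/-- version with ring homomorphisms and cardinalities. -/
theorem exists_ringEquiv_extending {R K L : Type} [Field R] [Field K] [Field L]
    [IsAlgClosed K] [IsAlgClosed L] (i : R →+* K) (s : R →+* L)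
    (hR : #R ≤ ℵ₀) (hK : ℵ₀ < #K) (hKL : #K = #L) :
    ∃ f : K ≃+* L, ∀ r : R, f (i r) = s r := by
  letI := i.toAlgebra
  letI := s.toAlgebra
  obtain ⟨S, hS⟩ := exists_isTranscendenceBasis R K
  obtain ⟨T, hT⟩ := exists_isTranscendenceBasis R L
  have hL : ℵ₀ < #L := hKL ▸ hK
  have h1 : #K = #S :=
    IsAlgClosed.cardinal_eq_cardinal_transcendence_basis_of_aleph0_lt' _ hS hR hK
  have h2 : #L = #T :=
    IsAlgClosed.cardinal_eq_cardinal_transcendence_basis_of_aleph0_lt' _ hT hR hL
  have h3 : #S = #T := by rw [← h1, ← h2, hKL]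
  obtain ⟨e⟩ := Cardinal.eq.1 h3
  exact exists_ringEquiv_of_transcendenceBasis _ _ e hS hT

theorem exists_ringHom_complex_extending {A : Type} [Field A] [NumberField A]
    (i s : A →+* ℂ) : ∃ t : ℂ →+* ℂ, ∀ x, t (i x) = s x := by
  have hA : #A ≤ ℵ₀ := by
    have h := Algebra.IsAlgebraic.cardinalMk_le_max ℚ A
    simpa using h
  have hC : ℵ₀ < #ℂ := by
    rw [Cardinal.mk_complex]
    exact Cardinal.aleph0_lt_continuum
  obtain ⟨f, hf⟩ := exists_ringEquiv_extending i s hA hC rfl
  exact ⟨f.toRingHom, hf⟩

end Vale.Agent.P184
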