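import Mathlib

namespace Vale.Agent.P184

/-- `a` belongs to the Banach group algebra `ℓ¹(G)`: the sum of `‖a g‖` over `G` is finite. -/
def MemL1 {G : Type*} (a : G → ℂ) : Prop := Summable (fun g => ‖a g‖)

/-- The convolution product `(a * b)(g) = ∑ₕ a(h) b(h⁻¹ g)`. -/
noncomputable def conv {G : Type*} [Group G] (a b : G → ℂ) : G → ℂ :=
  fun g => ∑' h, a h * b (h⁻¹ * g)

/-- `e = (e i j)` is an idempotent `q × q` matrix with entries in `ℓ¹(G)`. -/
structure IsIdem {G : Type*} [Group G] {q : ℕ} (e : Fin q → Fin q → G → ℂ) : Prop where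
  mem : ∀ i j, MemL1 (e i j)
  idem : ∀ i j g, ∑ k, conv (e i k) (e k j) g = e i j g

/-- The coefficient `τ_C(e) = ∑_{g ∈ C} ∑ᵢ e i i g` of the Hattori-Stallings trace
at the conjugacy class `C`. -/
noncomputable def hs {G : Type*} [Group G] {q : ℕ} (e : Fin q → Fin q → G → ℂ)
    (C : ConjClasses G) : ℂ :=
  ∑' g : C.carrier, ∑ i, e i i g

end Vale.Agent.P184
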