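import Mathlib

namespace Vale.Agent.P184

/-- `f` is a bounded real function. -/
def BddFun {Z : Type*} (f : Z → ℝ) : Prop := ∃ K : ℝ, ∀ z, |f z| ≤ K

/-- Amenability of the discrete group `Z`: there is a left invariant mean, that is a positive,
normalised, left translation invariant linear functional on the bounded real functions on `Z`. -/
def Amenable (Z : Type*) [Group Z] : Prop :=
  ∃ μ : (Z → ℝ) → ℝ,
    (∀ f k, BddFun f → BddFun k → μ (f + k) = μ f + μ k) ∧
    (∀ (c : ℝ) f, BddFun f → μ (c • f) = c * μ f) ∧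
    (∀ f, BddFun f → (∀ z, 0 ≤ f z) → 0 ≤ μ f) ∧
    μ (fun _ => 1) = 1 ∧
    (∀ f, BddFun f → ∀ w : Z, μ (fun z => f (w * z)) = μ f)

end Vale.Agent.P184
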