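import Vale.Agent.P184.DefsQ1

namespace Vale.Agent.P184

/-- All coefficients of Hattori-Stallings traces of idempotent matrices over `ℓ¹(G)` vanish at the
conjugacy class of `g`. -/
def Van {G : Type*} [Group G] (g : G) : Prop :=
  ∀ (q : ℕ) (e : Fin q → Fin q → G → ℂ), IsIdem e → hs e (ConjClasses.mk g) = 0

/-- The action of `G` on `X` is by isometries. -/
def Isom (G X : Type*) [Group G] [PseudoMetricSpace X] [MulAction G X] : Prop :=
  ∀ (a : G) (x y : X), dist (a • x) (a • y) = dist x y

/-- Gromov hyperbolicity (four point condition, for some constant). -/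
def Hyp4 (X : Type*) [PseudoMetricSpace X] : Prop :=
  ∃ δ : ℝ, ∀ x y z w : X,
    dist x y + dist z w ≤ max (dist x z + dist y w) (dist x w + dist y z) + 2 * δ

/-- Existence of approximate midpoints (with some uniform error). -/
def Mid (X : Type*) [PseudoMetricSpace X] : Prop :=
  ∃ μ : ℝ, ∀ x y : X, ∃ m : X, dist x m ≤ dist x y / 2 + μ ∧ dist y m ≤ dist x y / 2 + μ

/-- The CN inequality of Bruhat and Tits (complete spaces with it are the CAT(0) spaces). -/
def CN (X : Type*) [PseudoMetricSpace X] : Prop :=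
  ∀ x y : X, ∃ m : X, ∀ z : X,
    dist z m ^ 2 ≤ (dist z x ^ 2 + dist z y ^ 2) / 2 - dist x y ^ 2 / 4

/-- The action is isometric, metrically proper and cobounded. -/
def Geom (G X : Type*) [Group G] [PseudoMetricSpace X] [MulAction G X] : Prop :=
  Isom G X ∧ ∃ (x₀ : X) (R₀ : ℝ), (∀ R : ℝ, {s : G | dist x₀ (s • x₀) ≤ R}.Finite) ∧
    ∀ y : X, ∃ s : G, dist y (s • x₀) ≤ R₀

end Vale.Agent.P184
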