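import Mathlib

namespace Vale.Agent.P184

/-- `G` is RFRS (residually finite rationally solvable, Agol): there is a chain
`G = K 0 ≥ K 1 ≥ K 2 ≥ ...` of finite index normal subgroups of `G` with trivial intersection
such that `K (i + 1)` contains every `x ∈ K i` some positive power of which lies in the
commutator subgroup `[K i, K i]`, i.e. contains the kernel of `K i → H₁(K i; ℚ)`. -/
def IsRFRS (G : Type*) [Group G] : Prop :=
  ∃ K : ℕ → Subgroup G, K 0 = ⊤ ∧ (∀ i, K (i + 1) ≤ K i) ∧ (∀ i, (K i).Normal) ∧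
    (∀ i, (K i).FiniteIndex) ∧ (∀ x, (∀ i, x ∈ K i) → x = 1) ∧
    ∀ i, ∀ x ∈ K i, (∃ n : ℕ, 0 < n ∧ x ^ n ∈ ⁅K i, K i⁆) → x ∈ K (i + 1)

end Vale.Agent.P184
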