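import Vale.Agent.P184.FreeProdWords

set_option linter.unusedSectionVars false

namespace Vale.Agent.P184

open Monoid CoprodI

variable {ι : Type*} {M : ι → Type*} [∀ i, Group (M i)]

lemma conj_classification_neWord (n : ℕ) : ∀ {i j : ι} (w : NeWord M i j), w.toList.length ≤ n →
    ((∃ i, ∃ m : M i, IsConj w.prod (of m)) ∨
    ∃ i j, i ≠ j ∧ ∃ w' : NeWord M i j, IsConj w.prod w'.prod) := by
  classical
  induction n with
  | zero =>
    intro i j w hw
    have : 0 < w.toList.length := List.length_pos_of_ne_nil w.toList_ne_nil
    omega
  | succ n ih =>
    intro i j w hw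
    by_cases hij : i = j
    · subst hij
      rcases strip_head w with ⟨-, h⟩ | ⟨i', hi', w', hw', hlen⟩
      · left
        exact ⟨i, w.head, by rw [h]⟩
      · have hconj : IsConj w.prod (w'.prod * of w.head) := by
          rw [isConj_iff]
          refine ⟨(of w.head)⁻¹, ?_⟩
          rw [hw']
          group
        by_cases hc : (w.head)⁻¹ * w'.inv.head = 1
        · have h1 : w'.inv.head = w.head := by
            have := congrArg (fun t => w.head * t) hc
            simpa using this
          rcases strip_head w'.inv with ⟨h, -⟩ | ⟨i'', -, w'', hw'', hlen'⟩
          · exact (hi' h.symm).elim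
          · rw [inv_toList_length] at hlen'
            have hz : w'.prod * of w.head = w''.inv.prod := by
              rw [h1, NeWord.inv_prod] at hw''
              rw [NeWord.inv_prod]
              have h2 : w''.prod = (of w.head)⁻¹ * w'.prod⁻¹ := by rw [hw'']; group
              rw [h2]
              group
            have hl : w''.inv.toList.length ≤ n := by
              rw [inv_toList_length]
              omega
            rw [hz] at hconj
            rcases ih w''.inv hl with ⟨a, m, hm⟩ | ⟨a, b, hab, v, hv⟩
            · left
              exact ⟨a, m, hconj.trans hm⟩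
            · right
              exact ⟨a, b, hab, v, hconj.trans hv⟩
        · right
          refine ⟨i', i, hi', (NeWord.mulHead w'.inv (w.head)⁻¹ hc).inv, ?_⟩
          have : (NeWord.mulHead w'.inv (w.head)⁻¹ hc).inv.prod = w'.prod * of w.head := by
            rw [NeWord.inv_prod, NeWord.mulHead_prod, NeWord.inv_prod, map_inv]
            group
          rw [this]
          exact hconj
    · right
      exact ⟨i, j, hij, w, IsConj.refl _⟩

/-- every element is conjugate into a factor or to a cyclically reduced word of length `≥ 2` -/
lemma conj_classification (x : CoprodI M) (hx : x ≠ 1) :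
    (∃ i, ∃ m : M i, IsConj x (of m)) ∨
    ∃ i j, i ≠ j ∧ ∃ w : NeWord M i j, IsConj x w.prod := by
  obtain ⟨i, j, w, rfl⟩ := exists_neWord x hx
  exact conj_classification_neWord _ w le_rfl

end Vale.Agent.P184
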