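import Vale.Agent.P184.FreeProdVanish
import Vale.Agent.P184.FreeProdConj
import Vale.Agent.P184.Colimit

set_option linter.unusedSectionVars false

namespace Vale.Agent.P184

open Monoid CoprodI
open scoped BigOperators Matrix.Norms.Operator

section aux

variable {G H : Type*} [Group G] [Group H] {R : Type*} [NormedRing R] [NormedAlgebra ℂ R]
  [CompleteSpace R]

lemma L1.ctr_split (t : R →L[ℂ] ℂ) (P P₁ P₂ : G → Prop) (a : L1 G R)
    (h : ∀ x, P x ↔ (P₁ x ∨ P₂ x)) (hd : ∀ x, ¬ (P₁ x ∧ P₂ x)) :
    L1.ctr t P a = L1.ctr t P₁ a + L1.ctr t P₂ a := by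
  classical
  have s1 : Summable (fun x => if P₁ x then t (a x) else 0) :=
    ktr_summable (b := L1.ker a) P₁ t (L1.ker_maj a)
  have s2 : Summable (fun x => if P₂ x then t (a x) else 0) :=
    ktr_summable (b := L1.ker a) P₂ t (L1.ker_maj a)
  rw [L1.ctr_eq, L1.ctr_eq, L1.ctr_eq, ← s1.tsum_add s2]
  refine tsum_congr (fun x => ?_)
  change (if P x then t (a x) else 0) = (if P₁ x then t (a x) else 0) + (if P₂ x then t (a x) else 0)
  by_cases h1 : P₁ x
  · have h2 : ¬ P₂ x := fun h2 => hd x ⟨h1, h2⟩
    rw [if_pos ((h x).mpr (Or.inl h1)), if_pos h1, if_neg h2, add_zero]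
  · by_cases h2 : P₂ x
    · rw [if_pos ((h x).mpr (Or.inr h2)), if_neg h1, if_pos h2, zero_add]
    · rw [if_neg (fun hp => ((h x).mp hp).elim h1 h2), if_neg h1, if_neg h2, add_zero]

lemma finOrder_of_mem_map (φ : H →* G) (C' : ConjClasses H)
    (h : ∀ g ∈ C'.carrier, IsOfFinOrder g) :
    ∀ g ∈ (ConjClasses.map φ C').carrier, IsOfFinOrder g := by
  intro g hg
  obtain ⟨g', rfl⟩ := ConjClasses.exists_rep C'
  have h1 : IsOfFinOrder g' := h g' ConjClasses.mem_carrier_mk
  have h2 : IsOfFinOrder (φ g') := φ.isOfFinOrder h1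
  rw [ConjClasses.mem_carrier_iff_mk_eq] at hg
  change ConjClasses.mk g = ConjClasses.mk (φ g') at hg
  obtain ⟨c, hc⟩ := isConj_iff.mp (ConjClasses.mk_eq_mk_iff_isConj.mp hg)
  have h3 : g = c⁻¹ * φ g' * c := by rw [← hc]; group
  rw [h3]
  have h4 : c⁻¹ * φ g' * c = MulAut.conj c⁻¹ (φ g') := by simp
  rw [h4]
  exact (MulAut.conj c⁻¹).toMonoidHom.isOfFinOrder h2

end aux

section freeprod

variable {ι : Type*} {M : ι → Type*} [∀ i, Group (M i)]

open Classical in
/-- the retraction of the free product onto the factor `i` -/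
noncomputable def retr (i : ι) : CoprodI M →* M i := lift (Pi.mulSingle i (MonoidHom.id (M i)))

lemma retr_of_same (i : ι) (m : M i) : retr i (of m : CoprodI M) = m := by
  classical
  exact of_leftInverse i m

lemma retr_of_ne {i j : ι} (h : j ≠ i) (m : M j) : retr i (of m : CoprodI M) = 1 := by
  classical
  unfold retr
  rw [lift_of, Pi.mulSingle_eq_of_ne h]
  rfl

/-- **`Q1` is closed under finite free products.** -/
theorem Q1_coprodI [Finite ι] (hQ : ∀ i, Q1 (M i)) : Q1 (CoprodI M) := by
  classical
  cases nonempty_fintype ι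
  intro q e he
  set E := toL1 e he with hE
  have hEE : E * E = E := toL1_idem e he
  have hPP : ∀ i, L1.push (retr i) E * L1.push (retr i) E = L1.push (retr i) E := fun i => by
    rw [← map_mul, hEE]
  choose F hF1 hF2 using fun i => hQ i q (ofL1 (L1.push (retr i) E)) (isIdem_ofL1 (hPP i))
  refine ⟨(Finset.univ.biUnion fun i => (F i).image (ConjClasses.map (of : M i →* CoprodI M))) ∪
    {ConjClasses.mk 1}, ?_, ?_⟩
  · intro C hC
    rcases Finset.mem_union.mp hC with hC | hC
    · obtain ⟨i, _, hi⟩ := Finset.mem_biUnion.mp hC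
      obtain ⟨C', hC', rfl⟩ := Finset.mem_image.mp hi
      exact finOrder_of_mem_map _ C' (hF1 i C' hC')
    · rw [Finset.mem_singleton] at hC
      subst hC
      intro g hg
      rw [ConjClasses.mem_carrier_iff_mk_eq, ConjClasses.mk_eq_mk_iff_isConj] at hg
      have : g = 1 := by
        obtain ⟨c, hc⟩ := isConj_iff.mp hg
        have : g = c⁻¹ * 1 * c := by rw [← hc]; group
        simpa using this
      rw [this]
      exact IsOfFinOrder.one
  · intro C hC
    obtain ⟨x, rfl⟩ := ConjClasses.exists_rep C
    have hx1 : x ≠ 1 := by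
      rintro rfl
      exact hC (Finset.mem_union_right _ (Finset.mem_singleton_self _))
    rcases conj_classification x hx1 with ⟨i, m, hxm⟩ | ⟨i, j, hij, w, hxw⟩
    swap
    · rw [ConjClasses.mk_eq_mk_iff_isConj.mpr hxw]
      exact coprod_hyperbolic_vanish he hij w
    rw [ConjClasses.mk_eq_mk_iff_isConj.mpr hxm] at hC ⊢
    have hm1 : m ≠ 1 := by
      rintro rfl
      apply hx1
      obtain ⟨c, hc⟩ := isConj_iff.mp hxm
      have : x = c⁻¹ * (of (1 : M i) : CoprodI M) * c := by rw [← hc]; group
      simpa using this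
    have hmF : ConjClasses.mk m ∉ F i := by
      intro hmem
      apply hC
      refine Finset.mem_union_left _ (Finset.mem_biUnion.mpr ⟨i, Finset.mem_univ i, ?_⟩)
      exact Finset.mem_image.mpr ⟨_, hmem, rfl⟩
    have h0 := hF2 i _ hmF
    rw [hs_eq_ctr _ (isIdem_ofL1 (hPP i)), toL1_ofL1 (hPP i)] at h0
    have h1 := (L1.ctr_push (retr i) (traceL (q := q))
      (fun y => y ∈ (ConjClasses.mk m).carrier) E).symm.trans h0
    set C₀ : ConjClasses (CoprodI M) := ConjClasses.mk (of m) with hC₀
    have hone : (1 : M i) ∉ (ConjClasses.mk m).carrier := by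
      intro h
      rw [ConjClasses.mem_carrier_iff_mk_eq, ConjClasses.mk_eq_mk_iff_isConj] at h
      obtain ⟨c, hc⟩ := isConj_iff.mp h
      apply hm1
      rw [← hc]
      simp
    have hsplit := L1.ctr_split (traceL (q := q))
      (fun y => retr i y ∈ (ConjClasses.mk m).carrier) (fun y => y ∈ C₀.carrier)
      (fun y => retr i y ∈ (ConjClasses.mk m).carrier ∧ y ∉ C₀.carrier) E ?_ ?_
    rotate_left
    · intro y
      constructor
      · intro hy
        by_cases hyC : y ∈ C₀.carrier
        · exact Or.inl hyC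
        · exact Or.inr ⟨hy, hyC⟩
      · rintro (hy | hy)
        · rw [ConjClasses.mem_carrier_iff_mk_eq, ConjClasses.mk_eq_mk_iff_isConj] at hy
          have := (retr i).map_isConj hy
          rw [retr_of_same] at this
          rw [ConjClasses.mem_carrier_iff_mk_eq]
          exact ConjClasses.mk_eq_mk_iff_isConj.mpr this
        · exact hy.1
    · rintro y ⟨h1, _, h2⟩
      exact h2 h1
    have hrest : L1.ctr (traceL (q := q))
        (fun y => retr i y ∈ (ConjClasses.mk m).carrier ∧ y ∉ C₀.carrier) E = 0 := by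
      refine L1.ctr_eq_zero_of_classes _ _ ?_ E ?_
      · rintro c y ⟨hc1, hc2⟩
        refine ⟨?_, ?_⟩
        · have := carrier_conj_inv (ConjClasses.mk m) (retr i c) (retr i y) hc1
          simpa using this
        · intro h
          apply hc2
          have := carrier_conj_inv C₀ _ y⁻¹ h
          simpa [mul_assoc] using this
      · intro C' hC'
        obtain ⟨y, rfl⟩ := ConjClasses.exists_rep C'
        obtain ⟨hy1, hy2⟩ := hC' y ConjClasses.mem_carrier_mk
        rw [← hs_eq_ctr e he]
        have hy0 : y ≠ 1 := by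
          rintro rfl
          rw [map_one] at hy1
          exact hone hy1
        rcases conj_classification y hy0 with ⟨j, m', hym⟩ | ⟨i', j', hij', w, hyw⟩
        swap
        · rw [ConjClasses.mk_eq_mk_iff_isConj.mpr hyw]
          exact coprod_hyperbolic_vanish he hij' w
        exfalso
        have hr := (retr i).map_isConj hym
        by_cases hji : j = i
        · subst hji
          rw [retr_of_same] at hr
          rw [ConjClasses.mem_carrier_iff_mk_eq, ConjClasses.mk_eq_mk_iff_isConj] at hy1
          have h3 : IsConj m' m := hr.symm.trans hy1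
          apply hy2
          rw [ConjClasses.mem_carrier_iff_mk_eq]
          exact ConjClasses.mk_eq_mk_iff_isConj.mpr (hym.trans ((of : M j →* CoprodI M).map_isConj h3))
        · rw [retr_of_ne hji] at hr
          have h4 : retr i y = 1 := by
            obtain ⟨c, hc⟩ := isConj_iff.mp hr
            have : retr i y = c⁻¹ * 1 * c := by rw [← hc]; group
            simpa using this
          rw [h4] at hy1
          exact hone hy1
    rw [hs_eq_ctr e he]
    rw [hrest, add_zero] at hsplit
    exact hsplit.symm.trans h1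

end freeprod

end Vale.Agent.P184
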