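import Vale.Agent.P184.Closure

namespace Vale.Agent.P184

open Monoid CoprodI

/-- `Q1` is closed under arbitrary free products.

Proof: `Q1_of_directed_colimit` with index set `Finset ι` (ordered by inclusion),
`Gs s = CoprodI (fun i : {i // i ∈ s} => M i)` (which satisfies `Q1` by `Q1_coprodI`),
`f s t h = lift (fun i => of (i := ⟨i.1, h i.2⟩))`, `φ s = lift (fun i => of (i := i.1))`.
`hfun`, `hcomp`: `CoprodI.ext_hom` or `MonoidHom.congr_fun` + `lift_of`.
`hsurj`: `CoprodI.induction_on`.  `hinj`: `φ s` is injective since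
`lift (fun i => if h : i ∈ s then of (i := ⟨i, h⟩) else 1)` is a left inverse; take `j = i`. -/
theorem Q1_coprodI_all {ι : Type*} {M : ι → Type*} [∀ i, Group (M i)] (hQ : ∀ i, Q1 (M i)) :
    Q1 (CoprodI M) := by
  classical
  let Gs : Finset ι → Type _ := fun s => CoprodI (fun i : {i // i ∈ s} => M i.1)
  let f : ∀ s t : Finset ι, s ≤ t → Gs s →* Gs t := fun s t h =>
    lift (fun i : {i // i ∈ s} =>
      (of (M := fun i : {i // i ∈ t} => M i.1) (i := ⟨i.1, h i.2⟩) : M i.1 →* Gs t))
  let φ : ∀ s : Finset ι, Gs s →* CoprodI M := fun s =>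
    lift (fun i : {i // i ∈ s} => (of (M := M) (i := i.1) : M i.1 →* CoprodI M))
  let ψ : ∀ s : Finset ι, CoprodI M →* Gs s := fun s =>
    lift (fun i : ι => if h : i ∈ s then
      (of (M := fun i : {i // i ∈ s} => M i.1) (i := ⟨i, h⟩) : M i →* Gs s) else 1)
  have hf_of : ∀ s t (h : s ≤ t) (i : {i // i ∈ s}) (m : M i.1),
      f s t h (of (M := fun i : {i // i ∈ s} => M i.1) (i := i) m) =
        of (M := fun i : {i // i ∈ t} => M i.1) (i := ⟨i.1, h i.2⟩) m := by
    intro s t h i m
    exact lift_of (M := fun i : {i // i ∈ s} => M i.1) _ m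
  have hφ_of : ∀ s (i : {i // i ∈ s}) (m : M i.1),
      φ s (of (M := fun i : {i // i ∈ s} => M i.1) (i := i) m) = of (M := M) (i := i.1) m := by
    intro s i m
    exact lift_of (M := fun i : {i // i ∈ s} => M i.1) _ m
  have hψ_of : ∀ s (i : {i // i ∈ s}) (m : M i.1),
      ψ s (of (M := M) (i := i.1) m) = of (M := fun i : {i // i ∈ s} => M i.1) (i := i) m := by
    intro s i m
    have h1 := lift_of (M := M) (fun i : ι => if h : i ∈ s then
      (of (M := fun i : {i // i ∈ s} => M i.1) (i := ⟨i, h⟩) : M i →* Gs s) else 1) m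
    rw [dif_pos i.2] at h1
    exact h1
  have hψφ : ∀ s (x : Gs s), ψ s (φ s x) = x := by
    intro s x
    have : (ψ s).comp (φ s) = MonoidHom.id (Gs s) := by
      apply CoprodI.ext_hom
      intro i
      ext m
      rw [MonoidHom.comp_apply, MonoidHom.comp_apply, MonoidHom.comp_apply, hφ_of, hψ_of]
      rfl
    exact DFunLike.congr_fun this x
  have hc : ∀ s t (h : s ≤ t) (x : Gs s), φ t (f s t h x) = φ s x := by
    intro s t h x
    have : (φ t).comp (f s t h) = φ s := by
      apply CoprodI.ext_hom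
      intro i
      ext m
      rw [MonoidHom.comp_apply, MonoidHom.comp_apply, MonoidHom.comp_apply, hf_of, hφ_of, hφ_of]
    exact DFunLike.congr_fun this x
  refine Q1_of_directed_colimit (ι := Finset ι) (Gs := Gs) f φ ?_ hc ?_ ?_ ?_
  · intro s t u hst htu x
    have : (f t u htu).comp (f s t hst) = f s u (hst.trans htu) := by
      apply CoprodI.ext_hom
      intro i
      ext m
      rw [MonoidHom.comp_apply, MonoidHom.comp_apply, MonoidHom.comp_apply, hf_of, hf_of, hf_of]
    exact DFunLike.congr_fun this x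
  · intro y
    induction y using CoprodI.induction_on with
    | one => exact ⟨∅, 1, map_one _⟩
    | of i m =>
      exact ⟨{i}, of (M := fun j : {j // j ∈ ({i} : Finset ι)} => M j.1)
        (i := ⟨i, Finset.mem_singleton_self i⟩) m, hφ_of _ ⟨i, Finset.mem_singleton_self i⟩ m⟩
    | mul x y hx hy =>
      obtain ⟨s, a, ha⟩ := hx
      obtain ⟨t, b, hb⟩ := hy
      refine ⟨s ∪ t, f s (s ∪ t) Finset.subset_union_left a *
        f t (s ∪ t) Finset.subset_union_right b, ?_⟩
      rw [map_mul, hc, hc, ha, hb]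
  · intro s x y h
    refine ⟨s, le_rfl, ?_⟩
    have : x = y := by rw [← hψφ s x, ← hψφ s y, h]
    rw [this]
  · intro s
    exact Q1_coprodI (fun i : {i // i ∈ s} => hQ i.1)

end Vale.Agent.P184
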