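import Vale.Agent.P184.FreeProdWords

set_option linter.unusedSectionVars false

namespace Vale.Agent.P184

open Monoid CoprodI

variable {ι : Type*} {M : ι → Type*} [∀ i, Group (M i)]

/-- right multiplication by a letter does not change the first index, with one exception -/
lemma Beg_mul_of {k i : ι} (m : M i) {y : CoprodI M} (hy : y ∈ Beg k) (hne : y ≠ of m⁻¹) :
    y * of m ∈ Beg k := by
  classical
  obtain ⟨j, w, rfl⟩ := hy
  by_cases hm : m = 1
  · subst hm
    exact ⟨j, w, by simp⟩
  by_cases hji : j = i
  · subst hji
    by_cases hc : m⁻¹ * w.inv.head = 1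
    · rcases strip_head w.inv with ⟨-, h⟩ | ⟨i', -, w', hw', -⟩
      · exfalso
        apply hne
        have h1 : w.inv.head = m := by
          have := congrArg (fun t => m * t) hc
          simpa using this
        rw [h1, NeWord.inv_prod] at h
        rw [map_inv, ← h, inv_inv]
      · refine ⟨i', w'.inv, ?_⟩
        have h1 : w.inv.head = m := by
          have := congrArg (fun t => m * t) hc
          simpa using this
        rw [h1, NeWord.inv_prod] at hw'
        rw [NeWord.inv_prod]
        have h2 : w'.prod = (of m)⁻¹ * w.prod⁻¹ := by rw [hw']; group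
        rw [h2]
        group
    · refine ⟨j, (NeWord.mulHead w.inv m⁻¹ hc).inv, ?_⟩
      rw [NeWord.inv_prod, NeWord.mulHead_prod, NeWord.inv_prod, map_inv]
      group
  · exact ⟨i, NeWord.append w hji (NeWord.singleton m hm), by simp⟩

/-- right multiplication by `u` changes the first index of finitely many elements only -/
lemma beg_sep_finite (u : CoprodI M) : {y : CoprodI M | ∃ k, y ∈ Beg k ∧ y * u ∉ Beg k}.Finite := by
  classical
  induction u using CoprodI.induction_on with
  | one =>
    refine Set.finite_empty.subset ?_
    rintro y ⟨k, hy, hy'⟩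
    rw [mul_one] at hy'
    exact (hy' hy).elim
  | of i m =>
    refine (Set.finite_singleton (of m⁻¹)).subset ?_
    rintro y ⟨k, hy, hy'⟩
    by_contra hne
    exact hy' (Beg_mul_of m hy hne)
  | mul u v hu hv =>
    refine (hu.union (hv.image (fun z => z * u⁻¹))).subset ?_
    rintro y ⟨k, hy, hy'⟩
    by_cases h : y * u ∈ Beg k
    · right
      refine ⟨y * u, ⟨k, h, ?_⟩, by simp⟩
      rwa [mul_assoc]
    · left
      exact ⟨k, hy, h⟩

end Vale.Agent.P184
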