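import Vale.Agent.P184.Height

namespace Vale.Agent.P184

open scoped BigOperators Pointwise

section walls

variable {G X : Type*} [Group G] [MulAction G X]

open Classical in
/-- indicator of a subset -/
noncomputable def ind (h : Set X) (p : X) : ℝ := if p ∈ h then 1 else 0

lemma ind_smul (a : G) (h : Set X) (p : X) : ind (a • h) p = ind h (a⁻¹ • p) := by
  have h1 : p ∈ a • h ↔ a⁻¹ • p ∈ h := Set.mem_smul_set_iff_inv_smul_mem
  by_cases hp : a⁻¹ • p ∈ h
  · simp [ind, hp, h1.mpr hp]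
  · have : p ∉ a • h := fun h2 => hp (h1.mp h2)
    simp [ind, hp, this]

lemma ind_mem_Icc (h : Set X) (p : X) : 0 ≤ ind h p ∧ ind h p ≤ 1 := by
  unfold ind
  split_ifs <;> norm_num

variable (W : Set (Set X))

/-- weighted signed count of the members of `W` separating two points -/
noncomputable def wc (w : W → ℝ) (p p' : X) : ℝ := ∑ᶠ h : W, w h * (ind h.1 p - ind h.1 p')

variable {W}

lemma sep_finite (hfin : ∀ p p' : X, {h ∈ W | p ∈ h ∧ p' ∉ h}.Finite) (p p' : X) :
    {h : W | ind h.1 p - ind h.1 p' ≠ 0}.Finite := by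
  have h1 : ({h ∈ W | p ∈ h ∧ p' ∉ h} ∪ {h ∈ W | p' ∈ h ∧ p ∉ h}).Finite :=
    (hfin p p').union (hfin p' p)
  refine (h1.preimage (Subtype.val_injective.injOn (s := Set.univ)
    |>.mono (Set.subset_univ _))).subset ?_
  intro h hh
  simp only [Set.mem_ofPred_eq] at hh
  simp only [Set.mem_preimage, Set.mem_union, Set.mem_ofPred_eq]
  by_cases hp : p ∈ h.1 <;> by_cases hp' : p' ∈ h.1
  · simp [ind, hp, hp'] at hh
  · exact Or.inl ⟨h.2, hp, hp'⟩
  · exact Or.inr ⟨h.2, hp', hp⟩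
  · simp [ind, hp, hp'] at hh

lemma wc_support (hfin : ∀ p p' : X, {h ∈ W | p ∈ h ∧ p' ∉ h}.Finite) (w : W → ℝ) (p p' : X) :
    (Function.support fun h : W => w h * (ind h.1 p - ind h.1 p')).Finite := by
  refine (sep_finite hfin p p').subset ?_
  intro h hh
  simp only [Function.mem_support] at hh
  exact right_ne_zero_of_mul hh

lemma wc_add (hfin : ∀ p p' : X, {h ∈ W | p ∈ h ∧ p' ∉ h}.Finite) (w : W → ℝ) (p p' p'' : X) :
    wc W w p p'' = wc W w p p' + wc W w p' p'' := by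
  unfold wc
  rw [← finsum_add_distrib (wc_support hfin w p p') (wc_support hfin w p' p'')]
  refine finsum_congr (fun h => ?_)
  ring

lemma wc_abs_le (hfin : ∀ p p' : X, {h ∈ W | p ∈ h ∧ p' ∉ h}.Finite) (w : W → ℝ)
    (hw : ∀ h, |w h| ≤ 1) (p p' : X) :
    |wc W w p p'| ≤ ((sep_finite hfin p p').toFinset.card : ℝ) := by
  unfold wc
  rw [finsum_eq_sum_of_support_subset (s := (sep_finite hfin p p').toFinset)]
  · refine (Finset.abs_sum_le_sum_abs _ _).trans ?_
    have key := Finset.sum_le_card_nsmul (sep_finite hfin p p').toFinset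
      (fun h : W => |w h * (ind h.1 p - ind h.1 p')|) 1 (fun h _ => by
      rw [abs_mul]
      have h1 := ind_mem_Icc h.1 p
      have h2 := ind_mem_Icc h.1 p'
      have h3 : |ind h.1 p - ind h.1 p'| ≤ 1 := by
        rw [abs_le]; constructor <;> linarith [h1.1, h1.2, h2.1, h2.2]
      calc |w h| * |ind h.1 p - ind h.1 p'| ≤ 1 * 1 :=
            mul_le_mul (hw h) h3 (abs_nonneg _) (by norm_num)
        _ = 1 := by norm_num)
    simpa using key
  · intro h hh
    simp only [Function.mem_support] at hh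
    simp only [Set.Finite.coe_toFinset, Set.mem_ofPred_eq]
    exact right_ne_zero_of_mul hh

/-- the permutation of `W` induced by a group element -/
def wperm (hinv : ∀ (a : G), ∀ h ∈ W, a • h ∈ W) (a : G) : W ≃ W where
  toFun h := ⟨a • h.1, hinv a h.1 h.2⟩
  invFun h := ⟨a⁻¹ • h.1, hinv a⁻¹ h.1 h.2⟩
  left_inv h := by simp
  right_inv h := by simp

lemma wc_smul (hinv : ∀ (a : G), ∀ h ∈ W, a • h ∈ W) (w : W → ℝ) (a : G) (p p' : X) :
    wc W w (a⁻¹ • p) (a⁻¹ • p') = wc W (fun h => w (wperm hinv a⁻¹ h)) p p' := by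
  unfold wc
  conv_rhs => rw [← finsum_comp_equiv (wperm hinv a)]
  refine finsum_congr (fun h => ?_)
  have h1 : wperm hinv a⁻¹ (wperm hinv a h) = h := by
    apply Subtype.ext
    simp [wperm]
  have h2 : ∀ r : X, ind (wperm hinv a h).1 r = ind h.1 (a⁻¹ • r) := fun r => ind_smul a h.1 r
  simp only [h1, h2]

lemma wc_self (w : W → ℝ) (p : X) : wc W w p p = 0 := by
  unfold wc
  simp

/-- Elements a power of which skewers a wall. -/
theorem wall_criterion {q : ℕ} {e : Fin q → Fin q → G → ℂ} (he : IsIdem e) (W : Set (Set X))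
    (hinv : ∀ (a : G), ∀ h ∈ W, a • h ∈ W)
    (hfin : ∀ p p' : X, {h ∈ W | p ∈ h ∧ p' ∉ h}.Finite)
    (g : G) (k : ℕ) (h₀ : Set X) (hh₀ : h₀ ∈ W) (hsk : g ^ k • h₀ ⊂ h₀) :
    hs e (ConjClasses.mk g) = 0 := by
  classical
  obtain ⟨x₀, hx₀, hx₀'⟩ := Set.exists_of_ssubset hsk
  let w : W → ℝ := fun h => if g ^ k • h.1 ⊆ h.1 then 1 else 0
  have hw : ∀ (σ : W → W) h, |w (σ h)| ≤ 1 := by
    intro σ h
    simp only [w]
    split_ifs <;> simp
  have hwz : ∀ z : G, z * g = g * z → ∀ h, w (wperm hinv z h) = w h := by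
    intro z hz h
    have hc : Commute z (g ^ k) := (show Commute z g from hz).pow_right k
    have h1 : g ^ k • (z • h.1) = z • (g ^ k • h.1) := by
      rw [smul_smul, smul_smul, hc.eq]
    have h2 : (g ^ k • (z • h.1) ⊆ z • h.1) ↔ (g ^ k • h.1 ⊆ h.1) := by
      rw [h1]
      exact Set.smul_set_subset_smul_set_iff
    simp only [w, wperm, Equiv.coe_fn_mk, h2]
  have hshift : ∀ z : G, z * g = g * z → ∀ p p' : X,
      wc W w (z⁻¹ • p) p = wc W w (z⁻¹ • p') p' := by
    intro z hz p p'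
    have hz' : z⁻¹ * g = g * z⁻¹ := by
      have : Commute z⁻¹ g := (show Commute z g from hz).inv_left
      exact this
    have h1 : wc W w (z⁻¹ • p) (z⁻¹ • p') = wc W w p p' := by
      rw [wc_smul hinv]
      congr 1
      funext h
      exact hwz z⁻¹ hz' h
    have h2 := wc_add hfin w (z⁻¹ • p) (z⁻¹ • p') p
    have h3 := wc_add hfin w (z⁻¹ • p') p' p
    have h4 := wc_add hfin w p p' p
    rw [wc_self] at h4
    rw [h2, h3, h1]
    linarith
  refine height_criterion he g (fun u => wc W w (u⁻¹ • x₀) x₀) ?_ ?_ ?_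
  · intro x
    refine ⟨((sep_finite hfin (x⁻¹ • x₀) x₀).toFinset.card : ℝ), fun u => ?_⟩
    have h1 := wc_add hfin w ((x * u)⁻¹ • x₀) (u⁻¹ • x₀) x₀
    have h2 : (x * u)⁻¹ • x₀ = u⁻¹ • (x⁻¹ • x₀) := by
      rw [mul_inv_rev, mul_smul]
    have h3 : wc W w ((x * u)⁻¹ • x₀) x₀ - wc W w (u⁻¹ • x₀) x₀ =
        wc W w (u⁻¹ • (x⁻¹ • x₀)) (u⁻¹ • x₀) := by
      rw [h1, h2]; ring
    rw [h3, wc_smul hinv]
    exact wc_abs_le hfin _ (hw _) _ _
  · intro z hz u v
    have h1 : ∀ u : G, wc W w ((u * z)⁻¹ • x₀) x₀ - wc W w (u⁻¹ • x₀) x₀ =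
        wc W w (z⁻¹ • (u⁻¹ • x₀)) (u⁻¹ • x₀) := by
      intro u
      have h2 := wc_add hfin w ((u * z)⁻¹ • x₀) (u⁻¹ • x₀) x₀
      have h3 : (u * z)⁻¹ • x₀ = z⁻¹ • (u⁻¹ • x₀) := by
        rw [mul_inv_rev, mul_smul]
      rw [h2, h3]; ring
    simp only [h1]
    exact hshift z hz _ _
  · simp only [inv_one, one_smul, wc_self]
    intro ht
    have hpow : ∀ j : ℕ, wc W w ((g ^ j)⁻¹ • x₀) x₀ = 0 := by
      intro j
      induction j with
      | zero => simp [wc_self]
      | succ j ih =>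
        have h1 := wc_add hfin w ((g ^ (j + 1))⁻¹ • x₀) ((g ^ j)⁻¹ • x₀) x₀
        have h2 : (g ^ (j + 1))⁻¹ • x₀ = g⁻¹ • ((g ^ j)⁻¹ • x₀) := by
          rw [pow_succ, mul_inv_rev, mul_smul]
        rw [h1, ih, add_zero, h2, hshift g rfl _ x₀, ht]
    have hk := hpow k
    have hneg : wc W w ((g ^ k)⁻¹ • x₀) x₀ ≤ -1 := by
      unfold wc
      rw [finsum_eq_sum_of_support_subset
        (s := (sep_finite hfin ((g ^ k)⁻¹ • x₀) x₀).toFinset)]
      · have hterm : ∀ h : W, w h * (ind h.1 ((g ^ k)⁻¹ • x₀) - ind h.1 x₀) ≤ 0 := by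
          intro h
          simp only [w]
          split_ifs with hs
          · rw [one_mul, ← ind_smul]
            by_cases hx : x₀ ∈ g ^ k • h.1
            · simp [ind, hx, hs hx]
            · have := (ind_mem_Icc h.1 x₀).1
              simp only [ind, hx, if_false] at this ⊢
              linarith
          · simp
        have h0val : w ⟨h₀, hh₀⟩ * (ind h₀ ((g ^ k)⁻¹ • x₀) - ind h₀ x₀) = -1 := by
          have : w ⟨h₀, hh₀⟩ = 1 := by simp only [w, if_pos hsk.subset]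
          rw [this, ← ind_smul]
          simp [ind, hx₀, hx₀']
        have hmem : (⟨h₀, hh₀⟩ : W) ∈ (sep_finite hfin ((g ^ k)⁻¹ • x₀) x₀).toFinset := by
          simp only [Set.Finite.mem_toFinset, Set.mem_ofPred_eq]
          rw [← ind_smul]
          simp [ind, hx₀, hx₀']
        rw [← Finset.add_sum_erase _ _ hmem, h0val]
        have := Finset.sum_nonpos (s := (sep_finite hfin ((g ^ k)⁻¹ • x₀) x₀).toFinset.erase
          ⟨h₀, hh₀⟩) (fun h _ => hterm h)
        linarith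
      · intro h hh
        simp only [Function.mem_support] at hh
        simp only [Set.Finite.coe_toFinset, Set.mem_ofPred_eq]
        exact right_ne_zero_of_mul hh
    linarith

end walls

end Vale.Agent.P184
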