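import Vale.Agent.P184.FreeProdSep
import Vale.Agent.P184.Walls

set_option linter.unusedSectionVars false

namespace Vale.Agent.P184

open Monoid CoprodI
open scoped Pointwise

variable {ι : Type*} {M : ι → Type*} [∀ i, Group (M i)] {q : ℕ}

/-- the trace vanishes at cyclically reduced words of length at least two -/
theorem coprod_hyperbolic_vanish {e : Fin q → Fin q → CoprodI M → ℂ} (he : IsIdem e) {i j : ι}
    (hij : i ≠ j) (w : NeWord M i j) : hs e (ConjClasses.mk w.prod) = 0 := by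
  classical
  let W : Set (Set (CoprodI M)) := {S | ∃ (a : CoprodI M) (k : ι), S = a • Beg k}
  refine wall_criterion (X := CoprodI M) he W ?_ ?_ w.prod 1 (Beg i) ⟨1, i, (one_smul _ _).symm⟩ ?_
  · rintro a _ ⟨b, k, rfl⟩
    exact ⟨a * b, k, (mul_smul a b (Beg k)).symm⟩
  · intro p p'
    let B : CoprodI M → Set (CoprodI M) := fun y => {x | ∃ k, y ∈ Beg k ∧ x ∈ Beg k}
    refine ((beg_sep_finite (p⁻¹ * p')).image (fun y => (p * y⁻¹) • B y)).subset ?_
    rintro _ ⟨⟨a, k, rfl⟩, hp, hp'⟩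
    rw [Set.mem_smul_set_iff_inv_smul_mem, smul_eq_mul] at hp hp'
    refine ⟨a⁻¹ * p, ⟨k, hp, ?_⟩, ?_⟩
    · have : a⁻¹ * p * (p⁻¹ * p') = a⁻¹ * p' := by group
      rw [this]
      exact hp'
    · have h1 : p * (a⁻¹ * p)⁻¹ = a := by group
      have h2 : B (a⁻¹ * p) = Beg k := by
        ext x
        constructor
        · rintro ⟨k', hk', hx⟩
          rw [Beg_disjoint hp hk']
          exact hx
        · intro hx
          exact ⟨k, hp, hx⟩
      simp only [h1, h2]
  · rw [pow_one]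
    refine ⟨?_, ?_⟩
    · rintro _ ⟨x, ⟨l, w', rfl⟩, rfl⟩
      exact ⟨l, NeWord.append w hij.symm w', by simp⟩
    · intro hsub
      have h1 : w.prod ∈ Beg i := ⟨j, w, rfl⟩
      obtain ⟨x, hx, hxe⟩ := hsub h1
      have : x = 1 := by
        have h2 : w.prod * x = w.prod := hxe
        exact mul_eq_left.mp h2
      exact one_not_mem_Beg i (this ▸ hx)

end Vale.Agent.P184
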