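import Mathlib

set_option linter.unusedSectionVars false

namespace Vale.Agent.P184

open Monoid CoprodI

variable {ι : Type*} {M : ι → Type*} [∀ i, Group (M i)]

/-- the elements of the free product whose normal form begins with a letter of the factor `k` -/
def Beg (k : ι) : Set (CoprodI M) := {x | ∃ j, ∃ w : NeWord M k j, w.prod = x}

lemma neWord_prod_injective {i j i' j' : ι} (w : NeWord M i j) (w' : NeWord M i' j')
    (h : w.prod = w'.prod) : w.toList = w'.toList := by
  classical
  have h1 : w.toWord = w'.toWord := Word.equiv.symm.injective h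
  exact congrArg Word.toList h1

lemma one_not_mem_Beg (k : ι) : (1 : CoprodI M) ∉ Beg k := by
  classical
  rintro ⟨j, w, hw⟩
  have h1 : w.toWord = Word.empty := Word.equiv.symm.injective (by
    change w.prod = (Word.empty : Word M).prod
    rw [hw, Word.prod_empty])
  exact w.toList_ne_nil (congrArg Word.toList h1)

lemma Beg_disjoint {k k' : ι} {x : CoprodI M} (h : x ∈ Beg k) (h' : x ∈ Beg k') : k = k' := by
  obtain ⟨j, w, hw⟩ := h
  obtain ⟨j', w', hw'⟩ := h'
  have h1 := neWord_prod_injective w w' (hw.trans hw'.symm)
  have h2 := w.toList_head?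
  rw [h1, w'.toList_head?] at h2
  have h3 := Option.some.inj h2
  exact (congrArg Sigma.fst h3).symm

lemma exists_neWord (x : CoprodI M) (hx : x ≠ 1) : ∃ i j, ∃ w : NeWord M i j, w.prod = x := by
  classical
  have hne : Word.equiv x ≠ Word.empty := by
    intro h
    apply hx
    have : x = Word.equiv.symm (Word.empty : Word M) := by rw [← h, Equiv.symm_apply_apply]
    rw [this]
    exact Word.prod_empty
  obtain ⟨i, j, w, hw⟩ := NeWord.of_word _ hne
  refine ⟨i, j, w, ?_⟩
  change w.toWord.prod = x
  rw [hw]
  exact Word.equiv.symm_apply_apply x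

/-- removing the first letter -/
lemma strip_head {i k : ι} (w : NeWord M i k) :
    (i = k ∧ w.prod = of w.head) ∨
    ∃ i', i' ≠ i ∧ ∃ w' : NeWord M i' k, w.prod = of w.head * w'.prod ∧
      w'.toList.length < w.toList.length := by
  induction w with
  | singleton x hx => left; exact ⟨rfl, by simp⟩
  | @append i j k l w₁ hne w₂ ih₁ _ =>
    right
    rcases ih₁ with ⟨rfl, h⟩ | ⟨i', hi', w', hw', hlen⟩
    · refine ⟨k, hne.symm, w₂, by simp [h], ?_⟩
      have : 0 < w₁.toList.length := List.length_pos_of_ne_nil w₁.toList_ne_nil
      simp only [NeWord.toList, List.length_append]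
      omega
    · refine ⟨i', hi', NeWord.append w' hne w₂, by simp [hw', mul_assoc], ?_⟩
      simp only [NeWord.toList, List.length_append]
      omega

lemma inv_toList_length {i k : ι} (w : NeWord M i k) : w.inv.toList.length = w.toList.length := by
  induction w with
  | singleton x hx => simp [NeWord.inv]
  | append w₁ hne w₂ ih₁ ih₂ =>
    simp only [NeWord.inv, NeWord.toList, List.length_append, ih₁, ih₂]
    omega

end Vale.Agent.P184
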