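import Mathlib

namespace Vale.Agent.P184

section mcshane

variable {G L : Type*} [Group G] [Group L]

/-- infimal convolution of a length function with an additive function on `L` -/
noncomputable def msh (l : G → ℝ) (i : L →* G) (φ : L → ℝ) (u : G) : ℝ :=
  ⨅ a : L, (l (u * (i a)⁻¹) + φ a)

variable {l : G → ℝ} {i : L →* G} {φ : L → ℝ}

lemma add_one_eq_zero (hφ : ∀ a b, φ (a * b) = φ a + φ b) : φ 1 = 0 := by
  have := hφ 1 1
  rw [mul_one] at this
  linarith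

lemma add_inv_eq_neg (hφ : ∀ a b, φ (a * b) = φ a + φ b) (a : L) : φ a⁻¹ = -φ a := by
  have := hφ a a⁻¹
  rw [mul_inv_cancel, add_one_eq_zero hφ] at this
  linarith

lemma msh_lower (hl : ∀ x y, l (x * y) ≤ l x + l y) (hφ : ∀ a b, φ (a * b) = φ a + φ b)
    (hle : ∀ a, φ a ≤ l (i a)) (u : G) (a : L) : -l u⁻¹ ≤ l (u * (i a)⁻¹) + φ a := by
  have h1 := hle a⁻¹
  rw [add_inv_eq_neg hφ, map_inv] at h1
  have h2 := hl u⁻¹ (u * (i a)⁻¹)
  rw [inv_mul_cancel_left] at h2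
  linarith

lemma msh_bdd (hl : ∀ x y, l (x * y) ≤ l x + l y) (hφ : ∀ a b, φ (a * b) = φ a + φ b)
    (hle : ∀ a, φ a ≤ l (i a)) (u : G) :
    BddBelow (Set.range fun a : L => l (u * (i a)⁻¹) + φ a) :=
  ⟨-l u⁻¹, by rintro _ ⟨a, rfl⟩; exact msh_lower hl hφ hle u a⟩

lemma msh_le (hl : ∀ x y, l (x * y) ≤ l x + l y) (hφ : ∀ a b, φ (a * b) = φ a + φ b)
    (hle : ∀ a, φ a ≤ l (i a)) (u : G) (a : L) : msh l i φ u ≤ l (u * (i a)⁻¹) + φ a :=
  ciInf_le (msh_bdd hl hφ hle u) a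

lemma msh_right_le (hl : ∀ x y, l (x * y) ≤ l x + l y) (hφ : ∀ a b, φ (a * b) = φ a + φ b)
    (hle : ∀ a, φ a ≤ l (i a)) (u : G) (b : L) : msh l i φ (u * i b) ≤ msh l i φ u + φ b := by
  have : msh l i φ (u * i b) - φ b ≤ msh l i φ u := by
    refine le_ciInf (fun a => ?_)
    have h1 := msh_le hl hφ hle (u * i b) (a * b)
    rw [hφ, map_mul, mul_inv_rev, mul_assoc, mul_inv_cancel_left] at h1
    linarith
  linarith

lemma msh_right (hl : ∀ x y, l (x * y) ≤ l x + l y) (hφ : ∀ a b, φ (a * b) = φ a + φ b)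
    (hle : ∀ a, φ a ≤ l (i a)) (u : G) (b : L) : msh l i φ (u * i b) = msh l i φ u + φ b := by
  refine le_antisymm (msh_right_le hl hφ hle u b) ?_
  have h1 := msh_right_le hl hφ hle (u * i b) b⁻¹
  rw [map_inv, mul_inv_cancel_right, add_inv_eq_neg hφ] at h1
  linarith

lemma msh_left (hl : ∀ x y, l (x * y) ≤ l x + l y) (hφ : ∀ a b, φ (a * b) = φ a + φ b)
    (hle : ∀ a, φ a ≤ l (i a)) (x u : G) : msh l i φ (x * u) ≤ l x + msh l i φ u := by
  have : msh l i φ (x * u) - l x ≤ msh l i φ u := by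
    refine le_ciInf (fun a => ?_)
    have h1 := msh_le hl hφ hle (x * u) a
    have h2 := hl x (u * (i a)⁻¹)
    rw [← mul_assoc] at h2
    linarith
  linarith

lemma msh_abs (hl : ∀ x y, l (x * y) ≤ l x + l y) (hφ : ∀ a b, φ (a * b) = φ a + φ b)
    (hle : ∀ a, φ a ≤ l (i a)) (x u : G) :
    |msh l i φ (x * u) - msh l i φ u| ≤ max (l x) (l x⁻¹) := by
  have h1 := msh_left hl hφ hle x u
  have h2 := msh_left hl hφ hle x⁻¹ (x * u)
  rw [inv_mul_cancel_left] at h2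
  rw [abs_le]
  constructor
  · have := le_max_right (l x) (l x⁻¹)
    linarith
  · have := le_max_left (l x) (l x⁻¹)
    linarith

end mcshane

end Vale.Agent.P184
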