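import Vale.Agent.P184.Bridge

namespace Vale.Agent.P184

open scoped BigOperators

variable {G : Type*} [Group G] {q : ℕ}

/-- The height function criterion. -/
theorem height_criterion {e : Fin q → Fin q → G → ℂ} (he : IsIdem e) (g : G) (h : G → ℝ)
    (hb : ∀ x, ∃ M, ∀ u, |h (x * u) - h u| ≤ M)
    (hz : ∀ z, z * g = g * z → ∀ u v, h (u * z) - h u = h (v * z) - h v)
    (hg : h g ≠ h 1) : hs e (ConjClasses.mk g) = 0 := by
  classical
  set lam : ℝ := h g - h 1 with hlam
  have hlam0 : lam ≠ 0 := sub_ne_zero.mpr hg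
  have hmem : ∀ c, c ∈ (ConjClasses.mk g).carrier ↔ ∃ u, u * g * u⁻¹ = c := by
    intro c
    rw [ConjClasses.mem_carrier_iff_mk_eq, eq_comm, ConjClasses.mk_eq_mk_iff_isConj, isConj_iff]
  let U : G → G := fun c => if hc : ∃ u, u * g * u⁻¹ = c then Classical.choose hc else 1
  have hU : ∀ c, c ∈ (ConjClasses.mk g).carrier → U c * g * (U c)⁻¹ = c := by
    intro c hc
    have hc' := (hmem c).mp hc
    simp only [U, dif_pos hc']
    exact Classical.choose_spec hc'
  have key : ∀ c u x, c ∈ (ConjClasses.mk g).carrier → u * g * u⁻¹ = c →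
      h u - h (x * u) = h (U c) - h (x * U c) := by
    intro c u x hc hu
    have h1 := hU c hc
    obtain ⟨z, hzdef⟩ : ∃ z, z = (U c)⁻¹ * u := ⟨_, rfl⟩
    have hzc : z * g = g * z := by
      have h2 : U c * g * (U c)⁻¹ = u * g * u⁻¹ := h1.trans hu.symm
      have h3 : g * ((U c)⁻¹ * u) = (U c)⁻¹ * u * g := by
        have h4 : (U c)⁻¹ * (U c * g * (U c)⁻¹) * u = (U c)⁻¹ * (u * g * u⁻¹) * u := by rw [h2]
        simpa [mul_assoc] using h4
      rw [hzdef]
      exact h3.symm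
    have huz : u = U c * z := by simp [hzdef]
    have h5 := hz z hzc (U c) (x * U c)
    have e1 : h u = h (U c * z) := by rw [← huz]
    have e2 : h (x * u) = h (x * U c * z) := by rw [huz, mul_assoc]
    rw [e1, e2]
    linarith
  let κ : G → G → ℝ := fun c x => (h (U c) - h (x⁻¹ * U c)) / lam
  refine cocycle_criterion he (ConjClasses.mk g) κ ?_ ?_ ?_
  · intro c hc x y
    have hc2 : x⁻¹ * c * x ∈ (ConjClasses.mk g).carrier := by
      rw [hmem]
      refine ⟨x⁻¹ * U c, ?_⟩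
      have := hU c hc
      calc x⁻¹ * U c * g * (x⁻¹ * U c)⁻¹ = x⁻¹ * (U c * g * (U c)⁻¹) * x := by group
        _ = x⁻¹ * c * x := by rw [this]
    have hconj : x⁻¹ * U c * g * (x⁻¹ * U c)⁻¹ = x⁻¹ * c * x := by
      have := hU c hc
      calc x⁻¹ * U c * g * (x⁻¹ * U c)⁻¹ = x⁻¹ * (U c * g * (U c)⁻¹) * x := by group
        _ = x⁻¹ * c * x := by rw [this]
    have h6 := key (x⁻¹ * c * x) (x⁻¹ * U c) y⁻¹ hc2 hconj
    simp only [κ]
    rw [← add_div]
    congr 1
    rw [← h6, mul_inv_rev, mul_assoc]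
    ring
  · intro c hc
    simp only [κ]
    have h1 := hU c hc
    have h2 : c⁻¹ * U c = U c * g⁻¹ := by
      calc c⁻¹ * U c = (U c * g * (U c)⁻¹)⁻¹ * U c := by rw [h1]
        _ = U c * g⁻¹ := by group
    rw [h2]
    have h3 := hz g rfl (U c * g⁻¹) 1
    rw [inv_mul_cancel_right, one_mul] at h3
    rw [h3]
    exact div_self hlam0
  · intro x
    obtain ⟨M, hM⟩ := hb x⁻¹
    refine ⟨M / |lam|, fun c _ => ?_⟩
    simp only [κ]
    rw [abs_div]
    refine div_le_div_of_nonneg_right ?_ (abs_nonneg _)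
    rw [abs_sub_comm]
    exact hM _

end Vale.Agent.P184
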