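import Vale.Agent.P184.VirtCyclic

namespace Vale.Agent.P184

open scoped BigOperators

section metric

variable {X : Type*} [PseudoMetricSpace X] {δ : ℝ}

/-- The four point form of Gromov hyperbolicity. -/
def FourPt (X : Type*) [PseudoMetricSpace X] (δ : ℝ) : Prop :=
  ∀ x y z w : X, dist x y + dist z w ≤ max (dist x z + dist y w) (dist x w + dist y z) + 2 * δ

/-- The Gromov product of `x` and `y` based at `w`. -/
noncomputable def gp (x y w : X) : ℝ := (dist x w + dist y w - dist x y) / 2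

lemma gp_min (h4 : FourPt X δ) (x y z w : X) : min (gp x y w) (gp y z w) - δ ≤ gp x z w := by
  have h := h4 x z y w
  rcases le_total (dist x y + dist z w) (dist x w + dist z y) with hc | hc
  · rw [max_eq_right hc] at h
    have h1 := min_le_right (gp x y w) (gp y z w)
    unfold gp at *
    rw [dist_comm z y] at h
    linarith
  · rw [max_eq_left hc] at h
    have h1 := min_le_left (gp x y w) (gp y z w)
    unfold gp at *
    linarith

lemma dist_le_of_gp (h4 : FourPt X δ) (a b p r : X) (c s : ℝ) (hp : gp a b p ≤ c)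
    (hr : gp a b r ≤ c) (hs : |dist a p - dist a r| ≤ s) : dist p r ≤ 2 * c + s + 2 * δ := by
  have h := h4 a b p r
  have hs' := abs_le.mp hs
  unfold gp at hp hr
  rcases le_total (dist a p + dist b r) (dist a r + dist b p) with hc | hc
  · rw [max_eq_right hc] at h
    linarith [hs'.1, hs'.2]
  · rw [max_eq_left hc] at h
    linarith [hs'.1, hs'.2]

end metric

section orbit

variable {X : Type*} [PseudoMetricSpace X] {δ : ℝ}

/-- Data of a homogeneous sequence of points. -/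
structure HomSeq (x : ℕ → X) (u : ℕ → ℝ) : Prop where
  dist_eq : ∀ i j, dist (x i) (x (i + j)) = u j

lemma HomSeq.u_zero {x : ℕ → X} {u : ℕ → ℝ} (h : HomSeq x u) : u 0 = 0 := by
  have := h.dist_eq 0 0
  simpa using this.symm

lemma HomSeq.u_nonneg {x : ℕ → X} {u : ℕ → ℝ} (h : HomSeq x u) (j : ℕ) : 0 ≤ u j := by
  rw [← h.dist_eq 0 j]
  exact dist_nonneg

lemma HomSeq.u_add {x : ℕ → X} {u : ℕ → ℝ} (h : HomSeq x u) (i j : ℕ) :
    u (i + j) ≤ u i + u j := by
  have h1 := dist_triangle (x 0) (x (0 + i)) (x (0 + i + j))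
  rw [h.dist_eq 0 i, h.dist_eq (0 + i) j] at h1
  have h2 := h.dist_eq 0 (i + j)
  rw [← add_assoc] at h2
  rw [h2] at h1
  exact h1

/-- Claim A: no backtracking, one step. -/
lemma HomSeq.stepA {x : ℕ → X} {u : ℕ → ℝ} (h : HomSeq x u) (h4 : FourPt X δ) (hδ : 0 ≤ δ)
    (h21 : u 1 + 3 * δ < u 2) (i : ℕ) :
    u (i + 1) + u 1 - u (i + 2) ≤ 2 * u 1 - u 2 + 2 * δ := by
  induction i with
  | zero =>
    simp only [zero_add]
    linarith
  | succ i ih =>
    have hq := h4 (x (i + 1)) (x (i + 3)) (x 0) (x (i + 2))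
    have e1 : dist (x (i + 1)) (x (i + 3)) = u 2 := h.dist_eq (i + 1) 2
    have e2 : dist (x 0) (x (i + 2)) = u (i + 2) := by
      have := h.dist_eq 0 (i + 2)
      rwa [zero_add] at this
    have e3 : dist (x (i + 1)) (x 0) = u (i + 1) := by
      have := h.dist_eq 0 (i + 1)
      rw [zero_add] at this
      rw [dist_comm]
      exact this
    have e4 : dist (x (i + 3)) (x (i + 2)) = u 1 := by
      rw [dist_comm]
      exact h.dist_eq (i + 2) 1
    have e5 : dist (x (i + 1)) (x (i + 2)) = u 1 := h.dist_eq (i + 1) 1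
    have e6 : dist (x (i + 3)) (x 0) = u (i + 3) := by
      have := h.dist_eq 0 (i + 3)
      rw [zero_add] at this
      rw [dist_comm]
      exact this
    rw [e1, e2, e3, e4, e5, e6] at hq
    have e7 : i + 1 + 1 = i + 2 := rfl
    have e8 : i + 1 + 2 = i + 3 := rfl
    rw [e7, e8]
    rcases le_total (u (i + 1) + u 1) (u 1 + u (i + 3)) with hc | hc
    · rw [max_eq_right hc] at hq
      linarith
    · rw [max_eq_left hc] at hq
      linarith

/-- Linear growth of the displacement. -/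
lemma HomSeq.step_growth {x : ℕ → X} {u : ℕ → ℝ} (h : HomSeq x u) (h4 : FourPt X δ) (hδ : 0 ≤ δ)
    (h21 : u 1 + 3 * δ < u 2) (i : ℕ) : u i + (u 2 - u 1 - 2 * δ) ≤ u (i + 1) := by
  cases i with
  | zero =>
    have h1 := h.u_add 1 1
    have h0 := h.u_zero
    simp only [zero_add]
    have e : (1 : ℕ) + 1 = 2 := rfl
    rw [e] at h1
    linarith
  | succ i =>
    have := h.stepA h4 hδ h21 i
    have e7 : i + 1 + 1 = i + 2 := rfl
    rw [e7]
    linarith

lemma HomSeq.growth {x : ℕ → X} {u : ℕ → ℝ} (h : HomSeq x u) (h4 : FourPt X δ) (hδ : 0 ≤ δ)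
    (h21 : u 1 + 3 * δ < u 2) (n : ℕ) : n * (u 2 - u 1 - 2 * δ) ≤ u n := by
  induction n with
  | zero => simp [h.u_zero]
  | succ n ih =>
    have := h.step_growth h4 hδ h21 n
    push_cast
    linarith

/-- Claim B: the sequence is a quasi geodesic with additive error. -/
lemma HomSeq.quasi {x : ℕ → X} {u : ℕ → ℝ} (h : HomSeq x u) (h4 : FourPt X δ) (hδ : 0 ≤ δ)
    (h21 : u 1 + 3 * δ < u 2) (i j : ℕ) : u i + u j - u (i + j) ≤ 2 * u 1 - u 2 + 4 * δ := by
  have h11 : u 2 ≤ u 1 + u 1 := h.u_add 1 1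
  cases i with
  | zero =>
    rw [h.u_zero, zero_add, zero_add]
    linarith
  | succ i =>
    cases j with
    | zero =>
      rw [h.u_zero, add_zero]
      linarith
    | succ j =>
      have hq := h4 (x 0) (x (i + 2)) (x (i + 1 + (j + 1))) (x (i + 1))
      have e1 : dist (x 0) (x (i + 2)) = u (i + 2) := by
        have := h.dist_eq 0 (i + 2)
        rwa [zero_add] at this
      have e2 : dist (x (i + 1 + (j + 1))) (x (i + 1)) = u (j + 1) := by
        rw [dist_comm]
        exact h.dist_eq (i + 1) (j + 1)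
      have e3 : dist (x 0) (x (i + 1 + (j + 1))) = u (i + 1 + (j + 1)) := by
        have := h.dist_eq 0 (i + 1 + (j + 1))
        rwa [zero_add] at this
      have e4 : dist (x (i + 2)) (x (i + 1)) = u 1 := by
        rw [dist_comm]
        exact h.dist_eq (i + 1) 1
      have e5 : dist (x 0) (x (i + 1)) = u (i + 1) := by
        have := h.dist_eq 0 (i + 1)
        rwa [zero_add] at this
      have e6 : dist (x (i + 2)) (x (i + 1 + (j + 1))) = u j := by
        have := h.dist_eq (i + 2) j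
        have e : i + 2 + j = i + 1 + (j + 1) := by ring
        rwa [e] at this
      rw [e1, e2, e3, e4, e5, e6] at hq
      have hA := h.stepA h4 hδ h21 i
      have hG := h.step_growth h4 hδ h21 j
      have hG' := h.step_growth h4 hδ h21 (i + 1)
      have e7 : i + 1 + 1 = i + 2 := rfl
      rw [e7] at hG'
      rcases le_total (u (i + 1 + (j + 1)) + u 1) (u (i + 1) + u j) with hc | hc
      · rw [max_eq_right hc] at hq
        linarith
      · rw [max_eq_left hc] at hq
        linarith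

lemma exists_index (u : ℕ → ℝ) (h0 : u 0 = 0) (s : ℝ) (hstep : ∀ m, u (m + 1) ≤ u m + s)
    (T : ℝ) (hT : 0 ≤ T) (m : ℕ) : (∃ k ≤ m, |u k - T| ≤ s) ∨ u m + s < T := by
  induction m with
  | zero =>
    rcases le_or_gt T s with h | h
    · left
      refine ⟨0, le_rfl, ?_⟩
      rw [h0, zero_sub, abs_neg, abs_of_nonneg hT]
      exact h
    · right
      rw [h0]
      linarith
  | succ m ih =>
    rcases ih with ⟨k, hk, hk'⟩ | h
    · exact Or.inl ⟨k, hk.trans (Nat.le_succ m), hk'⟩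
    · have h1 := hstep m
      rcases le_or_gt (T - u (m + 1)) s with h2 | h2
      · left
        refine ⟨m + 1, le_rfl, ?_⟩
        rw [abs_le]
        constructor <;> linarith
      · right
        linarith

/-- Two homogeneous sequences with the same displacement function at constant distance from each
other are uniformly close. -/
lemma exists_close {x y : ℕ → X} {u : ℕ → ℝ} (hx : HomSeq x u) (hy : HomSeq y u)
    (h4 : FourPt X δ) (hδ : 0 ≤ δ) (h21 : u 1 + 3 * δ < u 2) (r : ℝ)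
    (hxy : ∀ i, dist (x i) (y i) = r) :
    ∃ n k, dist (y n) (x k) ≤ 2 * (2 * u 1 - u 2 + 4 * δ) + u 1 + 10 * δ := by
  set c2 : ℝ := 2 * u 1 - u 2 + 4 * δ with hc2
  set η : ℝ := u 2 - u 1 - 2 * δ with hη
  have hη0 : 0 < η := by linarith
  have h11 : u 2 ≤ u 1 + u 1 := hx.u_add 1 1
  have hc20 : 0 ≤ c2 := by linarith
  obtain ⟨n, hn⟩ := exists_nat_gt ((r + c2 / 2 + 2 * δ) / η)
  rw [div_lt_iff₀ hη0] at hn
  have hun : r + c2 / 2 + 2 * δ < u n := lt_of_lt_of_le hn (hx.growth h4 hδ h21 n)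
  have e2n : n + n = 2 * n := by ring
  -- distances
  have d1 : dist (y 0) (y n) = u n := by
    have := hy.dist_eq 0 n
    rwa [zero_add] at this
  have d2 : dist (y (2 * n)) (y n) = u n := by
    have := hy.dist_eq n n
    rw [e2n] at this
    rw [dist_comm]
    exact this
  have d3 : dist (y 0) (y (2 * n)) = u (2 * n) := by
    have := hy.dist_eq 0 (2 * n)
    rwa [zero_add] at this
  have d4 : dist (x 0) (x (2 * n)) = u (2 * n) := by
    have := hx.dist_eq 0 (2 * n)
    rwa [zero_add] at this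
  have hq := hx.quasi h4 hδ h21 n n
  rw [e2n] at hq
  have g1 : gp (y 0) (y (2 * n)) (y n) ≤ c2 / 2 := by
    unfold gp
    rw [d1, d2, d3]
    linarith
  have g2 : u n - r ≤ gp (y 0) (x 0) (y n) := by
    unfold gp
    have t1 := dist_triangle (y 0) (x 0) (y n)
    have t2 : dist (y 0) (x 0) = r := by rw [dist_comm]; exact hxy 0
    rw [d1, t2] at t1
    rw [d1, t2]
    linarith
  have g3 : u n - r ≤ gp (x (2 * n)) (y (2 * n)) (y n) := by
    unfold gp
    have t1 := dist_triangle (y (2 * n)) (x (2 * n)) (y n)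
    have t2 : dist (y (2 * n)) (x (2 * n)) = r := by rw [dist_comm]; exact hxy (2 * n)
    have t3 : dist (x (2 * n)) (y (2 * n)) = r := hxy (2 * n)
    rw [d2, t2] at t1
    rw [d2, t3]
    linarith
  have g4 : gp (x 0) (y (2 * n)) (y n) ≤ c2 / 2 + δ := by
    have := gp_min h4 (y 0) (x 0) (y (2 * n)) (y n)
    have h1 : min (gp (y 0) (x 0) (y n)) (gp (x 0) (y (2 * n)) (y n)) ≤ c2 / 2 + δ := by linarith
    rcases min_le_iff.mp h1 with h2 | h2
    · linarith
    · exact h2
  have g5 : gp (x 0) (x (2 * n)) (y n) ≤ c2 / 2 + 2 * δ := by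
    have := gp_min h4 (x 0) (x (2 * n)) (y (2 * n)) (y n)
    have h1 : min (gp (x 0) (x (2 * n)) (y n)) (gp (x (2 * n)) (y (2 * n)) (y n)) ≤
        c2 / 2 + 2 * δ := by linarith
    rcases min_le_iff.mp h1 with h2 | h2
    · exact h2
    · linarith
  have g6 : ∀ k ≤ 2 * n, gp (x 0) (x (2 * n)) (x k) ≤ c2 / 2 + 2 * δ := by
    intro k hk
    obtain ⟨j, hj⟩ := Nat.exists_eq_add_of_le hk
    have t1 : dist (x 0) (x k) = u k := by
      have := hx.dist_eq 0 k
      rwa [zero_add] at this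
    have t2 : dist (x (2 * n)) (x k) = u j := by
      rw [dist_comm, hj]
      exact hx.dist_eq k j
    have t3 := hx.quasi h4 hδ h21 k j
    rw [← hj] at t3
    unfold gp
    rw [t1, t2, d4]
    linarith
  have hstep : ∀ m, u (m + 1) ≤ u m + u 1 := fun m => hx.u_add m 1
  have hu1 : 0 ≤ u 1 := hx.u_nonneg 1
  have hfin : ∃ k ≤ 2 * n, |dist (x 0) (y n) - dist (x 0) (x k)| ≤ u 1 + (c2 + 4 * δ) := by
    rcases exists_index u hx.u_zero (u 1) hstep (dist (x 0) (y n)) dist_nonneg (2 * n) with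
      ⟨k, hk, hk'⟩ | h
    · refine ⟨k, hk, ?_⟩
      have t1 : dist (x 0) (x k) = u k := by
        have := hx.dist_eq 0 k
        rwa [zero_add] at this
      rw [t1, abs_sub_comm]
      linarith
    · refine ⟨2 * n, le_rfl, ?_⟩
      rw [d4]
      have t1 : 0 ≤ dist (x (2 * n)) (y n) := dist_nonneg
      unfold gp at g5
      rw [d4] at g5
      rw [abs_le]
      constructor <;> linarith
  obtain ⟨k, hk, hk'⟩ := hfin
  refine ⟨n, k, ?_⟩
  have := dist_le_of_gp h4 (x 0) (x (2 * n)) (y n) (x k) (c2 / 2 + 2 * δ) (u 1 + (c2 + 4 * δ)) g5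
    (g6 k hk) hk'
  linarith

end orbit

section action

variable {G : Type*} [Group G] {q : ℕ} {X : Type*} [PseudoMetricSpace X] [MulAction G X] {δ : ℝ}

lemma exists_doubling (a : ℕ → ℝ) (ε : ℝ) (hε : 0 < ε) (hδ : 0 ≤ δ) (ha : ∀ n : ℕ, ε * n ≤ a n) :
    ∃ N : ℕ, a N + 3 * δ < a (2 * N) := by
  by_contra hcon
  push Not at hcon
  have h1 : ∀ k : ℕ, a (2 ^ k) ≤ a 1 + 3 * δ * k := by
    intro k
    induction k with
    | zero => simp
    | succ k ih =>
      have := hcon (2 ^ k)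
      rw [pow_succ, mul_comm]
      push_cast
      linarith
  have ha1 : 0 ≤ a 1 := by
    have := ha 1
    have h2 : 0 ≤ ε * ((1 : ℕ) : ℝ) := by positivity
    linarith
  obtain ⟨m, hm⟩ := exists_nat_gt ((a 1 + 6 * δ) / ε + 1)
  have hm1 : (1 : ℝ) < m := by
    have : 0 ≤ (a 1 + 6 * δ) / ε := by positivity
    linarith
  have hm2 : a 1 + 6 * δ < ε * m := by
    have : (a 1 + 6 * δ) / ε < m := by linarith
    rw [div_lt_iff₀ hε] at this
    linarith
  have h2 := h1 (2 * m)
  have h3 := ha (2 ^ (2 * m))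
  have h4 : (m : ℝ) < 2 ^ m := by exact_mod_cast Nat.lt_two_pow_self
  have h5 : ((2 ^ (2 * m) : ℕ) : ℝ) = (2 ^ m : ℝ) * 2 ^ m := by
    push_cast
    rw [two_mul, pow_add]
  rw [h5] at h3
  have h6 : (m : ℝ) * m ≤ (2 ^ m : ℝ) * 2 ^ m := by nlinarith
  have h7 : ε * (m * m) ≤ ε * ((2 ^ m : ℝ) * 2 ^ m) := mul_le_mul_of_nonneg_left h6 hε.le
  push_cast at h2
  nlinarith

/-- Loxodromic elements whose centralizer acts metrically properly, for an isometric action on a
Gromov hyperbolic space. -/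
theorem lox_criterion {e : Fin q → Fin q → G → ℂ} (he : IsIdem e)
    (hiso : ∀ (a : G) (x y : X), dist (a • x) (a • y) = dist x y) (h4 : FourPt X δ)
    (g : G) (x₀ : X) (ε : ℝ) (hε : 0 < ε) (hlox : ∀ n : ℕ, ε * n ≤ dist x₀ (g ^ n • x₀))
    (hprop : ∀ R : ℝ, {s : G | s * g = g * s ∧ dist x₀ (s • x₀) ≤ R}.Finite) :
    hs e (ConjClasses.mk g) = 0 := by
  classical
  have hδ : 0 ≤ δ := by
    have := h4 x₀ x₀ x₀ x₀
    simp only [dist_self, add_zero, max_self, zero_add] at this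
    linarith
  obtain ⟨N, hN⟩ := exists_doubling (fun n => dist x₀ (g ^ n • x₀)) ε hε hδ hlox
  set h : G := g ^ N with hh
  let x : ℕ → X := fun k => h ^ k • x₀
  let u : ℕ → ℝ := fun k => dist x₀ (h ^ k • x₀)
  have hx : HomSeq x u := ⟨fun i j => by
    simp only [x, u]
    rw [pow_add, mul_smul, hiso]⟩
  have hu1 : u 1 = dist x₀ (g ^ N • x₀) := by simp only [u, pow_one, hh]
  have hu2 : u 2 = dist x₀ (g ^ (2 * N) • x₀) := by
    simp only [u, hh]
    rw [← pow_mul, mul_comm]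
  have h21 : u 1 + 3 * δ < u 2 := by rw [hu1, hu2]; exact hN
  set R₀ : ℝ := 2 * (2 * u 1 - u 2 + 4 * δ) + u 1 + 10 * δ with hR₀
  have hfin := hprop R₀
  let l : G → ℝ := fun a => dist x₀ (a • x₀)
  have hl : ∀ a b, l (a * b) ≤ l a + l b := by
    intro a b
    simp only [l]
    have := dist_triangle x₀ (a • x₀) ((a * b) • x₀)
    rw [mul_smul, hiso] at this
    rw [mul_smul]
    exact this
  refine virtually_cyclic_criterion he l hl (fun _ => dist_nonneg) g ε hε hlox _ hfin ?_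
  intro z hz
  have hzc : Commute z g := hz
  have hzh : ∀ k : ℕ, Commute z (h ^ k) := fun k => (hzc.pow_right N).pow_right k
  let y : ℕ → X := fun k => z • x k
  have hy : HomSeq y u := ⟨fun i j => by
    simp only [y]
    rw [hiso]
    exact hx.dist_eq i j⟩
  have hxy : ∀ i, dist (x i) (y i) = dist x₀ (z • x₀) := by
    intro i
    simp only [x, y]
    rw [← mul_smul, (hzh i).eq, mul_smul, hiso]
  obtain ⟨n, k, hnk⟩ := exists_close hx hy h4 hδ h21 _ hxy
  let s : G := (h ^ k)⁻¹ * z * h ^ n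
  have hs1 : dist x₀ (s • x₀) ≤ R₀ := by
    have e1 : dist x₀ (s • x₀) = dist (h ^ k • x₀) (h ^ k • s • x₀) := (hiso _ _ _).symm
    have e2 : h ^ k • s • x₀ = z • h ^ n • x₀ := by
      simp only [s]
      rw [← mul_smul, ← mul_smul]
      congr 1
      group
    rw [e1, e2, dist_comm]
    exact hnk
  have hsc : Commute s g := by
    have c1 : Commute (h ^ k)⁻¹ g := ((Commute.refl g).pow_left N |>.pow_left k).inv_left
    have c2 : Commute (h ^ n) g := ((Commute.refl g).pow_left N).pow_left n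
    exact (c1.mul_left hzc).mul_left c2
  refine ⟨s, ⟨hsc.eq, hs1⟩, (N : ℤ) * ((k : ℤ) - n), ?_⟩
  have e1 : (h ^ k)⁻¹ * z = z * (h ^ k)⁻¹ := ((hzh k).inv_right).eq.symm
  have e2 : (h ^ k)⁻¹ * h ^ n * g ^ ((N : ℤ) * ((k : ℤ) - n)) = 1 := by
    simp only [hh]
    rw [← pow_mul, ← pow_mul, ← zpow_natCast, ← zpow_natCast, ← zpow_neg, ← zpow_add, ← zpow_add]
    have : -((N * k : ℕ) : ℤ) + ((N * n : ℕ) : ℤ) + (N : ℤ) * ((k : ℤ) - n) = 0 := by
      push_cast
      ring
    rw [this, zpow_zero]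
  calc z = z * ((h ^ k)⁻¹ * h ^ n * g ^ ((N : ℤ) * ((k : ℤ) - n))) := by rw [e2, mul_one]
    _ = s * g ^ ((N : ℤ) * ((k : ℤ) - n)) := by
      simp only [s]
      rw [e1]
      simp only [mul_assoc]

/-- Loxodromic elements with the weak proper discontinuity property of Bestvina and Fujiwara. -/
theorem wpd_criterion {e : Fin q → Fin q → G → ℂ} (he : IsIdem e)
    (hiso : ∀ (a : G) (x y : X), dist (a • x) (a • y) = dist x y) (h4 : FourPt X δ)
    (g : G) (x₀ : X) (ε : ℝ) (hε : 0 < ε) (hlox : ∀ n : ℕ, ε * n ≤ dist x₀ (g ^ n • x₀))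
    (hwpd : ∀ R : ℝ, ∃ M : ℕ,
      {s : G | dist x₀ (s • x₀) ≤ R ∧ dist (g ^ M • x₀) (s • g ^ M • x₀) ≤ R}.Finite) :
    hs e (ConjClasses.mk g) = 0 := by
  refine lox_criterion he hiso h4 g x₀ ε hε hlox ?_
  intro R
  obtain ⟨M, hfin⟩ := hwpd R
  refine hfin.subset ?_
  rintro s ⟨hsc, hs1⟩
  have hsc' : Commute s g := hsc
  refine ⟨hs1, ?_⟩
  rw [← mul_smul, (hsc'.pow_right M).eq, mul_smul, hiso]
  exact hs1

/-- Loxodromic elements of acylindrical actions. -/
theorem acylindrical_criterion {e : Fin q → Fin q → G → ℂ} (he : IsIdem e)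
    (hiso : ∀ (a : G) (x y : X), dist (a • x) (a • y) = dist x y) (h4 : FourPt X δ)
    (hacyl : ∀ R : ℝ, ∃ L : ℝ, ∀ x y : X, L ≤ dist x y →
      {s : G | dist x (s • x) ≤ R ∧ dist y (s • y) ≤ R}.Finite)
    (g : G) (x₀ : X) (ε : ℝ) (hε : 0 < ε) (hlox : ∀ n : ℕ, ε * n ≤ dist x₀ (g ^ n • x₀)) :
    hs e (ConjClasses.mk g) = 0 := by
  refine wpd_criterion he hiso h4 g x₀ ε hε hlox ?_
  intro R
  obtain ⟨L, hL⟩ := hacyl R
  obtain ⟨M, hM⟩ := exists_nat_gt (L / ε)
  refine ⟨M, hL x₀ (g ^ M • x₀) ?_⟩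
  rw [div_lt_iff₀ hε] at hM
  have := hlox M
  linarith

end action

end Vale.Agent.P184
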