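import Vale.Agent.P184.Hyp

namespace Vale.Agent.P184

open scoped BigOperators

section package

variable {G : Type*} [Group G] {q : ℕ} {X : Type*} [PseudoMetricSpace X] [MulAction G X]

/-- For a metrically proper and cobounded action: if every class either has vanishing coefficient
or consists of elements all of whose powers up to any given exponent move a common point by a
uniformly bounded amount, then the conjecture holds in its literal form. -/
theorem proper_cobounded_package {e : Fin q → Fin q → G → ℂ}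
    (hiso : ∀ (a : G) (x y : X), dist (a • x) (a • y) = dist x y)
    (x₀ : X) (hprop : ∀ R : ℝ, {s : G | dist x₀ (s • x₀) ≤ R}.Finite)
    (R₀ : ℝ) (hcob : ∀ y : X, ∃ s : G, dist y (s • x₀) ≤ R₀) (κ : ℝ)
    (hdich : ∀ g : G, hs e (ConjClasses.mk g) = 0 ∨
      ∀ J : ℕ, ∃ c : X, ∀ j ≤ J, dist c (g ^ j • c) ≤ κ) :
    ∃ F : Finset (ConjClasses G), (∀ C ∈ F, ∀ g ∈ C.carrier, IsOfFinOrder g) ∧
      ∀ C, C ∉ F → hs e C = 0 := by
  classical
  have hfin := hprop (2 * R₀ + κ)
  let S₀ : Finset G := hfin.toFinset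
  have hS₀ : ∀ s, s ∈ S₀ ↔ dist x₀ (s • x₀) ≤ 2 * R₀ + κ := by
    intro s
    simp [S₀]
  have hB : ∀ g : G, (∀ J : ℕ, ∃ c : X, ∀ j ≤ J, dist c (g ^ j • c) ≤ κ) →
      ∃ s : G, s⁻¹ * g * s ∈ S₀ ∧ IsOfFinOrder g := by
    intro g hg
    let N : ℕ := S₀.card + 1
    obtain ⟨x, hx⟩ := hg N
    obtain ⟨s, hs⟩ := hcob x
    let g' : G := s⁻¹ * g * s
    have hpow : ∀ j : ℕ, g' ^ j = s⁻¹ * g ^ j * s := by
      intro j
      have : g' = s⁻¹ * g * s⁻¹⁻¹ := by simp [g']
      rw [this, conj_pow, inv_inv]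
    have hmem : ∀ j : ℕ, j ≤ N → g' ^ j ∈ S₀ := by
      intro j hj
      rw [hS₀, hpow j]
      have h1 : dist x₀ ((s⁻¹ * g ^ j * s) • x₀) = dist (s • x₀) (g ^ j • (s • x₀)) := by
        have := hiso s x₀ ((s⁻¹ * g ^ j * s) • x₀)
        rw [← this, ← mul_smul, ← mul_smul]
        congr 2
        group
      rw [h1]
      have h2 := dist_triangle4 (s • x₀) x (g ^ j • x) (g ^ j • (s • x₀))
      have h3 : dist (g ^ j • x) (g ^ j • (s • x₀)) = dist x (s • x₀) := hiso _ _ _
      have h4 := hx j hj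
      rw [dist_comm (s • x₀) x, h3] at h2
      linarith
    refine ⟨s, by simpa using hmem 1 (by simp [N]), ?_⟩
    have hcard : S₀.card < (Finset.range (N + 1)).card := by
      simp [N]
    obtain ⟨i, hi, j, hj, hij, heq⟩ := Finset.exists_ne_map_eq_of_card_lt_of_maps_to hcard
      (f := fun j => g' ^ j) (fun j hj => hmem j (by
        have := Finset.mem_range.mp hj
        omega))
    have hfo' : IsOfFinOrder g' := by
      rw [isOfFinOrder_iff_pow_eq_one]
      rcases lt_or_gt_of_ne hij with h | h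
      · refine ⟨j - i, by omega, ?_⟩
        have h1 : g' ^ j = g' ^ i * g' ^ (j - i) := by rw [← pow_add]; congr 1; omega
        have heq' : g' ^ i = g' ^ j := heq
        rw [h1] at heq'
        exact (mul_eq_left.mp heq'.symm)
      · refine ⟨i - j, by omega, ?_⟩
        have h1 : g' ^ i = g' ^ j * g' ^ (i - j) := by rw [← pow_add]; congr 1; omega
        have heq' : g' ^ i = g' ^ j := heq
        rw [h1] at heq'
        exact (mul_eq_left.mp heq')
    obtain ⟨n, hn, hn1⟩ := (isOfFinOrder_iff_pow_eq_one).mp hfo'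
    rw [isOfFinOrder_iff_pow_eq_one]
    refine ⟨n, hn, ?_⟩
    rw [hpow n] at hn1
    have : g ^ n = s * (s⁻¹ * g ^ n * s) * s⁻¹ := by group
    rw [this, hn1]
    group
  have hconj : ∀ a b : G, IsConj a b → IsOfFinOrder a → IsOfFinOrder b := by
    intro a b hab ha
    obtain ⟨c, hc⟩ := isConj_iff.mp hab
    obtain ⟨n, hn, hn1⟩ := (isOfFinOrder_iff_pow_eq_one).mp ha
    rw [isOfFinOrder_iff_pow_eq_one]
    refine ⟨n, hn, ?_⟩
    rw [← hc, conj_pow, hn1]
    group
  refine ⟨(S₀.filter fun s => IsOfFinOrder s).image ConjClasses.mk, ?_, ?_⟩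
  · intro C hC g hg
    obtain ⟨s, hs, rfl⟩ := Finset.mem_image.mp hC
    rw [ConjClasses.mem_carrier_iff_mk_eq, ConjClasses.mk_eq_mk_iff_isConj] at hg
    exact hconj s g hg.symm (Finset.mem_filter.mp hs).2
  · intro C hC
    obtain ⟨g, rfl⟩ := ConjClasses.exists_rep C
    rcases hdich g with h | h
    · exact h
    · exfalso
      obtain ⟨s, hs, hfo⟩ := hB g h
      apply hC
      refine Finset.mem_image.mpr ⟨s⁻¹ * g * s, Finset.mem_filter.mpr ⟨hs, ?_⟩, ?_⟩
      · refine hconj g _ ?_ hfo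
        rw [isConj_iff]
        exact ⟨s⁻¹, by simp⟩
      · rw [ConjClasses.mk_eq_mk_iff_isConj, isConj_iff]
        exact ⟨s, by group⟩

end package

lemma exists_lin_lt_two_pow (A B : ℝ) : ∃ t : ℕ, A * t + B < 2 ^ t := by
  obtain ⟨s, hs⟩ := exists_nat_gt (2 * |A| + |B| + 1)
  refine ⟨2 * s, ?_⟩
  have h4 : (s : ℝ) < 2 ^ s := by exact_mod_cast Nat.lt_two_pow_self
  have h5 : (2 : ℝ) ^ (2 * s) = (2 ^ s : ℝ) * 2 ^ s := by rw [two_mul, pow_add]
  rw [h5]
  have hA := le_abs_self A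
  have hB := le_abs_self B
  have hA0 := abs_nonneg A
  have hB0 := abs_nonneg B
  have hs1 : (1 : ℝ) < s := by linarith
  push_cast
  have h6 : (s : ℝ) * s < (2 ^ s : ℝ) * 2 ^ s := by nlinarith
  have h7 : A * (2 * s) + B ≤ (s : ℝ) * s := by nlinarith
  linarith

lemma log_growth (a : ℕ → ℝ) (d : ℝ) (h0 : a 0 = 0) (hd : 0 ≤ d) (ha1 : 0 ≤ a 1)
    (hdbl : ∀ N, a (2 * N) ≤ a N + d) (hstep : ∀ N, a (N + 1) ≤ a N + a 1) :
    ∀ t i : ℕ, i < 2 ^ (t + 1) → a i ≤ (a 1 + d) * (t + 1) := by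
  intro t
  induction t with
  | zero =>
    intro i hi
    have : i = 0 ∨ i = 1 := by
      simp only [zero_add, pow_one] at hi
      omega
    rcases this with rfl | rfl
    · rw [h0]
      push_cast
      linarith
    · push_cast
      linarith
  | succ t ih =>
    intro i hi
    have hm : i / 2 < 2 ^ (t + 1) := by
      rw [pow_succ] at hi
      omega
    have h1 := ih (i / 2) hm
    have h2 := hdbl (i / 2)
    push_cast
    rcases Nat.mod_two_eq_zero_or_one i with h | h
    · have : i = 2 * (i / 2) := by omega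
      rw [this]
      linarith
    · have : i = 2 * (i / 2) + 1 := by omega
      have h3 := hstep (2 * (i / 2))
      rw [this]
      linarith

section dich

variable {G : Type*} [Group G] {X : Type*} [PseudoMetricSpace X] [MulAction G X] {δ : ℝ}

/-- the radius of an orbit segment seen from `y` -/
noncomputable def orad (g : G) (x₀ : X) (n : ℕ) (y : X) : ℝ :=
  (Finset.range (n + 1)).sup' ⟨0, by simp⟩ (fun i => dist (g ^ i • x₀) y)

lemma le_orad (g : G) (x₀ : X) (n : ℕ) (y : X) {i : ℕ} (hi : i ≤ n) :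
    dist (g ^ i • x₀) y ≤ orad g x₀ n y :=
  Finset.le_sup' (fun i => dist (g ^ i • x₀) y) (Finset.mem_range.mpr (by omega))

lemma orad_le (g : G) (x₀ : X) (n : ℕ) (y : X) {ρ : ℝ}
    (h : ∀ i ≤ n, dist (g ^ i • x₀) y ≤ ρ) : orad g x₀ n y ≤ ρ :=
  Finset.sup'_le _ _ (fun i hi => h i (by have := Finset.mem_range.mp hi; omega))

lemma orad_nonneg (g : G) (x₀ : X) (n : ℕ) (y : X) : 0 ≤ orad g x₀ n y :=
  dist_nonneg.trans (le_orad g x₀ n y (Nat.zero_le n))

/-- the infimal radius of an orbit segment -/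
noncomputable def oinf (g : G) (x₀ : X) (n : ℕ) : ℝ := ⨅ y, orad g x₀ n y

lemma oinf_le (g : G) (x₀ : X) (n : ℕ) (y : X) : oinf g x₀ n ≤ orad g x₀ n y :=
  ciInf_le ⟨0, by rintro _ ⟨y, rfl⟩; exact orad_nonneg g x₀ n y⟩ y

lemma oinf_nonneg (g : G) (x₀ : X) (n : ℕ) : 0 ≤ oinf g x₀ n :=
  have : Nonempty X := ⟨x₀⟩
  le_ciInf (fun y => orad_nonneg g x₀ n y)

lemma exists_near (g : G) (x₀ : X) (n : ℕ) : ∃ y, orad g x₀ n y < oinf g x₀ n + 1 :=
  have : Nonempty X := ⟨x₀⟩
  exists_lt_of_ciInf_lt (by unfold oinf; linarith)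

/-- An element which does not satisfy the doubling condition at the base point moves, together
with its first `J` powers, some point by a uniformly bounded amount. -/
lemma non_lox_bounded (hiso : ∀ (a : G) (x y : X), dist (a • x) (a • y) = dist x y)
    (h4 : FourPt X δ) (μ : ℝ)
    (hmid : ∀ x y : X, ∃ m : X, dist x m ≤ dist x y / 2 + μ ∧ dist y m ≤ dist x y / 2 + μ)
    (g : G) (x₀ : X)
    (hnl : ∀ N : ℕ, dist x₀ (g ^ (2 * N) • x₀) ≤ dist x₀ (g ^ N • x₀) + 3 * δ) (J : ℕ) :
    ∃ c : X, ∀ j ≤ J, dist c (g ^ j • c) ≤ 4 + 2 * μ + 4 * δ := by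
  classical
  have hδ : 0 ≤ δ := by
    have := h4 x₀ x₀ x₀ x₀
    simp only [dist_self, add_zero, max_self, zero_add] at this
    linarith
  let a : ℕ → ℝ := fun i => dist x₀ (g ^ i • x₀)
  have ha0 : a 0 = 0 := by simp [a]
  have hstep : ∀ N, a (N + 1) ≤ a N + a 1 := by
    intro N
    simp only [a]
    have h1 := dist_triangle x₀ (g ^ N • x₀) (g ^ (N + 1) • x₀)
    have h2 : dist (g ^ N • x₀) (g ^ (N + 1) • x₀) = dist x₀ (g ^ 1 • x₀) := by
      rw [pow_add, mul_smul, hiso]
    rw [h2] at h1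
    exact h1
  set c : ℝ := a 1 + 3 * δ with hc
  have hc0 : 0 ≤ c := by
    have : 0 ≤ a 1 := dist_nonneg
    linarith
  have hlog := log_growth a (3 * δ) ha0 (by linarith) dist_nonneg hnl hstep
  have hup : ∀ t n : ℕ, n < 2 ^ (t + 1) → oinf g x₀ n ≤ c * (t + 1) := by
    intro t n hn
    refine (oinf_le g x₀ n x₀).trans (orad_le g x₀ n x₀ ?_)
    intro i hi
    rw [dist_comm]
    exact hlog t i (lt_of_le_of_lt hi hn)
  -- a place where the radius does not grow
  have hplace : ∃ n, oinf g x₀ (n + J) ≤ oinf g x₀ n + 1 := by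
    by_contra hcon
    push Not at hcon
    have hk : ∀ k : ℕ, (k : ℝ) ≤ oinf g x₀ (k * J) := by
      intro k
      induction k with
      | zero => simpa using oinf_nonneg g x₀ 0
      | succ k ih =>
        have := hcon (k * J)
        have e : (k + 1) * J = k * J + J := by ring
        rw [e]
        push_cast
        linarith
    obtain ⟨t, ht⟩ := exists_lin_lt_two_pow (c * J) ((c + 2) * J)
    obtain ⟨k, hk1⟩ := exists_nat_gt (c * (t + 1))
    -- take the least such natural number bound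
    let k₀ : ℕ := ⌈c * (t + 1)⌉₊ + 1
    have hk₀1 : c * (t + 1) < k₀ := by
      have := Nat.le_ceil (c * ((t : ℝ) + 1))
      simp only [k₀]
      push_cast
      linarith
    have hk₀2 : (k₀ : ℝ) ≤ c * (t + 1) + 2 := by
      have := Nat.ceil_lt_add_one (a := c * ((t : ℝ) + 1)) (by positivity)
      simp only [k₀]
      push_cast
      linarith
    have hlt : k₀ * J < 2 ^ (t + 1) := by
      have h1 : ((k₀ * J : ℕ) : ℝ) < ((2 ^ (t + 1) : ℕ) : ℝ) := by
        push_cast
        have hJ : (0 : ℝ) ≤ J := Nat.cast_nonneg J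
        have h2 : (k₀ : ℝ) * J ≤ (c * (t + 1) + 2) * J := mul_le_mul_of_nonneg_right hk₀2 hJ
        have h3 : (2 : ℝ) ^ t ≤ 2 ^ (t + 1) := by
          rw [pow_succ]
          have : (0 : ℝ) < 2 ^ t := by positivity
          linarith
        nlinarith
      exact_mod_cast h1
    have := hup t (k₀ * J) hlt
    have := hk k₀
    linarith
  obtain ⟨n, hn⟩ := hplace
  obtain ⟨y, hy⟩ := exists_near g x₀ (n + J)
  refine ⟨y, fun j hj => ?_⟩
  set ρ : ℝ := oinf g x₀ n + 2 with hρ
  -- both `y` and its translate are almost centres of the first segment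
  have h1 : ∀ i ≤ n, dist (g ^ i • x₀) y ≤ ρ := by
    intro i hi
    have := le_orad g x₀ (n + J) y (i := i) (by omega)
    linarith
  have h2 : ∀ i ≤ n, dist (g ^ i • x₀) ((g ^ j)⁻¹ • y) ≤ ρ := by
    intro i hi
    have e1 : dist (g ^ i • x₀) ((g ^ j)⁻¹ • y) = dist (g ^ (j + i) • x₀) y := by
      rw [← hiso (g ^ j), smul_inv_smul, ← mul_smul, ← pow_add]
    rw [e1]
    have := le_orad g x₀ (n + J) y (i := j + i) (by omega)
    linarith
  obtain ⟨m, hm1, hm2⟩ := hmid y ((g ^ j)⁻¹ • y)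
  set D : ℝ := dist y ((g ^ j)⁻¹ • y) with hD
  have h3 : orad g x₀ n m ≤ ρ - D / 2 + μ + 2 * δ := by
    refine orad_le g x₀ n m ?_
    intro i hi
    have hq := h4 (g ^ i • x₀) m y ((g ^ j)⁻¹ • y)
    have b1 := h1 i hi
    have b2 := h2 i hi
    rw [dist_comm m ((g ^ j)⁻¹ • y), dist_comm m y] at hq
    rcases le_total (dist (g ^ i • x₀) y + dist ((g ^ j)⁻¹ • y) m)
      (dist (g ^ i • x₀) ((g ^ j)⁻¹ • y) + dist y m) with hc' | hc'
    · rw [max_eq_right hc'] at hq
      linarith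
    · rw [max_eq_left hc'] at hq
      linarith
  have h5 := oinf_le g x₀ n m
  have h6 : dist y (g ^ j • y) = D := by
    have e := hiso (g ^ j) y ((g ^ j)⁻¹ • y)
    rw [smul_inv_smul] at e
    rw [hD, ← e, dist_comm]
  rw [h6]
  linarith

lemma dist_pow_le (hiso : ∀ (a : G) (x y : X), dist (a • x) (a • y) = dist x y) (b : G) (x₀ : X)
    (N : ℕ) : dist x₀ (b ^ N • x₀) ≤ N * dist x₀ (b • x₀) := by
  induction N with
  | zero => simp
  | succ N ih =>
    have h1 := dist_triangle x₀ (b ^ N • x₀) (b ^ (N + 1) • x₀)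
    have h2 : dist (b ^ N • x₀) (b ^ (N + 1) • x₀) = dist x₀ (b • x₀) := by
      rw [pow_succ, mul_smul, hiso]
    push_cast
    linarith

/-- The doubling condition implies linear growth of the orbit. -/
lemma lox_of_doubling (hiso : ∀ (a : G) (x y : X), dist (a • x) (a • y) = dist x y)
    (h4 : FourPt X δ) (g : G) (x₀ : X) (N : ℕ)
    (hN : dist x₀ (g ^ N • x₀) + 3 * δ < dist x₀ (g ^ (2 * N) • x₀)) :
    ∃ ε : ℝ, 0 < ε ∧ ∀ n : ℕ, ε * n ≤ dist x₀ (g ^ n • x₀) := by
  have hδ : 0 ≤ δ := by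
    have := h4 x₀ x₀ x₀ x₀
    simp only [dist_self, add_zero, max_self, zero_add] at this
    linarith
  have hN0 : 0 < N := by
    rcases Nat.eq_zero_or_pos N with h | h
    · subst h
      simp only [mul_zero, pow_zero, one_smul, dist_self, zero_add] at hN
      linarith
    · exact h
  set h : G := g ^ N with hh
  let x : ℕ → X := fun k => h ^ k • x₀
  let u : ℕ → ℝ := fun k => dist x₀ (h ^ k • x₀)
  have hx : HomSeq x u := ⟨fun i j => by
    simp only [x, u]
    rw [pow_add, mul_smul, hiso]⟩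
  have hu1 : u 1 = dist x₀ (g ^ N • x₀) := by simp only [u, pow_one, hh]
  have hu2 : u 2 = dist x₀ (g ^ (2 * N) • x₀) := by
    simp only [u, hh]
    rw [← pow_mul, mul_comm]
  have h21 : u 1 + 3 * δ < u 2 := by rw [hu1, hu2]; exact hN
  have hNR : (0 : ℝ) < N := by exact_mod_cast hN0
  refine ⟨(u 2 - u 1 - 2 * δ) / N, div_pos (by linarith) hNR, fun n => ?_⟩
  have h1 := hx.growth h4 hδ h21 n
  have h2 : u n ≤ N * dist x₀ (g ^ n • x₀) := by
    have := dist_pow_le hiso (g ^ n) x₀ N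
    simp only [u, hh]
    rw [← pow_mul, mul_comm N n, pow_mul]
    exact this
  rw [div_mul_eq_mul_div, div_le_iff₀ hNR]
  linarith

end dich

section group

variable {G : Type*} [Group G] {q : ℕ} {X : Type*} [PseudoMetricSpace X] [MulAction G X] {δ : ℝ}

/-- The conjecture in its literal form for groups acting metrically properly and coboundedly on a
Gromov hyperbolic space with approximate midpoints (all Gromov hyperbolic groups). -/
theorem hyp_group {e : Fin q → Fin q → G → ℂ} (he : IsIdem e)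
    (hiso : ∀ (a : G) (x y : X), dist (a • x) (a • y) = dist x y) (h4 : FourPt X δ) (μ : ℝ)
    (hmid : ∀ x y : X, ∃ m : X, dist x m ≤ dist x y / 2 + μ ∧ dist y m ≤ dist x y / 2 + μ)
    (x₀ : X) (hprop : ∀ R : ℝ, {s : G | dist x₀ (s • x₀) ≤ R}.Finite)
    (R₀ : ℝ) (hcob : ∀ y : X, ∃ s : G, dist y (s • x₀) ≤ R₀) :
    ∃ F : Finset (ConjClasses G), (∀ C ∈ F, ∀ g ∈ C.carrier, IsOfFinOrder g) ∧
      ∀ C, C ∉ F → hs e C = 0 := by
  refine proper_cobounded_package hiso x₀ hprop R₀ hcob (4 + 2 * μ + 4 * δ) ?_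
  intro g
  by_cases hd : ∃ N : ℕ, dist x₀ (g ^ N • x₀) + 3 * δ < dist x₀ (g ^ (2 * N) • x₀)
  · left
    obtain ⟨N, hN⟩ := hd
    obtain ⟨ε, hε, hlox⟩ := lox_of_doubling hiso h4 g x₀ N hN
    refine lox_criterion he hiso h4 g x₀ ε hε hlox ?_
    intro R
    exact (hprop R).subset (fun s hs => hs.2)
  · right
    push Not at hd
    exact non_lox_bounded hiso h4 μ hmid g x₀ hd

/-- Acylindrical actions on hyperbolic spaces with approximate midpoints: the coefficient vanishes
at every element with unbounded orbits. -/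
theorem acyl_unbounded {e : Fin q → Fin q → G → ℂ} (he : IsIdem e)
    (hiso : ∀ (a : G) (x y : X), dist (a • x) (a • y) = dist x y) (h4 : FourPt X δ) (μ : ℝ)
    (hmid : ∀ x y : X, ∃ m : X, dist x m ≤ dist x y / 2 + μ ∧ dist y m ≤ dist x y / 2 + μ)
    (hacyl : ∀ R : ℝ, ∃ (L : ℝ) (N₀ : ℕ), ∀ x y : X, L ≤ dist x y →
      {s : G | dist x (s • x) ≤ R ∧ dist y (s • y) ≤ R}.Finite ∧
      {s : G | dist x (s • x) ≤ R ∧ dist y (s • y) ≤ R}.ncard ≤ N₀)
    (g : G) (x₀ : X) (hunb : ∀ R : ℝ, ∃ n : ℕ, R < dist x₀ (g ^ n • x₀)) :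
    hs e (ConjClasses.mk g) = 0 := by
  classical
  by_cases hd : ∃ N : ℕ, dist x₀ (g ^ N • x₀) + 3 * δ < dist x₀ (g ^ (2 * N) • x₀)
  · obtain ⟨N, hN⟩ := hd
    obtain ⟨ε, hε, hlox⟩ := lox_of_doubling hiso h4 g x₀ N hN
    refine acylindrical_criterion he hiso h4 ?_ g x₀ ε hε hlox
    intro R
    obtain ⟨L, N₀, h⟩ := hacyl R
    exact ⟨L, fun x y hxy => (h x y hxy).1⟩
  · exfalso
    push Not at hd
    obtain ⟨L, N₀, hL⟩ := hacyl (4 + 2 * μ + 4 * δ)
    obtain ⟨c, hc⟩ := non_lox_bounded hiso h4 μ hmid g x₀ hd N₀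
    obtain ⟨k, hk⟩ := hunb (L + 2 * dist c x₀)
    have hck : L ≤ dist c (g ^ k • c) := by
      have h1 := dist_triangle4 x₀ c (g ^ k • c) (g ^ k • x₀)
      rw [hiso, dist_comm x₀ c] at h1
      linarith
    obtain ⟨hfin, hcard⟩ := hL c (g ^ k • c) hck
    -- the powers of `g` are pairwise distinct
    have hinj : Function.Injective (fun j : ℕ => g ^ j) := by
      have key : ∀ i j : ℕ, i < j → g ^ i ≠ g ^ j := by
        intro i j hij h
        have h1 : g ^ (j - i) = 1 := by
          have h2 : g ^ j = g ^ i * g ^ (j - i) := by rw [← pow_add]; congr 1; omega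
          rw [h2] at h
          exact mul_eq_left.mp h.symm
        set m := j - i with hm
        have hm0 : 0 < m := by omega
        -- the orbit is then bounded
        obtain ⟨n, hn⟩ := hunb (∑ r ∈ Finset.range m, dist x₀ (g ^ r • x₀))
        have h3 : g ^ n = g ^ (n % m) := by
          conv_lhs => rw [← Nat.div_add_mod n m, pow_add, pow_mul, h1, one_pow, one_mul]
        rw [h3] at hn
        have h4' : dist x₀ (g ^ (n % m) • x₀) ≤ ∑ r ∈ Finset.range m, dist x₀ (g ^ r • x₀) :=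
          Finset.single_le_sum (f := fun r => dist x₀ (g ^ r • x₀)) (fun _ _ => dist_nonneg)
            (Finset.mem_range.mpr (Nat.mod_lt n hm0))
        linarith
      intro i j hij
      rcases lt_trichotomy i j with h | h | h
      · exact absurd hij (key i j h)
      · exact h
      · exact absurd hij.symm (key j i h)
    have hsub : ((Finset.range (N₀ + 1)).image (fun j : ℕ => g ^ j) : Set G) ⊆
        {s : G | dist c (s • c) ≤ 4 + 2 * μ + 4 * δ ∧
          dist (g ^ k • c) (s • g ^ k • c) ≤ 4 + 2 * μ + 4 * δ} := by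
      intro s hs
      simp only [Finset.coe_image, Set.mem_image, Finset.coe_range, Set.mem_Iio] at hs
      obtain ⟨j, hj, rfl⟩ := hs
      have h1 := hc j (by omega)
      refine ⟨h1, ?_⟩
      rw [← mul_smul, ← pow_add, add_comm, pow_add, mul_smul, hiso]
      exact h1
    have h5 := Set.ncard_le_ncard hsub hfin
    rw [Set.ncard_coe_finset, Finset.card_image_of_injective _ hinj, Finset.card_range] at h5
    omega

end group

end Vale.Agent.P184
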