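import Mathlib

set_option linter.unusedSectionVars false

namespace Vale.Agent.P184

open scoped BigOperators

/-- the shear equivalence `(w, x) ↦ (x, x⁻¹ w)` -/
def shear (G : Type*) [Group G] : G × G ≃ G × G where
  toFun p := (p.2, p.2⁻¹ * p.1)
  invFun p := (p.1 * p.2, p.1)
  left_inv p := by simp
  right_inv p := by simp

section general

variable {G : Type*} [Group G] {α : Type*} [NormedAddCommGroup α] [CompleteSpace α]

lemma summable_shear {F : G × G → α} (hF : Summable F) :
    Summable (fun p : G × G => F (p.2, p.2⁻¹ * p.1)) :=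
  ((shear G).summable_iff (f := F)).mpr hF

lemma summable_shear_fiber {F : G × G → α} (hF : Summable F) (w : G) :
    Summable (fun x : G => F (x, x⁻¹ * w)) :=
  (summable_shear hF).prod_factor w

lemma tsum_shear {F : G × G → α} (hF : Summable F) :
    ∑' w, ∑' x, F (x, x⁻¹ * w) = ∑' p, F p := by
  have h := (summable_shear hF).tsum_prod
  rw [← h]
  exact (shear G).tsum_eq F

end general

section real

variable {G : Type*} [Group G]

/-- convolution of two real functions -/
noncomputable def cv (m n : G → ℝ) : G → ℝ := fun w => ∑' x, m x * n (x⁻¹ * w)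

lemma cv_fiber {m n : G → ℝ} (hm : Summable m) (hn : Summable n) (hm0 : 0 ≤ m) (hn0 : 0 ≤ n)
    (w : G) : Summable (fun x => m x * n (x⁻¹ * w)) :=
  summable_shear_fiber (F := fun p : G × G => m p.1 * n p.2) (hm.mul_of_nonneg hn hm0 hn0) w

lemma cv_summable {m n : G → ℝ} (hm : Summable m) (hn : Summable n) (hm0 : 0 ≤ m) (hn0 : 0 ≤ n) :
    Summable (cv m n) :=
  (summable_shear (F := fun p : G × G => m p.1 * n p.2) (hm.mul_of_nonneg hn hm0 hn0)).prod

lemma cv_tsum {m n : G → ℝ} (hm : Summable m) (hn : Summable n) (hm0 : 0 ≤ m) (hn0 : 0 ≤ n) :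
    ∑' w, cv m n w = (∑' x, m x) * ∑' y, n y := by
  have hF := hm.mul_of_nonneg hn hm0 hn0
  rw [hm.tsum_mul_tsum hn hF]
  exact tsum_shear (F := fun p : G × G => m p.1 * n p.2) hF

end real

section kernel

variable {G : Type*} [Group G] {R : Type*} [NormedRing R] [CompleteSpace R]

/-- `m` is a summable majorant of the kernel `a` -/
def Maj (a : G → G → R) (m : G → ℝ) : Prop := Summable m ∧ ∀ x s, ‖a x s‖ ≤ m x

lemma Maj.nonneg {a : G → G → R} {m : G → ℝ} (h : Maj a m) : 0 ≤ m :=
  fun x => (norm_nonneg _).trans (h.2 x 1)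

/-- twisted convolution of kernels -/
noncomputable def kmul (a b : G → G → R) : G → G → R :=
  fun w s => ∑' x, a x s * b (x⁻¹ * w) (x⁻¹ * s * x)

lemma kmul_term_bound {a b : G → G → R} {m n : G → ℝ} (ha : Maj a m) (hb : Maj b n) (w s x : G) :
    ‖a x s * b (x⁻¹ * w) (x⁻¹ * s * x)‖ ≤ m x * n (x⁻¹ * w) :=
  (norm_mul_le _ _).trans (mul_le_mul (ha.2 _ _) (hb.2 _ _) (norm_nonneg _) (ha.nonneg _))

lemma kmul_term_summable {a b : G → G → R} {m n : G → ℝ} (ha : Maj a m) (hb : Maj b n) (w s : G) :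
    Summable (fun x => a x s * b (x⁻¹ * w) (x⁻¹ * s * x)) :=
  Summable.of_norm_bounded (cv_fiber ha.1 hb.1 ha.nonneg hb.nonneg w)
    (fun x => kmul_term_bound ha hb w s x)

lemma kmul_maj {a b : G → G → R} {m n : G → ℝ} (ha : Maj a m) (hb : Maj b n) :
    Maj (kmul a b) (cv m n) :=
  ⟨cv_summable ha.1 hb.1 ha.nonneg hb.nonneg, fun w s =>
    tsum_of_norm_bounded (cv_fiber ha.1 hb.1 ha.nonneg hb.nonneg w).hasSum
      (fun x => kmul_term_bound ha hb w s x)⟩

lemma kmul_assoc {a b c : G → G → R} {m n k : G → ℝ} (ha : Maj a m) (hb : Maj b n)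
    (hc : Maj c k) : kmul (kmul a b) c = kmul a (kmul b c) := by
  funext w s
  set F : G × G → R := fun p =>
    a p.1 s * b p.2 (p.1⁻¹ * s * p.1) *
      c ((p.1 * p.2)⁻¹ * w) ((p.1 * p.2)⁻¹ * s * (p.1 * p.2)) with hFdef
  have hF : Summable F := by
    refine Summable.of_norm_bounded
      (g := fun p : G × G => (m p.1 * n p.2) * ∑' z, k z)
      ((ha.1.mul_of_nonneg hb.1 ha.nonneg hb.nonneg).mul_right _) ?_
    intro p
    refine (norm_mul_le _ _).trans (mul_le_mul ?_ ?_ (norm_nonneg _)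
      (mul_nonneg (ha.nonneg _) (hb.nonneg _)))
    · exact (norm_mul_le _ _).trans
        (mul_le_mul (ha.2 _ _) (hb.2 _ _) (norm_nonneg _) (ha.nonneg _))
    · exact (hc.2 _ _).trans (hc.1.le_tsum _ (fun j _ => hc.nonneg j))
  have hL : kmul (kmul a b) c w s = ∑' u, ∑' x, F (x, x⁻¹ * u) := by
    unfold kmul
    refine tsum_congr (fun u => ?_)
    rw [← (kmul_term_summable ha hb u s).tsum_mul_right]
    refine tsum_congr (fun x => ?_)
    simp only [hFdef, mul_inv_cancel_left]
  have hR : kmul a (kmul b c) w s = ∑' x, ∑' y, F (x, y) := by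
    unfold kmul
    refine tsum_congr (fun x => ?_)
    rw [← (kmul_term_summable hb hc (x⁻¹ * w) (x⁻¹ * s * x)).tsum_mul_left]
    refine tsum_congr (fun y => ?_)
    simp only [hFdef, mul_inv_rev, mul_assoc]
  rw [hL, hR, tsum_shear hF, hF.tsum_prod]

open Classical in
/-- the unit kernel -/
noncomputable def kone : G → G → R := fun x _ => if x = 1 then 1 else 0

open Classical in
lemma kone_maj : Maj (kone : G → G → R) (fun x => if x = 1 then ‖(1 : R)‖ else 0) := by
  refine ⟨(hasSum_ite_eq (1 : G) ‖(1 : R)‖).summable, fun x s => ?_⟩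
  unfold kone
  by_cases h : x = 1 <;> simp [h]

lemma kone_kmul (b : G → G → R) : kmul kone b = b := by
  funext w s
  unfold kmul kone
  rw [tsum_eq_single (1 : G) (fun x hx => by simp [hx])]
  simp

lemma kmul_kone (a : G → G → R) : kmul a kone = a := by
  funext w s
  unfold kmul kone
  rw [tsum_eq_single w (fun x hx => by
    have : ¬ (x⁻¹ * w = 1) := by
      intro h
      exact hx (inv_mul_eq_one.mp h)
    simp [this])]
  simp

lemma kmul_add {a b c : G → G → R} {m n k : G → ℝ} (ha : Maj a m) (hb : Maj b n)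
    (hc : Maj c k) : kmul a (b + c) = kmul a b + kmul a c := by
  funext w s
  simp only [kmul, Pi.add_apply, mul_add]
  exact (kmul_term_summable ha hb w s).tsum_add (kmul_term_summable ha hc w s)

lemma add_kmul {a b c : G → G → R} {m n k : G → ℝ} (ha : Maj a m) (hb : Maj b n)
    (hc : Maj c k) : kmul (a + b) c = kmul a c + kmul b c := by
  funext w s
  simp only [kmul, Pi.add_apply, add_mul]
  exact (kmul_term_summable ha hc w s).tsum_add (kmul_term_summable hb hc w s)

lemma zero_kmul (b : G → G → R) : kmul 0 b = 0 := by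
  funext w s
  simp [kmul]

lemma kmul_zero (a : G → G → R) : kmul a 0 = 0 := by
  funext w s
  simp [kmul]

variable (G R) in
/-- the additive group of kernels admitting a summable majorant -/
def kerSub : AddSubgroup (G → G → R) where
  carrier := {b | ∃ m, Maj b m}
  zero_mem' := ⟨0, summable_zero, by simp⟩
  add_mem' := by
    rintro a b ⟨m, hm, ha⟩ ⟨n, hn, hb⟩
    exact ⟨m + n, hm.add hn, fun x s => (norm_add_le _ _).trans (add_le_add (ha x s) (hb x s))⟩
  neg_mem' := by
    rintro a ⟨m, hm, ha⟩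
    exact ⟨m, hm, fun x s => by simpa using ha x s⟩

noncomputable instance : Mul (kerSub G R) :=
  ⟨fun a b => ⟨kmul a.1 b.1, by
    obtain ⟨m, hm⟩ := a.2
    obtain ⟨n, hn⟩ := b.2
    exact ⟨_, kmul_maj hm hn⟩⟩⟩

noncomputable instance : One (kerSub G R) := ⟨⟨kone, ⟨_, kone_maj⟩⟩⟩

lemma coe_mul' (a b : kerSub G R) : (a * b).1 = kmul a.1 b.1 := rfl

lemma coe_one' : (1 : kerSub G R).1 = kone := rfl

noncomputable instance : Ring (kerSub G R) :=
  { (inferInstance : AddCommGroup (kerSub G R)) with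
    mul := (· * ·)
    one := 1
    mul_assoc := by
      rintro ⟨a, m, ha⟩ ⟨b, n, hb⟩ ⟨c, k, hc⟩
      exact Subtype.ext (kmul_assoc ha hb hc)
    one_mul := fun a => Subtype.ext (kone_kmul a.1)
    mul_one := fun a => Subtype.ext (kmul_kone a.1)
    left_distrib := by
      rintro ⟨a, m, ha⟩ ⟨b, n, hb⟩ ⟨c, k, hc⟩
      exact Subtype.ext (kmul_add ha hb hc)
    right_distrib := by
      rintro ⟨a, m, ha⟩ ⟨b, n, hb⟩ ⟨c, k, hc⟩
      exact Subtype.ext (add_kmul ha hb hc)
    zero_mul := fun a => Subtype.ext (zero_kmul a.1)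
    mul_zero := fun a => Subtype.ext (kmul_zero a.1) }

/-- size relation on kernels -/
def Dom (b : kerSub G R) (r : ℝ) : Prop := ∃ m, Maj b.1 m ∧ ∑' x, m x ≤ r

lemma Dom.mul {a b : kerSub G R} {r s : ℝ} (ha : Dom a r) (hb : Dom b s) : Dom (a * b) (r * s) := by
  obtain ⟨m, hm, hmr⟩ := ha
  obtain ⟨n, hn, hns⟩ := hb
  refine ⟨cv m n, kmul_maj hm hn, ?_⟩
  rw [cv_tsum hm.1 hn.1 hm.nonneg hn.nonneg]
  exact mul_le_mul hmr hns (tsum_nonneg hn.nonneg) ((tsum_nonneg hm.nonneg).trans hmr)

end kernel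

end Vale.Agent.P184
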