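import Mathlib

/-! P184, task T3: a nonzero element of a number field that is not a root of unity has a place
(complex embedding or nonarchimedean absolute value) at which its size is not one. -/

namespace Vale.Agent.P184

open NumberField IsDedekindDomain

theorem exists_place_ne_one {A : Type*} [Field A] [NumberField A] (m : A) (h0 : m ≠ 0)
    (hm : ∀ k : ℕ, 0 < k → m ^ k ≠ 1) :
    (∃ s : A →+* ℂ, ‖s m‖ ≠ 1) ∨ (∃ w : AbsoluteValue A ℝ, IsNonarchimedean w ∧ w m ≠ 1) := by
  by_contra hcon
  rw [not_or] at hcon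
  obtain ⟨h1, h2⟩ := hcon
  have h1' : ∀ s : A →+* ℂ, ‖s m‖ = 1 := by
    intro s
    by_contra h
    exact h1 ⟨s, h⟩
  have h2' : ∀ w : AbsoluteValue A ℝ, IsNonarchimedean w → w m = 1 := by
    intro w hw
    by_contra h
    exact h2 ⟨w, hw, h⟩
  have hval : ∀ v : HeightOneSpectrum (𝓞 A), v.valuation A m ≤ 1 := by
    intro v
    have h3 := h2' (NumberField.HeightOneSpectrum.adicAbv A v)
      (NumberField.HeightOneSpectrum.isNonarchimedean_adicAbv A v)
    rw [NumberField.HeightOneSpectrum.adicAbv_def] at h3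
    have h4 : WithZeroMulInt.toNNReal (NumberField.HeightOneSpectrum.absNorm_ne_zero v)
        (v.valuation A m) ≤ 1 := by
      have : ((WithZeroMulInt.toNNReal (NumberField.HeightOneSpectrum.absNorm_ne_zero v)
        (v.valuation A m) : NNReal) : ℝ) ≤ 1 := le_of_eq h3
      exact_mod_cast this
    exact (WithZeroMulInt.toNNReal_le_one_iff
      (NumberField.HeightOneSpectrum.one_lt_absNorm_nnreal v)).mp h4
  have hmem := HeightOneSpectrum.mem_integers_of_valuation_le_one A m hval
  obtain ⟨z, hz⟩ := hmem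
  have hint : IsIntegral ℤ m := by
    rw [← hz]
    exact z.isIntegral_coe
  obtain ⟨k, hk, hpow⟩ := NumberField.Embeddings.pow_eq_one_of_norm_eq_one A ℂ hint h1'
  exact hm k hk hpow

end Vale.Agent.P184
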