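import Vale.Agent.P184.L1Trace

set_option linter.unusedSectionVars false

namespace Vale.Agent.P184

open scoped BigOperators Matrix.Norms.Operator

section bridge

variable {G : Type*} [Group G] {q : ℕ}

lemma mat_norm_one_le : ‖(1 : Matrix (Fin q) (Fin q) ℂ)‖ ≤ 1 := by
  rcases Nat.eq_zero_or_pos q with rfl | hq
  · have : (1 : Matrix (Fin 0) (Fin 0) ℂ) = 0 := Subsingleton.elim _ _
    rw [this, norm_zero]
    exact zero_le_one
  · have : Nonempty (Fin q) := ⟨⟨0, hq⟩⟩
    exact (norm_one (α := Matrix (Fin q) (Fin q) ℂ)).le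

/-- an idempotent matrix over `ℓ¹(G)` as an element of `ℓ¹(G; M_q(ℂ))` -/
noncomputable def toL1 (e : Fin q → Fin q → G → ℂ) (he : IsIdem e) :
    L1 G (Matrix (Fin q) (Fin q) ℂ) := L1.mk (toMat e) (toMat_summable he)

lemma toL1_idem (e : Fin q → Fin q → G → ℂ) (he : IsIdem e) :
    toL1 e he * toL1 e he = toL1 e he := by
  ext w : 1
  rw [L1.mul_apply]
  exact toMat_idem he w

lemma hs_eq_ctr (e : Fin q → Fin q → G → ℂ) (he : IsIdem e) (C : ConjClasses G) :
    hs e C = L1.ctr traceL (fun x => x ∈ C.carrier) (toL1 e he) := by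
  classical
  have hc : L1.ctr traceL (fun x => x ∈ C.carrier) (toL1 e he) =
      ∑' x, if x ∈ C.carrier then (∑ i, e i i x) else 0 := by
    refine Eq.trans (L1.ctr_eq _ _ _) (tsum_congr (fun x => ?_))
    have : traceL ((toL1 e he) x) = ∑ i, e i i x := by
      change Matrix.trace (toMat e x) = _
      simp [toMat, Matrix.trace]
    by_cases hx : x ∈ C.carrier
    · rw [if_pos hx, if_pos hx]
      exact this
    · rw [if_neg hx, if_neg hx]
  refine Eq.trans ?_ hc.symm
  unfold hs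
  have hsub := tsum_subtype C.carrier (fun x => ∑ i, e i i x)
  refine hsub.trans (tsum_congr (fun x => ?_))
  simp [Set.indicator_apply]

/-- back from `ℓ¹(G; M_q(ℂ))` to matrices of functions -/
noncomputable def ofL1 (p : L1 G (Matrix (Fin q) (Fin q) ℂ)) : Fin q → Fin q → G → ℂ := fun i j x => p x i j

lemma toMat_ofL1 (p : L1 G (Matrix (Fin q) (Fin q) ℂ)) (x : G) : toMat (ofL1 p) x = p x := by
  ext i j
  rfl

lemma entry_norm_le (A : Matrix (Fin q) (Fin q) ℂ) (i j : Fin q) : ‖A i j‖ ≤ ‖A‖ := by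
  rw [Matrix.linfty_opNorm_def]
  have h1 : ‖A i j‖₊ ≤ ∑ j, ‖A i j‖₊ :=
    Finset.single_le_sum (f := fun j => ‖A i j‖₊) (fun _ _ => bot_le) (Finset.mem_univ j)
  have h2 : ∑ j, ‖A i j‖₊ ≤ Finset.univ.sup fun i => ∑ j, ‖A i j‖₊ :=
    Finset.le_sup (f := fun i => ∑ j, ‖A i j‖₊) (Finset.mem_univ i)
  exact_mod_cast h1.trans h2

lemma isIdem_ofL1 {p : L1 G (Matrix (Fin q) (Fin q) ℂ)} (hp : p * p = p) : IsIdem (ofL1 p) := by
  have hmem : ∀ i j, MemL1 (ofL1 p i j) := fun i j =>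
    Summable.of_nonneg_of_le (fun _ => norm_nonneg _) (fun x => entry_norm_le (p x) i j) p.summable
  refine ⟨hmem, fun i j w => ?_⟩
  have hs := p.summable
  have hsum : Summable (fun x => p x * p (x⁻¹ * w)) := by
    refine Summable.of_norm_bounded
      (cv_fiber hs hs (fun _ => norm_nonneg _) (fun _ => norm_nonneg _) w) (fun x => ?_)
    exact norm_mul_le _ _
  have h0 : (p * p) w i j = p w i j := by rw [hp]
  rw [L1.mul_apply] at h0
  have h1 : (∑' x, p x * p (x⁻¹ * w)) i j = ∑' x, (p x * p (x⁻¹ * w)) i j :=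
    (entryL i j).map_tsum hsum
  replace h0 := h1.symm.trans h0
  have h2 : ∀ x, (p x * p (x⁻¹ * w)) i j = ∑ k, ofL1 p i k x * ofL1 p k j (x⁻¹ * w) := by
    intro x
    simp [Matrix.mul_apply, ofL1]
  simp only [h2] at h0
  rw [Summable.tsum_finsetSum] at h0
  · exact h0
  · intro k _
    refine Summable.of_norm_bounded
      (cv_fiber (hmem i k) (hmem k j) (fun _ => norm_nonneg _) (fun _ => norm_nonneg _) w)
      (fun x => ?_)
    exact norm_mul_le _ _

lemma toL1_ofL1 {p : L1 G (Matrix (Fin q) (Fin q) ℂ)} (hp : p * p = p) :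
    toL1 (ofL1 p) (isIdem_ofL1 hp) = p := by
  ext x : 1
  exact toMat_ofL1 p x

end bridge

end Vale.Agent.P184
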