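import Vale.Agent.P184.L1Ring

set_option linter.unusedSectionVars false

namespace Vale.Agent.P184

open scoped BigOperators

section fiber

variable {X Y : Type*} {E : Type*} [NormedAddCommGroup E] [CompleteSpace E]

lemma fib_inj (φ : X → Y) : Function.Injective (fun x : X => (φ x, x)) :=
  fun _ _ h => (Prod.ext_iff.mp h).2

open Classical in
lemma fib_summable (φ : X → Y) {f : X → E} (hf : Summable f) :
    Summable (fun p : Y × X => if φ p.2 = p.1 then f p.2 else 0) := by
  refine ((fib_inj φ).summable_iff ?_).mp ?_
  · rintro ⟨y, x⟩ hp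
    have : φ x ≠ y := fun h => hp ⟨x, by simp [h]⟩
    simp [this]
  · simpa [Function.comp_def] using hf

open Classical in
lemma fib_tsum (φ : X → Y) {f : X → E} (hf : Summable f) :
    ∑' y, ∑' x, (if φ x = y then f x else 0) = ∑' x, f x := by
  have hF := fib_summable φ hf
  rw [← hF.tsum_prod]
  rw [← (fib_inj φ).tsum_eq]
  · simp
  · rintro ⟨y, x⟩ hp
    by_contra hne
    apply hp
    have : φ x ≠ y := fun h => hne ⟨x, by simp [h]⟩
    simp [this]

open Classical in
lemma fib_fiber_summable (φ : X → Y) {f : X → E} (hf : Summable f) (y : Y) :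
    Summable (fun x => if φ x = y then f x else 0) :=
  (fib_summable φ hf).prod_factor y

end fiber

variable {G H : Type*} [Group G] [Group H] {R : Type*} [NormedRing R] [CompleteSpace R]

namespace L1

open Classical in
/-- the underlying function of the push-forward of `a` along `φ` -/
noncomputable def pushFun (φ : G →* H) (a : L1 G R) : H → R :=
  fun y => ∑' x, if φ x = y then a x else 0

open Classical in
lemma norm_pushFun_le (φ : G →* H) (a : L1 G R) (y : H) :
    ‖pushFun φ a y‖ ≤ ∑' x, if φ x = y then ‖a x‖ else 0 := by
  unfold pushFun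
  have h := fib_fiber_summable (fun x => φ x) a.summable y
  have h2 : (fun x => ‖(if φ x = y then a x else 0 : R)‖) = fun x => if φ x = y then ‖a x‖ else 0 := by
    funext x
    split_ifs <;> simp
  have h3 := norm_tsum_le_tsum_norm (f := fun x => (if φ x = y then a x else 0 : R)) (by rw [h2]; exact h)
  rw [h2] at h3
  exact h3

lemma summable' (a : L1 G R) : Summable fun x => a x := a.summable.of_norm

lemma pushFun_summable (φ : G →* H) (a : L1 G R) : Summable fun y => ‖pushFun φ a y‖ := by
  classical
  exact Summable.of_nonneg_of_le (fun _ => norm_nonneg _) (norm_pushFun_le φ a)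
    (fib_summable (fun x => φ x) a.summable).prod

open Classical in
lemma pushFun_mul (φ : G →* H) (a b : L1 G R) (y : H) :
    pushFun φ (a * b) y = ∑' z, pushFun φ a z * pushFun φ b (z⁻¹ * y) := by
  set F : G × G → R := fun p => if φ (p.1 * p.2) = y then a p.1 * b p.2 else 0 with hFdef
  have hF : Summable F := by
    refine Summable.of_norm_bounded
      (a.summable.mul_of_nonneg b.summable (fun _ => norm_nonneg _) (fun _ => norm_nonneg _)) ?_
    intro p
    simp only [hFdef]
    split_ifs
    · exact norm_mul_le _ _
    · simp only [norm_zero]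
      exact mul_nonneg (norm_nonneg _) (norm_nonneg _)
  have hL : pushFun φ (a * b) y = ∑' p, F p := by
    rw [← tsum_shear hF]
    unfold pushFun
    refine tsum_congr (fun w => ?_)
    simp only [hFdef, mul_inv_cancel_left, mul_apply]
    split_ifs <;> simp
  have hf : ∀ x, ∑' x', F (x, x') = a x * pushFun φ b ((φ x)⁻¹ * y) := by
    intro x
    unfold pushFun
    rw [← (fib_fiber_summable (fun x => φ x) b.summable' ((φ x)⁻¹ * y)).tsum_mul_left]
    refine tsum_congr (fun x' => ?_)
    simp only [hFdef, map_mul]
    by_cases h : φ x * φ x' = y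
    · have h' : φ x' = (φ x)⁻¹ * y := by rw [← h]; simp
      simp [h']
    · have h' : ¬ φ x' = (φ x)⁻¹ * y := by
        intro h2
        apply h
        rw [h2]; simp
      simp [h, h']
  have hfs : Summable fun x => a x * pushFun φ b ((φ x)⁻¹ * y) := by
    have := hF.prod
    simpa only [hf] using this
  rw [hL, hF.tsum_prod]
  simp only [hf]
  rw [← fib_tsum (fun x => φ x) hfs]
  refine tsum_congr (fun z => ?_)
  unfold pushFun
  rw [← (fib_fiber_summable (fun x => φ x) a.summable' z).tsum_mul_right]
  refine tsum_congr (fun x => ?_)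
  split_ifs with h
  · rw [h]
  · simp

/-- push-forward along a group homomorphism, as a ring homomorphism `ℓ¹(G;R) → ℓ¹(H;R)` -/
noncomputable def push (φ : G →* H) : L1 G R →+* L1 H R where
  toFun a := mk (pushFun φ a) (pushFun_summable φ a)
  map_one' := by
    classical
    ext y
    rw [mk_apply, one_apply]
    unfold pushFun
    rw [tsum_eq_single (1 : G) (fun x hx => by simp [one_apply, hx])]
    simp [one_apply, eq_comm]
  map_mul' := by
    intro a b
    ext y
    rw [mk_apply, mul_apply]
    exact pushFun_mul φ a b y
  map_zero' := by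
    ext y
    rw [mk_apply]
    unfold pushFun
    simp
  map_add' := by
    classical
    intro a b
    ext y
    rw [add_apply, mk_apply, mk_apply, mk_apply]
    unfold pushFun
    rw [← (fib_fiber_summable (fun x => φ x) a.summable' y).tsum_add
      (fib_fiber_summable (fun x => φ x) b.summable' y)]
    refine tsum_congr (fun x => ?_)
    split_ifs <;> simp

open Classical in
lemma push_apply (φ : G →* H) (a : L1 G R) (y : H) :
    push φ a y = ∑' x, if φ x = y then a x else 0 := rfl

lemma norm_push_le (φ : G →* H) (a : L1 G R) : ‖push φ a‖ ≤ ‖a‖ := by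
  classical
  rw [norm_eq, norm_eq, ← fib_tsum (fun x => φ x) a.summable]
  exact (push φ a).summable.tsum_le_tsum (norm_pushFun_le φ a)
    (fib_summable (fun x => φ x) a.summable).prod

/-- if `φ` is injective on a set carrying `a`, the push-forward is isometric on `a` -/
lemma norm_push_eq_of_injOn (φ : G →* H) (a : L1 G R) (T : Set G) (hT : Set.InjOn φ T)
    (hsupp : ∀ x, x ∉ T → a x = 0) : ‖push φ a‖ = ‖a‖ := by
  classical
  rw [norm_eq, norm_eq, ← fib_tsum (fun x => φ x) a.summable]
  refine tsum_congr (fun y => ?_)
  rw [push_apply]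
  by_cases hy : ∃ x₀ ∈ T, φ x₀ = y
  · obtain ⟨x₀, hx₀, hxy⟩ := hy
    have key : ∀ x, x ≠ x₀ → φ x = y → a x = 0 := by
      intro x hx hφ
      by_contra hne
      have hxT : x ∈ T := by
        by_contra hxT
        exact hne (hsupp x hxT)
      exact hx (hT hxT hx₀ (hφ.trans hxy.symm))
    rw [tsum_eq_single x₀, tsum_eq_single x₀]
    · simp [hxy]
    · intro x hx
      split_ifs with h
      · rw [key x hx h, norm_zero]
      · rfl
    · intro x hx
      split_ifs with h
      · exact key x hx h
      · rfl
  · have key : ∀ x, φ x = y → a x = 0 := by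
      intro x hφ
      by_contra hne
      have hxT : x ∈ T := by
        by_contra hxT
        exact hne (hsupp x hxT)
      exact hy ⟨x, hxT, hφ⟩
    have h1 : (fun x => (if φ x = y then a x else 0 : R)) = fun _ => 0 := by
      funext x
      split_ifs with h
      · exact key x h
      · rfl
    have h2 : (fun x => (if φ x = y then ‖a x‖ else 0 : ℝ)) = fun _ => 0 := by
      funext x
      split_ifs with h
      · rw [key x h, norm_zero]
      · rfl
    rw [h1, h2]
    simp

end L1

end Vale.Agent.P184
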