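import Vale.Agent.P184.Kernel

set_option linter.unusedSectionVars false

namespace Vale.Agent.P184

open scoped BigOperators ENNReal

section L1

variable (G : Type*) [Group G] (R : Type*) [NormedRing R] [CompleteSpace R]

/-- the Banach space `ℓ¹(G; R)` -/
def L1 : Type _ := lp (fun _ : G => R) 1

noncomputable instance : NormedAddCommGroup (L1 G R) :=
  inferInstanceAs (NormedAddCommGroup (lp (fun _ : G => R) 1))

instance : CompleteSpace (L1 G R) :=
  inferInstanceAs (CompleteSpace (lp (fun _ : G => R) 1))

variable {G R}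

/-- the underlying function -/
def L1.toFun (a : L1 G R) : G → R := fun x => (Subtype.val a : G → R) x

instance : CoeFun (L1 G R) (fun _ => G → R) := ⟨L1.toFun⟩

namespace L1

lemma summable (a : L1 G R) : Summable fun x => ‖a x‖ := by
  have h : Memℓp (fun x => a x) (1 : ℝ≥0∞) := lp.memℓp (E := fun _ : G => R) a
  have h2 := (memℓp_gen_iff (by simp)).mp h
  simpa using h2

lemma norm_eq (a : L1 G R) : ‖a‖ = ∑' x, ‖a x‖ := by
  have h := lp.norm_eq_tsum_rpow (E := fun _ : G => R) (p := 1) (by simp) a
  simp only [ENNReal.toReal_one, Real.rpow_one, div_one] at h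
  exact h

/-- constructor from a summable function -/
def mk (f : G → R) (hf : Summable fun x => ‖f x‖) : L1 G R :=
  ⟨f, (memℓp_gen_iff (by simp)).mpr (by simpa using hf)⟩

@[simp] lemma mk_apply (f : G → R) (hf : Summable fun x => ‖f x‖) (x : G) : mk f hf x = f x := rfl

@[ext] lemma ext {a b : L1 G R} (h : ∀ x, a x = b x) : a = b := Subtype.ext (funext h)

@[simp] lemma add_apply (a b : L1 G R) (x : G) : (a + b) x = a x + b x := rfl
@[simp] lemma sub_apply (a b : L1 G R) (x : G) : (a - b) x = a x - b x := rfl
@[simp] lemma neg_apply (a : L1 G R) (x : G) : (-a) x = -a x := rfl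
@[simp] lemma zero_apply (x : G) : (0 : L1 G R) x = 0 := rfl

/-- the kernel (constant in the second variable) attached to an element -/
def ker (a : L1 G R) : G → G → R := fun x _ => a x

lemma ker_maj (a : L1 G R) : Maj (ker a) (fun x => ‖a x‖) := ⟨a.summable, fun _ _ => le_rfl⟩

noncomputable instance : Mul (L1 G R) :=
  ⟨fun a b => mk (fun w => kmul (ker a) (ker b) w 1)
    (Summable.of_nonneg_of_le (fun _ => norm_nonneg _)
      (fun w => (kmul_maj (ker_maj a) (ker_maj b)).2 w 1) (kmul_maj (ker_maj a) (ker_maj b)).1)⟩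

lemma mul_apply (a b : L1 G R) (w : G) : (a * b) w = ∑' x, a x * b (x⁻¹ * w) := rfl

lemma ker_mul (a b : L1 G R) : ker (a * b) = kmul (ker a) (ker b) := rfl

lemma ker_add (a b : L1 G R) : ker (a + b) = ker a + ker b := rfl

lemma ker_injective {a b : L1 G R} (h : ker a = ker b) : a = b :=
  ext (fun x => congrFun (congrFun h x) 1)

open Classical in
noncomputable instance : One (L1 G R) :=
  ⟨mk (fun x => if x = 1 then 1 else 0)
    (Summable.of_nonneg_of_le (fun _ => norm_nonneg _) (fun x => (kone_maj (G := G) (R := R)).2 x 1)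
      (kone_maj (G := G) (R := R)).1)⟩

open Classical in
lemma one_apply (x : G) : (1 : L1 G R) x = if x = 1 then 1 else 0 := rfl

lemma ker_one : ker (1 : L1 G R) = kone := rfl

lemma norm_mul_le' (a b : L1 G R) : ‖a * b‖ ≤ ‖a‖ * ‖b‖ := by
  rw [norm_eq, norm_eq, norm_eq,
    ← cv_tsum a.summable b.summable (fun _ => norm_nonneg _) (fun _ => norm_nonneg _)]
  have hm := kmul_maj (ker_maj a) (ker_maj b)
  exact (a * b).summable.tsum_le_tsum (fun w => hm.2 w 1) hm.1

noncomputable instance : Ring (L1 G R) :=
  { (inferInstance : AddCommGroup (L1 G R)) with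
    mul := (· * ·)
    one := 1
    mul_assoc := fun a b c => ker_injective (by
      rw [ker_mul, ker_mul, ker_mul, ker_mul]
      exact kmul_assoc (ker_maj a) (ker_maj b) (ker_maj c))
    one_mul := fun a => ker_injective (by rw [ker_mul, ker_one]; exact kone_kmul _)
    mul_one := fun a => ker_injective (by rw [ker_mul, ker_one]; exact kmul_kone _)
    left_distrib := fun a b c => ker_injective (by
      rw [ker_mul, ker_add, ker_add, ker_mul, ker_mul]
      exact kmul_add (ker_maj a) (ker_maj b) (ker_maj c))
    right_distrib := fun a b c => ker_injective (by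
      rw [ker_mul, ker_add, ker_add, ker_mul, ker_mul]
      exact add_kmul (ker_maj a) (ker_maj b) (ker_maj c))
    zero_mul := fun a => ker_injective (by rw [ker_mul]; exact zero_kmul _)
    mul_zero := fun a => ker_injective (by rw [ker_mul]; exact kmul_zero _) }

noncomputable instance : NormedRing (L1 G R) :=
  { (inferInstance : NormedAddCommGroup (L1 G R)), (inferInstance : Ring (L1 G R)) with
    norm_mul_le := norm_mul_le' }

lemma norm_one_le : ‖(1 : L1 G R)‖ ≤ ‖(1 : R)‖ := by
  classical
  rw [norm_eq]
  have h : ∀ x : G, ‖(1 : L1 G R) x‖ = if x = 1 then ‖(1 : R)‖ else 0 := by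
    intro x
    rw [one_apply]
    by_cases hx : x = 1 <;> simp [hx]
  simp only [h]
  rw [tsum_ite_eq]

end L1

end L1

end Vale.Agent.P184
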