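import Vale.Agent.P184.L1Push
import Vale.Agent.P184.Bridge

set_option linter.unusedSectionVars false

namespace Vale.Agent.P184

open scoped BigOperators Matrix.Norms.Operator

open Classical in
/-- summation along the fibres of a map -/
lemma tsum_fiber {α β E : Type*} [NormedAddCommGroup E] [CompleteSpace E] (φ : α → β) (f : α → E)
    (hf : Summable f) : ∑' y, ∑' x, (if φ x = y then f x else 0) = ∑' x, f x := by
  set F : β → α → E := fun y x => if φ x = y then f x else 0 with hF
  have hinj : Function.Injective (fun x : α => (φ x, x)) := fun x y h => (Prod.ext_iff.mp h).2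
  have hsum : Summable (Function.uncurry F) := by
    refine (hinj.summable_iff ?_).mp ?_
    · rintro ⟨y, x⟩ hx
      simp only [Function.uncurry, hF]
      rw [if_neg]
      intro h
      exact hx ⟨x, by simp [h]⟩
    · have : (Function.uncurry F ∘ fun x : α => (φ x, x)) = f := by
        funext x
        simp [Function.uncurry, hF]
      rw [this]
      exact hf
  have h := hsum.tsum_comm
  rw [← h]
  refine tsum_congr (fun x => ?_)
  simp only [hF]
  have h2 : ∀ b : β, (if φ x = b then f x else 0) = (if b = φ x then f x else 0) := by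
    intro b
    by_cases hb : φ x = b
    · rw [if_pos hb, if_pos hb.symm]
    · rw [if_neg hb, if_neg (fun h' => hb h'.symm)]
  simp only [h2]
  rw [tsum_ite_eq]

section ctr

variable {G H : Type*} [Group G] [Group H] {R : Type*} [NormedRing R] [NormedAlgebra ℂ R]
  [CompleteSpace R]

namespace L1

/-- the trace of `a` along the set `P` -/
noncomputable def ctr (t : R →L[ℂ] ℂ) (P : G → Prop) (a : L1 G R) : ℂ := ktr P t (ker a)

open Classical in
lemma ctr_eq (t : R →L[ℂ] ℂ) (P : G → Prop) (a : L1 G R) :
    ctr t P a = ∑' x, if P x then t (a x) else 0 := rfl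

/-- idempotents at distance `< 1` have the same traces -/
theorem ctr_eq_of_close (t : R →L[ℂ] ℂ) (ht : ∀ a b, t (a * b) = t (b * a)) (P : G → Prop)
    (hP : ∀ c x, P c → P (x⁻¹ * c * x)) {p p' : L1 G R} (hp : p * p = p) (hp' : p' * p' = p')
    (h : ‖p - p'‖ < 1) : ctr t P p = ctr t P p' := by
  let Tr : L1 G R →+ ℂ :=
    { toFun := ctr t P
      map_zero' := by simp [ctr_eq]
      map_add' := fun a b => by
        change ktr P t (ker (a + b)) = ktr P t (ker a) + ktr P t (ker b)
        rw [ker_add]
        exact ktr_add P t (ker_maj a) (ker_maj b) }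
  refine trace_eq_of_close (B := L1 G R) (fun x r => ‖x‖ ≤ r) Tr ‖t‖ ?_ ?_ ?_ hp hp'
    (norm_nonneg (p - p')) h le_rfl
  · intro x y r s hx hy
    exact (norm_mul_le x y).trans
      (mul_le_mul hx hy (norm_nonneg _) ((norm_nonneg _).trans hx))
  · intro x y
    change ktr P t (ker (x * y)) = ktr P t (ker (y * x))
    rw [ker_mul, ker_mul]
    exact ktr_kmul_comm P hP t ht (ker_maj x) (ker_maj y)
  · intro x r hx
    change ‖ktr P t (ker x)‖ ≤ _
    refine (ktr_bound P t (ker_maj x)).trans ?_
    rw [← norm_eq]
    exact mul_le_mul_of_nonneg_left hx (norm_nonneg _)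

lemma ctr_push (φ : G →* H) (t : R →L[ℂ] ℂ) (Q : H → Prop) (a : L1 G R) :
    ctr t Q (push φ a) = ctr t (fun x => Q (φ x)) a := by
  classical
  rw [ctr_eq, ctr_eq]
  have hs : Summable (fun x => (if Q (φ x) then t (a x) else 0 : ℂ)) :=
    ktr_summable (b := ker a) (fun x => Q (φ x)) t (ker_maj a)
  rw [← tsum_fiber φ _ hs]
  refine tsum_congr (fun y => ?_)
  rw [push_apply]
  have hsy : Summable (fun x => if φ x = y then a x else 0) := by
    refine Summable.of_norm_bounded a.summable (fun x => ?_)
    split_ifs
    · exact le_rfl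
    · simp
  by_cases hy : Q y
  · rw [if_pos hy, t.map_tsum hsy]
    refine tsum_congr (fun x => ?_)
    by_cases hx : φ x = y
    · rw [if_pos hx, if_pos hx, if_pos (by rw [hx]; exact hy)]
    · rw [if_neg hx, if_neg hx, map_zero]
  · rw [if_neg hy]
    symm
    have : ∀ x : G, (if φ x = y then (if Q (φ x) then t (a x) else 0 : ℂ) else 0) = 0 := by
      intro x
      by_cases hx : φ x = y
      · rw [if_pos hx, if_neg (by rw [hx]; exact hy)]
      · rw [if_neg hx]
    simp only [this, tsum_zero]

/-- a conjugation invariant set is a union of classes -/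
lemma ctr_eq_zero_of_classes (t : R →L[ℂ] ℂ) (P : G → Prop) (hP : ∀ c x, P c → P (x⁻¹ * c * x))
    (a : L1 G R)
    (h : ∀ C : ConjClasses G, (∀ x ∈ C.carrier, P x) → ctr t (fun x => x ∈ C.carrier) a = 0) :
    ctr t P a = 0 := by
  classical
  rw [ctr_eq]
  have hs : Summable (fun x => (if P x then t (a x) else 0 : ℂ)) :=
    ktr_summable (b := ker a) P t (ker_maj a)
  rw [← tsum_fiber (ConjClasses.mk : G → ConjClasses G) _ hs]
  have hz : ∀ C : ConjClasses G,
      ∑' x, (if ConjClasses.mk x = C then (if P x then t (a x) else 0 : ℂ) else 0) = 0 := by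
    intro C
    by_cases hC : ∀ x ∈ C.carrier, P x
    · have h1 := h C hC
      rw [ctr_eq] at h1
      refine Eq.trans ?_ h1
      refine tsum_congr (fun x => ?_)
      by_cases hx : ConjClasses.mk x = C
      · have hx' : x ∈ C.carrier := ConjClasses.mem_carrier_iff_mk_eq.mpr hx
        rw [if_pos hx, if_pos (hC x hx'), if_pos hx']
      · have hx' : x ∉ C.carrier := fun h' => hx (ConjClasses.mem_carrier_iff_mk_eq.mp h')
        rw [if_neg hx, if_neg hx']
    · push Not at hC
      obtain ⟨x0, hx0, hPx0⟩ := hC
      have : ∀ x : G, (if ConjClasses.mk x = C then (if P x then t (a x) else 0 : ℂ) else 0) = 0 := by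
        intro x
        by_cases hx : ConjClasses.mk x = C
        · rw [if_pos hx, if_neg]
          intro hPx
          apply hPx0
          have h0 : ConjClasses.mk x0 = C := ConjClasses.mem_carrier_iff_mk_eq.mp hx0
          have hconj : IsConj x x0 := ConjClasses.mk_eq_mk_iff_isConj.mp (hx.trans h0.symm)
          obtain ⟨c, hc⟩ := isConj_iff.mp hconj
          have := hP x c⁻¹ hPx
          rw [inv_inv] at this
          rwa [hc] at this
        · rw [if_neg hx]
      simp only [this, tsum_zero]
  refine Eq.trans (tsum_congr (fun C => ?_)) tsum_zero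
  refine Eq.trans ?_ (hz C)
  refine tsum_congr (fun x => ?_)
  congr

end L1

end ctr

end Vale.Agent.P184
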