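import Vale.Agent.P184.Criteria

namespace Vale.Agent.P184

open scoped BigOperators

section matnorm

variable {K : Type*} [Field K] (v : AbsoluteValue K ℝ)

/-- Sum of the absolute values of the entries. -/
noncomputable def msum {m n : Type*} [Fintype m] [Fintype n] (M : Matrix m n K) : ℝ :=
  ∑ i, ∑ j, v (M i j)

lemma msum_nonneg {m n : Type*} [Fintype m] [Fintype n] (M : Matrix m n K) : 0 ≤ msum v M :=
  Finset.sum_nonneg fun _ _ => Finset.sum_nonneg fun _ _ => v.nonneg _

lemma entry_le_msum {m n : Type*} [Fintype m] [Fintype n] (M : Matrix m n K) (i : m) (j : n) :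
    v (M i j) ≤ msum v M := by
  have h1 : v (M i j) ≤ ∑ j', v (M i j') :=
    Finset.single_le_sum (f := fun j' => v (M i j')) (fun _ _ => v.nonneg _) (Finset.mem_univ j)
  have h2 : ∑ j', v (M i j') ≤ ∑ i', ∑ j', v (M i' j') :=
    Finset.single_le_sum (f := fun i' => ∑ j', v (M i' j'))
      (fun _ _ => Finset.sum_nonneg fun _ _ => v.nonneg _) (Finset.mem_univ i)
  exact h1.trans h2

lemma msum_mul {m n p : Type*} [Fintype m] [Fintype n] [Fintype p] (M : Matrix m n K)
    (N : Matrix n p K) : msum v (M * N) ≤ msum v M * msum v N := by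
  unfold msum
  calc ∑ i, ∑ j, v ((M * N) i j) ≤ ∑ i, ∑ j, ∑ k, v (M i k) * v (N k j) := by
        refine Finset.sum_le_sum fun i _ => Finset.sum_le_sum fun j _ => ?_
        rw [Matrix.mul_apply]
        refine (v.sum_le _ _).trans (le_of_eq ?_)
        exact Finset.sum_congr rfl fun k _ => v.map_mul _ _
    _ = ∑ i, ∑ k, v (M i k) * ∑ j, v (N k j) := by
        refine Finset.sum_congr rfl fun i _ => ?_
        rw [Finset.sum_comm]
        exact Finset.sum_congr rfl fun k _ => (Finset.mul_sum _ _ _).symm
    _ ≤ ∑ i, ∑ k, v (M i k) * ∑ k', ∑ j, v (N k' j) := by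
        refine Finset.sum_le_sum fun i _ => Finset.sum_le_sum fun k _ => ?_
        refine mul_le_mul_of_nonneg_left ?_ (v.nonneg _)
        exact Finset.single_le_sum (f := fun k' => ∑ j, v (N k' j))
          (fun _ _ => Finset.sum_nonneg fun _ _ => v.nonneg _) (Finset.mem_univ k)
    _ = (∑ i, ∑ k, v (M i k)) * ∑ k', ∑ j, v (N k' j) := by
        rw [Finset.sum_mul]
        exact Finset.sum_congr rfl fun i _ => (Finset.sum_mul _ _ _).symm

lemma abv_det_le {d : Type*} [Fintype d] [DecidableEq d] (M : Matrix d d K) :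
    v M.det ≤ (Fintype.card d).factorial * msum v M ^ Fintype.card d := by
  rw [Matrix.det_apply]
  refine (v.sum_le _ _).trans ?_
  have h1 : ∀ σ : Equiv.Perm d, v (Equiv.Perm.sign σ • ∏ i, M (σ i) i) ≤
      msum v M ^ Fintype.card d := by
    intro σ
    have h2 : v (Equiv.Perm.sign σ • ∏ i, M (σ i) i) = ∏ i, v (M (σ i) i) := by
      rcases Int.units_eq_one_or (Equiv.Perm.sign σ) with h | h <;> rw [h] <;> simp
    rw [h2]
    calc ∏ i, v (M (σ i) i) ≤ ∏ _i : d, msum v M :=
          Finset.prod_le_prod (fun _ _ => v.nonneg _) fun i _ => entry_le_msum v M _ _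
      _ = msum v M ^ Fintype.card d := by simp
  calc ∑ σ : Equiv.Perm d, v (Equiv.Perm.sign σ • ∏ i, M (σ i) i)
      ≤ ∑ _σ : Equiv.Perm d, msum v M ^ Fintype.card d := Finset.sum_le_sum fun σ _ => h1 σ
    _ = (Fintype.card d).factorial * msum v M ^ Fintype.card d := by
        simp [Fintype.card_perm]

end matnorm

section linear

variable {G : Type*} [Group G] {q : ℕ}
variable {K : Type*} [Field K] {V : Type*} [AddCommGroup V] [Module K V] [FiniteDimensional K V]

/-- An eigenvalue of absolute value different from one in a finite dimensional representation. -/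
theorem linear_criterion {e : Fin q → Fin q → G → ℂ} (he : IsIdem e) (v : AbsoluteValue K ℝ)
    (ρ : Representation K G V) (g : G) (μ : K) (hμ : Module.End.HasEigenvalue (ρ g) μ)
    (hv : v μ ≠ 1) : hs e (ConjClasses.mk g) = 0 := by
  classical
  let W : Submodule K V := Module.End.maxGenEigenspace (ρ g) μ
  obtain ⟨P, hP⟩ := W.subtype.exists_leftInverse_of_injective W.ker_subtype
  have hP' : ∀ w : W, P (w : V) = w := fun w => by
    have := LinearMap.congr_fun hP w
    simpa using this
  let A : G → Module.End K W := fun x => P ∘ₗ (ρ x) ∘ₗ W.subtype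
  let ψ : G → K := fun x => LinearMap.det (A x)
  let bV := Module.finBasis K V
  let bW := Module.finBasis K W
  let d : ℕ := Module.finrank K W
  let L : G → ℝ := fun x => msum v (LinearMap.toMatrix bV bV (ρ x))
  let c : ℝ := max 1 (msum v (LinearMap.toMatrix bV bW P) *
    msum v (LinearMap.toMatrix bW bV W.subtype))
  have hc1 : 1 ≤ c := le_max_left _ _
  have hL0 : ∀ x, 0 ≤ L x := fun x => msum_nonneg v _
  have hLmul : ∀ x y, L (x * y) ≤ L x * L y := by
    intro x y
    simp only [L]
    rw [map_mul, LinearMap.toMatrix_mul]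
    exact msum_mul v _ _
  let N : G → ℝ := fun x => max 1 (c * L x)
  have hN1 : ∀ x, 1 ≤ N x := fun x => le_max_left _ _
  have hNmul : ∀ x y, N (x * y) ≤ N x * N y := by
    intro x y
    refine max_le ?_ ?_
    · have := mul_le_mul (hN1 x) (hN1 y) zero_le_one (zero_le_one.trans (hN1 x))
      simpa using this
    · have h1 : c * L (x * y) ≤ (c * L x) * (c * L y) := by
        have h2 := hLmul x y
        have h3 : 0 ≤ L x * L y := mul_nonneg (hL0 x) (hL0 y)
        have hc0 : 0 ≤ c := zero_le_one.trans hc1
        calc c * L (x * y) ≤ c * (L x * L y) := mul_le_mul_of_nonneg_left h2 hc0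
          _ ≤ c * c * (L x * L y) := by
              have : c ≤ c * c := by nlinarith
              exact mul_le_mul_of_nonneg_right this h3
          _ = (c * L x) * (c * L y) := by ring
      refine h1.trans ?_
      have hc0 : 0 ≤ c := zero_le_one.trans hc1
      exact mul_le_mul (le_max_right _ _) (le_max_right _ _) (mul_nonneg hc0 (hL0 y))
        (zero_le_one.trans (hN1 x))
  let l : G → ℝ := fun x => Real.log d.factorial + d * Real.log (N x)
  have hl : ∀ x y, l (x * y) ≤ l x + l y := by
    intro x y
    have h1 : Real.log (N (x * y)) ≤ Real.log (N x) + Real.log (N y) := by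
      rw [← Real.log_mul (by linarith [hN1 x]) (by linarith [hN1 y])]
      exact Real.log_le_log (by linarith [hN1 (x * y)]) (hNmul x y)
    have h2 : 0 ≤ Real.log d.factorial :=
      Real.log_nonneg (by exact_mod_cast Nat.one_le_iff_ne_zero.mpr (Nat.factorial_ne_zero d))
    have h3 : (0 : ℝ) ≤ d := Nat.cast_nonneg d
    simp only [l]
    nlinarith
  have hψle : ∀ x, v (ψ x) ≤ d.factorial * N x ^ d := by
    intro x
    have h1 : ψ x = (LinearMap.toMatrix bW bW (A x)).det := (LinearMap.det_toMatrix bW (A x)).symm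
    have h2 : LinearMap.toMatrix bW bW (A x) = LinearMap.toMatrix bV bW P *
        (LinearMap.toMatrix bV bV (ρ x) * LinearMap.toMatrix bW bV W.subtype) := by
      simp only [A]
      rw [LinearMap.toMatrix_comp bW bV bW, LinearMap.toMatrix_comp bW bV bV]
    rw [h1]
    refine (abv_det_le v _).trans ?_
    have h3 : Fintype.card (Fin (Module.finrank K W)) = d := Fintype.card_fin _
    rw [h3]
    refine mul_le_mul_of_nonneg_left ?_ (Nat.cast_nonneg _)
    refine pow_le_pow_left₀ (msum_nonneg v _) ?_ d
    rw [h2]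
    refine (msum_mul v _ _).trans ?_
    have h4 := msum_mul v (LinearMap.toMatrix bV bV (ρ x)) (LinearMap.toMatrix bW bV W.subtype)
    have h5 : msum v (LinearMap.toMatrix bV bW P) * msum v (LinearMap.toMatrix bV bV (ρ x) *
        LinearMap.toMatrix bW bV W.subtype) ≤ msum v (LinearMap.toMatrix bV bW P) *
        (L x * msum v (LinearMap.toMatrix bW bV W.subtype)) :=
      mul_le_mul_of_nonneg_left h4 (msum_nonneg v _)
    refine h5.trans ?_
    have h6 : msum v (LinearMap.toMatrix bV bW P) * (L x * msum v (LinearMap.toMatrix bW bV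
        W.subtype)) = (msum v (LinearMap.toMatrix bV bW P) * msum v (LinearMap.toMatrix bW bV
        W.subtype)) * L x := by ring
    rw [h6]
    refine le_trans ?_ (le_max_right _ _)
    exact mul_le_mul_of_nonneg_right (le_max_right _ _) (hL0 x)
  -- invariance of W
  have hmaps : ∀ z, z * g = g * z → ∀ w : W, ρ z (w : V) ∈ W := by
    intro z hz w
    have hcomm : Commute (ρ g) (ρ z) := by
      change ρ g * ρ z = ρ z * ρ g
      rw [← map_mul, ← map_mul, hz]
    exact Module.End.mapsTo_maxGenEigenspace_of_comm hcomm μ w.2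
  have hAmul : ∀ z z', z' * g = g * z' → A (z * z') = A z * A z' := by
    intro z z' hz'
    ext w
    simp only [A, LinearMap.comp_apply, Submodule.subtype_apply, Module.End.mul_apply, map_mul]
    have h1 := hP' ⟨ρ z' (w : V), hmaps z' hz' w⟩
    rw [h1]
  have hA1 : A 1 = 1 := by
    ext w
    simp only [A, LinearMap.comp_apply, Submodule.subtype_apply, map_one, Module.End.one_apply]
    rw [hP' w]
  have hψmul : ∀ z z', z' * g = g * z' → ψ (z * z') = ψ z * ψ z' := by
    intro z z' hz'
    simp only [ψ]
    rw [hAmul z z' hz', map_mul]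
  have hψ1 : ψ 1 = 1 := by
    simp only [ψ]
    rw [hA1, map_one]
  have hψne : ∀ z, z * g = g * z → ψ z ≠ 0 := by
    intro z hz h0
    have h1 := hψmul z⁻¹ z hz
    rw [inv_mul_cancel, hψ1, h0, mul_zero] at h1
    exact one_ne_zero h1
  -- the value at g
  have hψg : ψ g = μ ^ d := by
    have hnil := Module.End.isNilpotent_restrict_maxGenEigenspace_sub_algebraMap (ρ g) μ
    set Nn := (ρ g - algebraMap K (Module.End K V) μ).restrict
      (Module.End.mapsTo_maxGenEigenspace_of_comm (Algebra.mul_sub_algebraMap_commutes (ρ g) μ) μ)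
      with hNn
    have hAg : A g = algebraMap K (Module.End K W) μ - (-Nn) := by
      refine LinearMap.ext fun w => Subtype.ext ?_
      have h1 := hP' ⟨ρ g (w : V), hmaps g rfl w⟩
      have h3 : ((Nn w : W) : V) = ρ g (w : V) - μ • (w : V) := rfl
      have h4 : ((A g w : W) : V) = ρ g (w : V) := congrArg Subtype.val h1
      have h5 : (((algebraMap K (Module.End K W) μ - (-Nn)) w : W) : V) =
          μ • (w : V) + ((Nn w : W) : V) := by
        rw [sub_neg_eq_add, LinearMap.add_apply, Module.algebraMap_end_apply]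
        rfl
      rw [h4, h5, h3]
      abel
    have hnil' : IsNilpotent (-Nn) := hnil.neg
    have h2 := LinearMap.eval_charpoly (-Nn) μ
    rw [hnil'.charpoly_eq_X_pow_finrank] at h2
    simp only [ψ]
    rw [hAg, ← h2]
    simp only [Polynomial.eval_pow, Polynomial.eval_X]
    rfl
  have hμ0 : μ ≠ 0 := by
    intro h0
    obtain ⟨x, hx⟩ := hμ.exists_hasEigenvector
    have h1 : ρ g x = 0 := by
      have := hx.apply_eq_smul
      rw [h0, zero_smul] at this
      exact this
    have h2 : ρ g⁻¹ (ρ g x) = x := by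
      rw [← Module.End.mul_apply, ← map_mul, inv_mul_cancel, map_one, Module.End.one_apply]
    rw [h1, map_zero] at h2
    exact hx.2 h2.symm
  have hd : 0 < d := by
    obtain ⟨x, hx⟩ := hμ.exists_hasEigenvector
    have hxW : x ∈ W := Module.End.eigenspace_le_maxGenEigenspace hx.1
    have : Nontrivial W := ⟨⟨⟨x, hxW⟩, 0, fun h => hx.2 (by simpa using congrArg Subtype.val h)⟩⟩
    exact Module.finrank_pos
  let φ : G → ℝ := fun z => Real.log (v (ψ z))
  refine centralizer_criterion he l hl g φ ?_ ?_ ?_
  · intro z w hz hw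
    simp only [φ]
    rw [hψmul z w hw, v.map_mul, Real.log_mul]
    · exact (v.pos (hψne z hz)).ne'
    · exact (v.pos (hψne w hw)).ne'
  · intro z hz
    simp only [φ, l]
    have h1 := hψle z
    have h2 : 0 < v (ψ z) := v.pos (hψne z hz)
    have h3 : (0 : ℝ) < d.factorial := by exact_mod_cast Nat.factorial_pos d
    have h4 : 0 < N z := by linarith [hN1 z]
    calc Real.log (v (ψ z)) ≤ Real.log (d.factorial * N z ^ d) := Real.log_le_log h2 h1
      _ = Real.log d.factorial + d * Real.log (N z) := by
          rw [Real.log_mul h3.ne' (pow_pos h4 d).ne', Real.log_pow]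
  · simp only [φ]
    rw [hψg, map_pow, Real.log_pow]
    have h1 : 0 < v μ := v.pos hμ0
    have h2 : Real.log (v μ) ≠ 0 := by
      intro h
      rcases Real.log_eq_zero.mp h with h | h | h
      · linarith
      · exact hv h
      · linarith
    have h3 : (d : ℝ) ≠ 0 := by exact_mod_cast hd.ne'
    exact mul_ne_zero h3 h2

end linear

end Vale.Agent.P184
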