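import Vale.Agent.P184.Defs

/-! P184: from complex linear groups to linear groups over arbitrary fields of characteristic
zero, by restricting to the countable subgroup generated by the support. -/

namespace Vale.Agent.P184

open Cardinal

universe u



theorem exists_embedding_complex (K0 : Type*) [Field K0] [CharZero K0] [Countable K0] :
    Nonempty (K0 →+* ℂ) := by
  obtain ⟨S, hS⟩ := exists_isTranscendenceBasis ℚ K0
  obtain ⟨T, hT⟩ := exists_isTranscendenceBasis ℚ ℂ
  have hC : ℵ₀ < #ℂ := by
    rw [Cardinal.mk_complex]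
    exact Cardinal.aleph0_lt_continuum
  have hT' : #ℂ = #T :=
    IsAlgClosed.cardinal_eq_cardinal_transcendence_basis_of_aleph0_lt' _ hT (by simp) hC
  have : Infinite T := by
    rw [Cardinal.infinite_iff, ← hT']
    exact hC.le
  obtain ⟨f, hf⟩ := exists_injective_nat S
  let j : S → T := fun s => Infinite.natEmbedding T (f s)
  have hj : Function.Injective j := fun a b h => hf ((Infinite.natEmbedding T).injective h)
  let φ : MvPolynomial S ℚ →ₐ[ℚ] ℂ :=
    (MvPolynomial.aeval (fun t : T => (t : ℂ))).comp (MvPolynomial.rename j)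
  have hφ : Function.Injective φ := by
    have h1 : Function.Injective (MvPolynomial.aeval (R := ℚ) (fun t : T => (t : ℂ))) := hT.1
    exact h1.comp (MvPolynomial.rename_injective j hj)
  let ψ : Algebra.adjoin ℚ (Set.range (fun s : S => (s : K0))) →+* ℂ :=
    (φ.comp hS.1.aevalEquiv.symm.toAlgHom).toRingHom
  have hψ : Function.Injective ψ := hφ.comp hS.1.aevalEquiv.symm.injective
  let : Algebra (Algebra.adjoin ℚ (Set.range (fun s : S => (s : K0)))) ℂ := ψ.toAlgebra
  have : FaithfulSMul (Algebra.adjoin ℚ (Set.range (fun s : S => (s : K0)))) ℂ :=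
    (faithfulSMul_iff_algebraMap_injective _ _).2 hψ
  have : Algebra.IsAlgebraic (Algebra.adjoin ℚ (Set.range (fun s : S => (s : K0)))) K0 :=
    hS.isAlgebraic
  exact ⟨(IsAlgClosed.lift :
    K0 →ₐ[Algebra.adjoin ℚ (Set.range (fun s : S => (s : K0)))] ℂ).toRingHom⟩



variable {G : Type*} [Group G] {q : ℕ}

/-- restriction of a matrix of functions to a subgroup. -/
def resH (H : Subgroup G) (e : Fin q → Fin q → G → ℂ) : Fin q → Fin q → H → ℂ :=
  fun i j x => e i j x

theorem isIdem_res {e : Fin q → Fin q → G → ℂ} (he : IsIdem e) (H : Subgroup G)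
    (hsupp : ∀ i j x, e i j x ≠ 0 → x ∈ H) : IsIdem (resH H e) := by
  refine ⟨fun i j => ?_, fun i j g => ?_⟩
  · exact (he.mem i j).comp_injective Subtype.val_injective
  · have h := he.idem i j (g : G)
    have hk : ∀ k, conv (resH H e i k) (resH H e k j) g = conv (e i k) (e k j) (g : G) := by
      intro k
      unfold conv resH
      have := tsum_subtype_eq_of_support_subset (s := (H : Set G))
        (f := fun h : G => e i k h * e k j (h⁻¹ * (g : G))) (by
          intro x hx
          have hx' : e i k x ≠ 0 := by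
            intro h0
            apply hx
            simp [h0]
          exact hsupp i k x hx')
      rw [← this]
      rfl
    simp only [hk]
    exact h

theorem hs_eq_zero_of_res {e : Fin q → Fin q → G → ℂ} (he : IsIdem e) (H : Subgroup G)
    (hsupp : ∀ i j x, e i j x ≠ 0 → x ∈ H) (C : ConjClasses G)
    (hvan : ∀ h : H, ConjClasses.mk (h : G) = C → hs (resH H e) (ConjClasses.mk h) = 0) :
    hs e C = 0 := by
  set F : G → ℂ := fun g => ∑ i, e i i g with hF
  have hFs : Summable F := summable_sum (fun i _ => (he.mem i i).of_norm)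
  have h1 : hs e C = ∑' g : G, C.carrier.indicator F g := by
    unfold hs
    exact tsum_subtype C.carrier F
  have h2 : ∑' h : H, C.carrier.indicator F (h : G) = ∑' g : G, C.carrier.indicator F g := by
    apply tsum_subtype_eq_of_support_subset (s := (H : Set G)) (f := C.carrier.indicator F)
    intro x hx
    have hx1 : F x ≠ 0 := by
      intro h0
      apply hx
      by_cases hxC : x ∈ C.carrier
      · rw [Set.indicator_of_mem hxC, h0]
      · rw [Set.indicator_of_notMem hxC]
    obtain ⟨i, -, hi⟩ := Finset.exists_ne_zero_of_sum_ne_zero hx1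
    exact hsupp i i x hi
  have hφ : Summable (fun h : H => C.carrier.indicator F (h : G)) :=
    (hFs.indicator _).comp_injective Subtype.val_injective
  have h3 := hφ.hasSum.tsum_fiberwise (ConjClasses.mk (α := H))
  have h4 : ∀ c : ConjClasses H,
      ∑' b : (ConjClasses.mk (α := H)) ⁻¹' {c}, C.carrier.indicator F ((b : H) : G) = 0 := by
    intro c
    obtain ⟨h0, rfl⟩ := ConjClasses.mk_surjective c
    have key : ∀ b : H, ConjClasses.mk b = ConjClasses.mk h0 →
        ConjClasses.mk (b : G) = ConjClasses.mk (h0 : G) := by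
      intro b hb
      rw [ConjClasses.mk_eq_mk_iff_isConj] at hb ⊢
      obtain ⟨c, hc⟩ := isConj_iff.1 hb
      exact isConj_iff.2 ⟨(c : G), by rw [← hc]; simp⟩
    by_cases hC : ConjClasses.mk (h0 : G) = C
    · have h5 := hvan h0 hC
      unfold hs at h5
      rw [ConjClasses.carrier_eq_preimage_mk] at h5
      rw [← h5]
      apply tsum_congr
      intro b
      have hb : ((b : H) : G) ∈ C.carrier := by
        rw [ConjClasses.mem_carrier_iff_mk_eq, ← hC]
        exact key b b.2
      rw [Set.indicator_of_mem hb]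
      rfl
    · have : ∀ b : (ConjClasses.mk (α := H)) ⁻¹' {ConjClasses.mk h0},
          C.carrier.indicator F ((b : H) : G) = 0 := by
        intro b
        apply Set.indicator_of_notMem
        rw [ConjClasses.mem_carrier_iff_mk_eq, key b b.2]
        exact hC
      simp only [this, tsum_zero]
  simp only [h4] at h3
  rw [h1, ← h2]
  exact h3.unique hasSum_zero





theorem countable_subgroup_closure {G : Type*} [Group G] {S : Set G} (hS : S.Countable) :
    Countable (Subgroup.closure S) := by
  have : Countable S := hS.to_subtype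
  rw [FreeGroup.closure_eq_range]
  exact (Set.countable_range _).to_subtype

theorem countable_subfield_closure {K : Type*} [Field K] {S : Set K} (hS : S.Countable) :
    Countable (Subfield.closure S) := by
  rw [← Cardinal.mk_le_aleph0_iff]
  refine (Subfield.cardinalMk_closure_le_max S).trans (max_le ?_ le_rfl)
  exact Cardinal.le_aleph0_iff_set_countable.2 hS

theorem isNilpotent_conj_units {R : Type*} [Ring R] (u : Rˣ) (a : R) :
    IsNilpotent ((u : R) * a * ((u⁻¹ : Rˣ) : R)) ↔ IsNilpotent a := by
  constructor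
  · rintro ⟨m, hm⟩
    refine ⟨m, ?_⟩
    rw [Units.conj_pow] at hm
    have := congrArg (fun x => ((u⁻¹ : Rˣ) : R) * x * (u : R)) hm
    simpa [mul_assoc] using this
  · rintro ⟨m, hm⟩
    refine ⟨m, ?_⟩
    rw [Units.conj_pow, hm]
    simp


/-- reduction of the vanishing criterion for linear groups over an arbitrary field of
characteristic zero to the case of the complex numbers. -/
theorem field_reduction {G : Type u} [Group G] {q : ℕ} {e : Fin q → Fin q → G → ℂ}
    (he : IsIdem e)
    (hC : ∀ (H : Type u) [Group H] (e' : Fin q → Fin q → H → ℂ), IsIdem e' →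
      ∀ (n : ℕ) (r : H →* GL (Fin n) ℂ) (h : H),
      (∀ N : ℕ, 0 < N →
        ¬ IsNilpotent (((r h : GL (Fin n) ℂ) : Matrix (Fin n) (Fin n) ℂ) ^ N - 1)) →
      hs e' (ConjClasses.mk h) = 0)
    {K : Type*} [Field K] [CharZero K] {n : ℕ} (rho : G →* GL (Fin n) K) (g : G)
    (hg : ∀ N : ℕ, 0 < N →
      ¬ IsNilpotent (((rho g : GL (Fin n) K) : Matrix (Fin n) (Fin n) K) ^ N - 1)) :
    hs e (ConjClasses.mk g) = 0 := by
  classical
  let S : Set G := ⋃ i, ⋃ j, Function.support (e i j)
  have hS : S.Countable := by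
    refine Set.countable_iUnion fun i => Set.countable_iUnion fun j => ?_
    have := (he.mem i j).countable_support
    refine this.mono ?_
    intro x hx
    exact norm_ne_zero_iff.2 hx
  let H : Subgroup G := Subgroup.closure S
  have hH : Countable H := countable_subgroup_closure hS
  have hsupp : ∀ i j x, e i j x ≠ 0 → x ∈ H := fun i j x hx =>
    Subgroup.subset_closure (Set.mem_iUnion.2 ⟨i, Set.mem_iUnion.2 ⟨j, hx⟩⟩)
  let E : Set K := Set.range (fun p : H × Fin n × Fin n =>
    ((rho (p.1 : G) : GL (Fin n) K) : Matrix (Fin n) (Fin n) K) p.2.1 p.2.2)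
  have hE : E.Countable := Set.countable_range _
  let K0 : Subfield K := Subfield.closure E
  have hK0 : Countable K0 := countable_subfield_closure hE
  obtain ⟨ι⟩ := exists_embedding_complex K0
  let f0 : H → Matrix (Fin n) (Fin n) K0 := fun h => Matrix.of fun a b =>
    ⟨((rho (h : G) : GL (Fin n) K) : Matrix (Fin n) (Fin n) K) a b,
      Subfield.subset_closure ⟨(h, a, b), rfl⟩⟩
  have hf0 : ∀ h, K0.subtype.mapMatrix (f0 h)
      = ((rho (h : G) : GL (Fin n) K) : Matrix (Fin n) (Fin n) K) := by
    intro h
    ext a b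
    rfl
  have hinj : Function.Injective (K0.subtype.mapMatrix (m := Fin n)) :=
    Matrix.map_injective K0.subtype.injective
  let f : H →* Matrix (Fin n) (Fin n) K0 :=
    { toFun := f0
      map_one' := hinj (by rw [hf0, map_one]; simp)
      map_mul' := fun x y => hinj (by rw [map_mul, hf0, hf0, hf0]; simp) }
  let r : H →* GL (Fin n) ℂ :=
    ((ι.mapMatrix (m := Fin n)).toMonoidHom.comp f).toHomUnits
  apply hs_eq_zero_of_res he H hsupp
  intro h hh
  apply hC H (resH H e) (isIdem_res he H hsupp) n r h
  intro N hN hnil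
  apply hg N hN
  have h1 : ((r h : GL (Fin n) ℂ) : Matrix (Fin n) (Fin n) ℂ) = ι.mapMatrix (f0 h) := rfl
  rw [h1, ← map_pow, ← map_one ι.mapMatrix, ← map_sub] at hnil
  have h2 : IsNilpotent (f0 h ^ N - 1) :=
    (IsNilpotent.map_iff (Matrix.map_injective ι.injective)).1 hnil
  have h3 : IsNilpotent (K0.subtype.mapMatrix (f0 h ^ N - 1)) := h2.map _
  rw [map_sub, map_pow, map_one, hf0] at h3
  rw [ConjClasses.mk_eq_mk_iff_isConj] at hh
  obtain ⟨c, hc⟩ := isConj_iff.1 hh
  have h4 : ((rho g : GL (Fin n) K) : Matrix (Fin n) (Fin n) K) ^ N - 1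
      = ((rho c : GL (Fin n) K) : Matrix (Fin n) (Fin n) K)
        * (((rho (h : G) : GL (Fin n) K) : Matrix (Fin n) (Fin n) K) ^ N - 1)
        * (((rho c)⁻¹ : GL (Fin n) K) : Matrix (Fin n) (Fin n) K) := by
    rw [← hc, map_mul, map_mul, map_inv, Units.val_mul, Units.val_mul, Units.conj_pow,
      mul_sub, sub_mul, mul_one, Units.mul_inv]
  rw [h4, isNilpotent_conj_units]
  exact h3

end Vale.Agent.P184
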