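import Vale.Agent.P184.LinearChar0
import Vale.Agent.P184.LinearField

namespace Vale.Agent.P184

universe u

variable {G : Type u} [Group G] {q : ℕ}

/-- Linear groups over an arbitrary field: the coefficient vanishes at every element whose image
has no unipotent positive power. -/
theorem linear_all {e : Fin q → Fin q → G → ℂ} (he : IsIdem e) {K : Type*} [Field K] {n : ℕ}
    (ρ : G →* GL (Fin n) K) (g : G)
    (hg : ∀ N : ℕ, 0 < N →
      ¬ IsNilpotent (((ρ g : GL (Fin n) K) : Matrix (Fin n) (Fin n) K) ^ N - 1)) :
    hs e (ConjClasses.mk g) = 0 := by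
  obtain ⟨p, hp⟩ := CharP.exists K
  rcases CharP.char_is_prime_or_zero K p with hprime | hzero
  · have : Fact p.Prime := ⟨hprime⟩
    refine charP_criterion he p ρ g ?_
    intro hfo
    obtain ⟨N, hN0, hN⟩ := (isOfFinOrder_iff_pow_eq_one).mp hfo
    apply hg N hN0
    have h1 : ((ρ g : GL (Fin n) K) : Matrix (Fin n) (Fin n) K) ^ N = 1 := by
      have := congrArg Units.val hN
      simpa using this
    rw [h1, sub_self]
    exact IsNilpotent.zero
  · subst hzero
    have : CharZero K := CharP.charP_to_charZero K
    exact field_reduction he (fun H _ e' he' n r h hh => char0_criterion he' r h hh) ρ g hg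

/-- Linear groups in positive characteristic with finitely many classes of elements of finite
order satisfy the conjecture in its literal form. -/
theorem charP_full {e : Fin q → Fin q → G → ℂ} (he : IsIdem e) (p : ℕ) [Fact p.Prime]
    {K : Type*} [Field K] [CharP K p] {n : ℕ} (ρ : G →* GL (Fin n) K)
    (hinj : Function.Injective ρ)
    (hfin : {C : ConjClasses G | ∀ g ∈ C.carrier, IsOfFinOrder g}.Finite) :
    ∃ F : Finset (ConjClasses G), (∀ C ∈ F, ∀ g ∈ C.carrier, IsOfFinOrder g) ∧
      ∀ C, C ∉ F → hs e C = 0 := by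
  classical
  refine ⟨hfin.toFinset, ?_, ?_⟩
  · intro C hC
    exact hfin.mem_toFinset.mp hC
  · intro C hC
    have hC' : ¬ ∀ g ∈ C.carrier, IsOfFinOrder g := fun h => hC (hfin.mem_toFinset.mpr h)
    push Not at hC'
    obtain ⟨g, hgC, hg⟩ := hC'
    rw [ConjClasses.mem_carrier_iff_mk_eq] at hgC
    rw [← hgC]
    refine charP_criterion he p ρ g ?_
    intro hfo
    exact hg ((hinj.isOfFinOrder_iff).mp hfo)

end Vale.Agent.P184
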