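import Vale.Agent.P184.LinearCharP
import Vale.Agent.P184.AbvField
import Vale.Agent.P184.ComplexExt
import Vale.Agent.P184.Kronecker

namespace Vale.Agent.P184

open scoped BigOperators
open Polynomial IntermediateField

/-- Every nonzero complex number which is not a root of unity has absolute value different from
one for a suitable (possibly wild) real absolute value on the field of complex numbers. -/
theorem exists_abv_complex (μ : ℂ) (h0 : μ ≠ 0) (hμ : ∀ k : ℕ, 0 < k → μ ^ k ≠ 1) :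
    ∃ v : AbsoluteValue ℂ ℝ, v μ ≠ 1 := by
  classical
  by_cases halg : IsAlgebraic ℚ μ
  · have hfd : FiniteDimensional ℚ ℚ⟮μ⟯ := adjoin.finiteDimensional halg.isIntegral
    have hnf : NumberField ℚ⟮μ⟯ := { to_charZero := inferInstance, to_finiteDimensional := hfd }
    let m : ℚ⟮μ⟯ := AdjoinSimple.gen ℚ μ
    have hmval : algebraMap ℚ⟮μ⟯ ℂ m = μ := AdjoinSimple.algebraMap_gen ℚ μ
    have hm0 : m ≠ 0 := by
      intro h
      apply h0
      rw [← hmval, h, map_zero]
    have hmk : ∀ k : ℕ, 0 < k → m ^ k ≠ 1 := by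
      intro k hk h
      apply hμ k hk
      rw [← hmval, ← map_pow, h, map_one]
    rcases exists_place_ne_one m hm0 hmk with ⟨s, hs⟩ | ⟨w, hna, hw⟩
    · obtain ⟨t, ht⟩ := exists_ringHom_complex_extending (algebraMap ℚ⟮μ⟯ ℂ) s
      refine ⟨(NormedField.toAbsoluteValue ℂ).comp t.injective, ?_⟩
      change ‖t μ‖ ≠ 1
      rw [← hmval, ht]
      exact hs
    · obtain ⟨v, hv⟩ := exists_abv_extension_field (L := ℂ) w hna ⟨m, hm0, hw⟩
      refine ⟨v, ?_⟩
      rw [← hmval, hv]
      exact hw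
  · exact exists_abv_of_transcendental μ halg

section eig

variable {K : Type*} [Field K] [IsAlgClosed K] {V : Type*} [AddCommGroup V] [Module K V]
  [FiniteDimensional K V]

/-- An endomorphism all of whose eigenvalues are roots of unity has a unipotent power. -/
lemma isNilpotent_pow_sub_one_of_eigenvalues (T : Module.End K V)
    (h : ∀ μ : K, T.HasEigenvalue μ → ∃ m : ℕ, 0 < m ∧ μ ^ m = 1) :
    ∃ N : ℕ, 0 < N ∧ IsNilpotent (T ^ N - 1) := by
  classical
  set P := minpoly K T with hP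
  have hmonic : P.Monic := minpoly.monic (Algebra.IsIntegral.isIntegral T)
  have hsplit : P.Splits := IsAlgClosed.splits P
  have hroot : ∀ a ∈ P.roots, ∃ m : ℕ, 0 < m ∧ a ^ m = 1 := by
    intro a ha
    apply h
    rw [Module.End.hasEigenvalue_iff_isRoot]
    exact (Polynomial.mem_roots'.mp ha).2
  choose! f hf using hroot
  let m : ℕ := ∏ a ∈ P.roots.toFinset, f a
  have hm0 : 0 < m := Finset.prod_pos fun a ha => (hf a (Multiset.mem_toFinset.mp ha)).1
  have hpow : ∀ a ∈ P.roots, a ^ m = 1 := by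
    intro a ha
    obtain ⟨c, hc⟩ : f a ∣ m := Finset.dvd_prod_of_mem f (Multiset.mem_toFinset.mpr ha)
    rw [hc, pow_mul, (hf a ha).2, one_pow]
  have hdvd1 : ∀ a ∈ P.roots, (X - C a) ∣ (X ^ m - 1 : K[X]) := by
    intro a ha
    rw [Polynomial.dvd_iff_isRoot]
    simp [hpow a ha]
  have hprod : P = (P.roots.map fun a => X - C a).prod := hsplit.eq_prod_roots_of_monic hmonic
  have hdvd2 : P ∣ (X ^ m - 1 : K[X]) ^ (Multiset.card P.roots) := by
    have h1 := Multiset.prod_dvd_prod_of_dvd (S := P.roots) (fun a => X - C a)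
      (fun _ => (X ^ m - 1 : K[X])) hdvd1
    rw [← hprod] at h1
    simpa using h1
  refine ⟨m, hm0, Multiset.card P.roots, ?_⟩
  obtain ⟨Q, hQ⟩ := hdvd2
  have h2 : aeval T ((X ^ m - 1 : K[X]) ^ (Multiset.card P.roots)) = 0 := by
    rw [hQ, map_mul, hP, minpoly.aeval, zero_mul]
  simpa using h2

end eig

variable {G : Type*} [Group G] {q : ℕ}

/-- Complex representations: an eigenvalue which is not a root of unity. -/
theorem complex_eigenvalue_criterion {e : Fin q → Fin q → G → ℂ} (he : IsIdem e)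
    {V : Type*} [AddCommGroup V] [Module ℂ V] [FiniteDimensional ℂ V]
    (ρ : Representation ℂ G V) (g : G) (μ : ℂ) (hμ : Module.End.HasEigenvalue (ρ g) μ)
    (hroot : ∀ k : ℕ, 0 < k → μ ^ k ≠ 1) : hs e (ConjClasses.mk g) = 0 := by
  have h0 : μ ≠ 0 := by
    intro h0
    obtain ⟨w, hw⟩ := hμ.exists_hasEigenvector
    have h1 : ρ g w = 0 := by
      rw [hw.apply_eq_smul, h0, zero_smul]
    have h2 : ρ g⁻¹ (ρ g w) = w := by
      have : (ρ g⁻¹ * ρ g) w = w := by
        rw [← map_mul, inv_mul_cancel, map_one]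
        rfl
      exact this
    rw [h1, map_zero] at h2
    exact hw.2 h2.symm
  obtain ⟨v, hv⟩ := exists_abv_complex μ h0 hroot
  exact linear_criterion he v ρ g μ hμ hv

/-- Complex linear groups: the coefficient vanishes at every element whose image has no unipotent
power. -/
theorem char0_criterion {e : Fin q → Fin q → G → ℂ} (he : IsIdem e) {n : ℕ}
    (ρ : G →* GL (Fin n) ℂ) (g : G)
    (hg : ∀ N : ℕ, 0 < N →
      ¬ IsNilpotent (((ρ g : GL (Fin n) ℂ) : Matrix (Fin n) (Fin n) ℂ) ^ N - 1)) :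
    hs e (ConjClasses.mk g) = 0 := by
  classical
  let Φ := matEnd ℂ ℂ n
  let ρL : Representation ℂ G (Fin n → ℂ) :=
    (Φ : Matrix (Fin n) (Fin n) ℂ →* Module.End ℂ (Fin n → ℂ)).comp
      ((Units.coeHom (Matrix (Fin n) (Fin n) ℂ)).comp ρ)
  by_contra hne
  have hall : ∀ μ : ℂ, Module.End.HasEigenvalue (ρL g) μ → ∃ m : ℕ, 0 < m ∧ μ ^ m = 1 := by
    intro μ hμ
    by_contra hcon
    push Not at hcon
    exact hne (complex_eigenvalue_criterion he ρL g μ hμ hcon)
  obtain ⟨N, hN0, k, hk⟩ := isNilpotent_pow_sub_one_of_eigenvalues (ρL g) hall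
  apply hg N hN0
  refine ⟨k, ?_⟩
  apply matEnd_injective ℂ ℂ n
  rw [map_pow, map_sub, map_pow, map_one, map_zero]
  exact hk

end Vale.Agent.P184
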