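import Vale.Agent.P184.HH.Classes

namespace Vale.Agent.P184

open scoped BigOperators Matrix.Norms.Operator

/-- `Q1` passes from `G` to `G × H` when `H` is torsion free and all its nontrivial elements admit
height functions.

Proof (copy the pattern of `Q1_coprodI` in `FreeProd.lean`).  `E = toL1 e he`,
`P = L1.push (MonoidHom.fst G H) E` idempotent, `F'` from `hG` applied to `ofL1 P`;
`F = F'.image (ConjClasses.map (MonoidHom.inl G H))`.  A class of `(g, h)` with `h ≠ 1`:
`HasHeight.comap (MonoidHom.snd G H)` and `.van`.  A class `C₀` of `(g, 1)` with `mk g ∉ F'`: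
`L1.ctr_push` for the predicate `y ∈ (mk g).carrier`, `L1.ctr_split` into `C₀` and the rest, and
`L1.ctr_eq_zero_of_classes` for the rest (all its classes are classes of `(g', h)` with `h ≠ 1`). -/
theorem Q1_prod {G H : Type*} [Group G] [Group H] (hG : Q1 G) (hH : AllHeight H)
    (htf : ∀ h : H, IsOfFinOrder h → h = 1) : Q1 (G × H) := by
  classical
  intro q e he
  set E := toL1 e he with hE
  have hEE : E * E = E := toL1_idem e he
  have hPP : L1.push (MonoidHom.fst G H) E * L1.push (MonoidHom.fst G H) E
      = L1.push (MonoidHom.fst G H) E := by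
    rw [← map_mul, hEE]
  obtain ⟨F, hF1, hF2⟩ := hG q (ofL1 (L1.push (MonoidHom.fst G H) E)) (isIdem_ofL1 hPP)
  -- vanishing at classes with nontrivial second coordinate
  have hvan : ∀ x : G × H, x.2 ≠ 1 → hs e (ConjClasses.mk x) = 0 := by
    intro x hx
    have h1 : ¬ IsOfFinOrder x.2 := fun h => hx (htf _ h)
    have h2 : HasHeight x := HasHeight.comap (MonoidHom.snd G H) (hH _ h1)
    exact h2.van q e he
  refine ⟨F.image (ConjClasses.map (MonoidHom.inl G H)), ?_, ?_⟩
  · intro C hC
    obtain ⟨C', hC', rfl⟩ := Finset.mem_image.mp hC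
    exact finOrder_of_mem_map _ C' (hF1 C' hC')
  · intro C hC
    obtain ⟨x, rfl⟩ := ConjClasses.exists_rep C
    by_cases hx2 : x.2 = 1
    swap
    · exact hvan x hx2
    obtain ⟨m, h⟩ := x
    simp only at hx2
    subst hx2
    have hmF : ConjClasses.mk m ∉ F := by
      intro hmem
      apply hC
      exact Finset.mem_image.mpr ⟨_, hmem, rfl⟩
    have h0 := hF2 _ hmF
    rw [hs_eq_ctr _ (isIdem_ofL1 hPP), toL1_ofL1 hPP] at h0
    have h1 := (L1.ctr_push (MonoidHom.fst G H) (traceL (q := q))
      (fun y => y ∈ (ConjClasses.mk m).carrier) E).symm.trans h0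
    set C₀ : ConjClasses (G × H) := ConjClasses.mk (m, 1) with hC₀
    have hsplit := L1.ctr_split (traceL (q := q))
      (fun y => MonoidHom.fst G H y ∈ (ConjClasses.mk m).carrier) (fun y => y ∈ C₀.carrier)
      (fun y => MonoidHom.fst G H y ∈ (ConjClasses.mk m).carrier ∧ y ∉ C₀.carrier) E ?_ ?_
    rotate_left
    · intro y
      constructor
      · intro hy
        by_cases hyC : y ∈ C₀.carrier
        · exact Or.inl hyC
        · exact Or.inr ⟨hy, hyC⟩
      · rintro (hy | hy)
        · rw [ConjClasses.mem_carrier_iff_mk_eq, ConjClasses.mk_eq_mk_iff_isConj] at hy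
          have := (MonoidHom.fst G H).map_isConj hy
          rw [ConjClasses.mem_carrier_iff_mk_eq]
          exact ConjClasses.mk_eq_mk_iff_isConj.mpr this
        · exact hy.1
    · rintro y ⟨h1, _, h2⟩
      exact h2 h1
    have hrest : L1.ctr (traceL (q := q))
        (fun y => MonoidHom.fst G H y ∈ (ConjClasses.mk m).carrier ∧ y ∉ C₀.carrier) E = 0 := by
      refine L1.ctr_eq_zero_of_classes _ _ ?_ E ?_
      · rintro c y ⟨hc1, hc2⟩
        refine ⟨?_, ?_⟩
        · have := carrier_conj_inv (ConjClasses.mk m) (MonoidHom.fst G H c)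
            (MonoidHom.fst G H y) hc1
          simpa using this
        · intro h
          apply hc2
          have := carrier_conj_inv C₀ _ y⁻¹ h
          simpa [mul_assoc] using this
      · intro C' hC'
        obtain ⟨y, rfl⟩ := ConjClasses.exists_rep C'
        obtain ⟨hy1, hy2⟩ := hC' y ConjClasses.mem_carrier_mk
        rw [← hs_eq_ctr e he]
        apply hvan
        intro hy0
        apply hy2
        rw [ConjClasses.mem_carrier_iff_mk_eq, ConjClasses.mk_eq_mk_iff_isConj] at hy1
        rw [ConjClasses.mem_carrier_iff_mk_eq]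
        apply ConjClasses.mk_eq_mk_iff_isConj.mpr
        have h3 := (MonoidHom.inl G H).map_isConj hy1
        have h4 : MonoidHom.inl G H (MonoidHom.fst G H y) = y := by
          ext
          · rfl
          · exact hy0.symm
        rw [h4] at h3
        exact h3
    rw [hs_eq_ctr e he]
    rw [hrest, add_zero] at hsplit
    exact hsplit.symm.trans h1

end Vale.Agent.P184
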