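import Vale.Agent.P184.FiniteIndex
import Vale.Agent.P184.DefsRFRS

namespace Vale.Agent.P184

open scoped BigOperators

lemma exists_real_char (H : Type*) [Group H] (g : H)
    (hg : ∀ n : ℕ, 0 < n → g ^ n ∉ commutator H) : ∃ ψ : H →* Multiplicative ℝ, ψ g ≠ 1 := by
  let A := Additive (Abelianization H)
  let a : A := Additive.ofMul (Abelianization.of g)
  let f : ℤ →+ A := zmultiplesHom A a
  have hpow : ∀ n : ℕ, 0 < n → (Abelianization.of g) ^ n ≠ 1 := by
    intro n hn h
    apply hg n hn
    rw [← map_pow] at h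
    have : g ^ n ∈ (Abelianization.of (G := H)).ker := h
    rwa [Abelianization.ker_of] at this
  have hf : Function.Injective f := by
    rw [injective_iff_map_eq_zero]
    intro n hn
    by_contra hne
    have h1 : n • a = 0 := hn
    have h2 : (n.natAbs : ℤ) • a = 0 := by
      rcases Int.natAbs_eq n with h | h
      · rw [← h]; exact h1
      · have : (n.natAbs : ℤ) = -n := by omega
        rw [this, neg_smul, h1, neg_zero]
    rw [natCast_zsmul] at h2
    exact hpow n.natAbs (Int.natAbs_pos.mpr hne) h2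
  obtain ⟨h, hh⟩ := (Module.Baer.of_divisible ℝ).extension_property_addMonoidHom f hf
    (Int.castAddHom ℝ)
  refine ⟨(AddMonoidHom.toMultiplicativeRight h).comp Abelianization.of, ?_⟩
  have h1 : h a = 1 := by
    have := DFunLike.congr_fun hh 1
    simpa [f] using this
  intro h2
  have h3 : Multiplicative.ofAdd (h a) = 1 := h2
  rw [h1] at h3
  have : (1 : ℝ) = 0 := h3
  norm_num at this

variable {G : Type*} [Group G] {q : ℕ}

/-- Elements of infinite order modulo the commutator subgroup of a finite index subgroup. -/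
theorem abelianization_criterion {e : Fin q → Fin q → G → ℂ} (he : IsIdem e) (H : Subgroup G)
    [hH : H.FiniteIndex] (g : G) (hg : ∀ n : ℕ, 0 < n → g ^ n ∉ ⁅H, H⁆) :
    hs e (ConjClasses.mk g) = 0 := by
  obtain ⟨m, hm, _, hgm⟩ := Subgroup.exists_pow_mem_of_index_ne_zero hH.index_ne_zero g
  obtain ⟨ψ, hψ⟩ := exists_real_char H ⟨g ^ m, hgm⟩ (by
    intro n hn h
    apply hg (m * n) (Nat.mul_pos hm hn)
    rw [← Subgroup.map_subtype_commutator, pow_mul]
    exact ⟨_, h, rfl⟩)
  exact finite_index_criterion he H ψ g m hm hgm hψ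

/-- Elements of infinite order in a virtually abelian quotient. -/
theorem virtually_abelian_criterion {e : Fin q → Fin q → G → ℂ} (he : IsIdem e)
    {V : Type*} [Group V] (π : G →* V) (A : Subgroup V) [A.FiniteIndex]
    (hA : ∀ a ∈ A, ∀ b ∈ A, a * b = b * a) (g : G) (hg : ¬ IsOfFinOrder (π g)) :
    hs e (ConjClasses.mk g) = 0 := by
  have hfi : (A.comap π).FiniteIndex := by
    constructor
    rw [Subgroup.index_comap]
    exact (Subgroup.instFiniteIndex_subgroupOf A π.range).index_ne_zero
  refine abelianization_criterion he (A.comap π) g ?_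
  intro n hn h
  apply hg
  have hle : ⁅A.comap π, A.comap π⁆ ≤ π.ker := by
    rw [Subgroup.commutator_le]
    intro a ha b hb
    rw [MonoidHom.mem_ker, map_commutatorElement, commutatorElement_eq_one_iff_mul_comm]
    exact hA _ ha _ hb
  have h1 : π (g ^ n) = 1 := hle h
  rw [map_pow] at h1
  exact isOfFinOrder_iff_pow_eq_one.mpr ⟨n, hn, h1⟩

/-- Nontrivial elements of RFRS groups are detected. -/
lemma rfrs_detect (hG : IsRFRS G) (g : G) (hg1 : g ≠ 1) :
    ∃ H : Subgroup G, H.FiniteIndex ∧ ∀ n : ℕ, 0 < n → g ^ n ∉ ⁅H, H⁆ := by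
  obtain ⟨K, h0, _, _, hfin, hint, hrat⟩ := hG
  have hex : ∃ i, g ∉ K i := by
    by_contra h
    push Not at h
    exact hg1 (hint g h)
  classical
  let i := Nat.find hex
  have hi : g ∉ K i := Nat.find_spec hex
  have hi0 : i ≠ 0 := by
    intro h
    rw [h, h0] at hi
    exact hi (Subgroup.mem_top g)
  obtain ⟨j, hj⟩ := Nat.exists_eq_succ_of_ne_zero hi0
  have hgj : g ∈ K j := by
    have := Nat.find_min hex (m := j) (by omega)
    push Not at this
    exact this
  refine ⟨K j, hfin j, ?_⟩
  intro n hn h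
  apply hi
  rw [hj]
  exact hrat j g hgj ⟨n, hn, h⟩

/-- The conjecture for RFRS groups. -/
theorem rfrs_bass (hG : IsRFRS G) {e : Fin q → Fin q → G → ℂ} (he : IsIdem e)
    (C : ConjClasses G) (hC : C ≠ ConjClasses.mk 1) : hs e C = 0 := by
  obtain ⟨g, rfl⟩ := C.exists_rep
  have hg1 : g ≠ 1 := by
    rintro rfl
    exact hC rfl
  obtain ⟨H, hH, hdet⟩ := rfrs_detect hG g hg1
  exact abelianization_criterion he H g hdet

/-- Infinite order classes of virtually RFRS groups. -/
theorem virtually_rfrs {e : Fin q → Fin q → G → ℂ} (he : IsIdem e) (H : Subgroup G)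
    [hH : H.FiniteIndex] (hR : IsRFRS H) (g : G) (hg : ¬ IsOfFinOrder g) :
    hs e (ConjClasses.mk g) = 0 := by
  obtain ⟨m, hm, _, hgm⟩ := Subgroup.exists_pow_mem_of_index_ne_zero hH.index_ne_zero g
  have hx1 : (⟨g ^ m, hgm⟩ : H) ≠ 1 := by
    intro h
    apply hg
    have : g ^ m = 1 := congrArg Subtype.val h
    exact isOfFinOrder_iff_pow_eq_one.mpr ⟨m, hm, this⟩
  obtain ⟨K, hK, hdet⟩ := rfrs_detect hR _ hx1
  have hfi : (K.map H.subtype).FiniteIndex := by
    constructor
    rw [Subgroup.index_map_subtype]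
    exact Nat.mul_ne_zero hK.index_ne_zero hH.index_ne_zero
  refine abelianization_criterion he (K.map H.subtype) g ?_
  intro n hn h
  apply hdet n hn
  have h1 : (g ^ n) ^ m ∈ ⁅K.map H.subtype, K.map H.subtype⁆ := Subgroup.pow_mem _ h m
  rw [← Subgroup.map_commutator] at h1
  obtain ⟨y, hy, hy'⟩ := h1
  have : y = (⟨g ^ m, hgm⟩ : H) ^ n := by
    apply Subtype.ext
    rw [Subgroup.coe_pow]
    change H.subtype y = _
    rw [hy', ← pow_mul, ← pow_mul, mul_comm]
  rwa [← this]

end Vale.Agent.P184
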