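import Vale.Agent.P184.Height

namespace Vale.Agent.P184

open scoped BigOperators

section tree

variable {X : Type*} [PseudoMetricSpace X]

lemma four_eq (h4 : ∀ x y z w : X, dist x y + dist z w ≤
    max (dist x z + dist y w) (dist x w + dist y z)) (x y z w : X)
    (h1 : dist x y + dist z w < dist x z + dist y w) :
    dist x z + dist y w = dist x w + dist y z := by
  have hA := h4 x z y w
  have hB := h4 x w y z
  rw [dist_comm z y] at hA
  rw [dist_comm w z, dist_comm w y] at hB
  refine le_antisymm ?_ ?_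
  · rcases le_max_iff.mp hA with h | h
    · linarith
    · exact h
  · rcases le_max_iff.mp hB with h | h
    · linarith
    · exact h

variable {G : Type*} [Group G] [MulAction G X]

/-- Hyperbolic isometries of spaces satisfying the four point condition. -/
theorem tree_criterion {q : ℕ} {e : Fin q → Fin q → G → ℂ} (he : IsIdem e)
    (hiso : ∀ (a : G) (x y : X), dist (a • x) (a • y) = dist x y)
    (h4 : ∀ x y z w : X, dist x y + dist z w ≤ max (dist x z + dist y w) (dist x w + dist y z))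
    (g : G) (x₀ : X) (hhyp : dist x₀ (g • x₀) < dist x₀ (g ^ 2 • x₀)) :
    hs e (ConjClasses.mk g) = 0 := by
  classical
  let y : ℕ → X := fun n => g ^ n • x₀
  let a : ℕ → ℝ := fun n => dist x₀ (y n)
  set τ : ℝ := a 2 - a 1 with hτ
  have hτ0 : 0 < τ := by
    have : a 1 < a 2 := by simpa [a, y] using hhyp
    linarith
  have hdist : ∀ i d : ℕ, dist (y i) (y (i + d)) = a d := by
    intro i d
    have h1 : y (i + d) = g ^ i • y d := by
      simp only [y, pow_add, mul_smul]
    have h2 : y i = g ^ i • x₀ := rfl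
    rw [h1, h2, hiso]
  have hform : ∀ n : ℕ, a (n + 1) = a 1 + n * τ ∧ a (n + 2) = a 1 + (n + 1) * τ := by
    intro n
    induction n with
    | zero => constructor <;> simp [hτ]
    | succ n ih =>
      obtain ⟨ih1, ih2⟩ := ih
      refine ⟨by rw [ih2]; push_cast; ring, ?_⟩
      have e1 : dist (y 0) (y 1) = a 1 := hdist 0 1
      have e2 : dist (y (n + 2)) (y (n + 3)) = a 1 := hdist (n + 2) 1
      have e3 : dist (y 0) (y (n + 2)) = a (n + 2) := by simpa using hdist 0 (n + 2)
      have e4 : dist (y 1) (y (n + 3)) = a (n + 2) := by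
        have := hdist 1 (n + 2)
        rwa [show 1 + (n + 2) = n + 3 by ring] at this
      have e5 : dist (y 0) (y (n + 3)) = a (n + 3) := by simpa using hdist 0 (n + 3)
      have e6 : dist (y 1) (y (n + 2)) = a (n + 1) := by
        have := hdist 1 (n + 1)
        rwa [show 1 + (n + 1) = n + 2 by ring] at this
      have key := four_eq h4 (y 0) (y 1) (y (n + 2)) (y (n + 3)) (by
        rw [e1, e2, e3, e4, ih2]
        have : 0 < ((n : ℝ) + 1) * τ := by positivity
        linarith)
      rw [e3, e4, e5, e6, ih1, ih2] at key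
      have : a (n + 1 + 2) = a (n + 3) := rfl
      rw [this]
      push_cast
      linarith
  have hA : ∀ n : ℕ, a (n + 1) = a 1 + n * τ := fun n => (hform n).1
  have ha1 : 0 ≤ a 1 := dist_nonneg
  let β : ℕ → X → ℝ := fun n p => dist p (y n) - a n
  -- eventual constancy
  have hB : ∀ (p : X) (n m : ℕ), 2 * dist p x₀ < n * τ → n < m → β (n + 1) p = β (m + 1) p := by
    intro p n m hn hnm
    obtain ⟨d, rfl⟩ : ∃ d, m = n + (d + 1) := ⟨m - n - 1, by omega⟩
    have e1 : dist (y (n + 1)) (y (n + (d + 1) + 1)) = a (d + 1) := by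
      have := hdist (n + 1) (d + 1)
      rwa [show n + 1 + (d + 1) = n + (d + 1) + 1 by ring] at this
    have htri : a (n + 1) ≤ dist p x₀ + dist p (y (n + 1)) := by
      have := dist_triangle x₀ p (y (n + 1))
      rw [dist_comm x₀ p] at this
      exact this
    have key := four_eq h4 p x₀ (y (n + 1)) (y (n + (d + 1) + 1)) (by
      rw [e1]
      change _ < dist p (y (n + 1)) + a (n + (d + 1) + 1)
      rw [hA d, hA (n + (d + 1))]
      rw [hA n] at htri
      push_cast
      nlinarith)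
    change dist p (y (n + 1)) + a (n + (d + 1) + 1) = dist p (y (n + (d + 1) + 1)) + a (n + 1) at key
    simp only [β]
    linarith
  have hex : ∀ p : X, ∃ v : ℝ, ∃ N : ℕ, ∀ n, N ≤ n → β n p = v := by
    intro p
    obtain ⟨N, hN⟩ := exists_nat_gt (2 * dist p x₀ / τ)
    have hN' : 2 * dist p x₀ < N * τ := by
      rwa [div_lt_iff₀ hτ0] at hN
    refine ⟨β (N + 1) p, N + 1, fun n hn => ?_⟩
    rcases Nat.eq_or_lt_of_le hn with h | h
    · rw [h]
    · obtain ⟨m, rfl⟩ : ∃ m, n = m + 1 := ⟨n - 1, by omega⟩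
      exact (hB p N m hN' (by omega)).symm
  choose b Nb hb using hex
  have hlip : ∀ p p' : X, |b p - b p'| ≤ dist p p' := by
    intro p p'
    have h1 := hb p (max (Nb p) (Nb p')) (le_max_left _ _)
    have h2 := hb p' (max (Nb p) (Nb p')) (le_max_right _ _)
    rw [← h1, ← h2]
    simp only [β]
    have := abs_dist_sub_le p p' (y (max (Nb p) (Nb p')))
    have e : dist p (y (max (Nb p) (Nb p'))) - a (max (Nb p) (Nb p')) -
        (dist p' (y (max (Nb p) (Nb p'))) - a (max (Nb p) (Nb p'))) =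
        dist p (y (max (Nb p) (Nb p'))) - dist p' (y (max (Nb p) (Nb p'))) := by ring
    rw [e]
    exact this
  have hshift : ∀ z : G, z * g = g * z → ∀ p : X, b (z⁻¹ • p) = b p + b (z⁻¹ • x₀) := by
    intro z hz p
    have hzy : ∀ n, dist (y n) (z • y n) = dist x₀ (z • x₀) := by
      intro n
      have hc : Commute z (g ^ n) := (show Commute z g from hz).pow_right n
      have : z • y n = g ^ n • (z • x₀) := by
        simp only [y, smul_smul, hc.eq]
      rw [this]
      exact hiso _ _ _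
    have hmove : ∀ (r : X) n, dist (z⁻¹ • r) (y n) = dist r (z • y n) := by
      intro r n
      have := hiso z (z⁻¹ • r) (y n)
      rw [smul_inv_smul] at this
      exact this.symm
    obtain ⟨N, hN⟩ := exists_nat_gt ((dist p x₀ + dist x₀ (z • x₀)) / τ)
    have hN' : dist p x₀ + dist x₀ (z • x₀) < N * τ := by
      rwa [div_lt_iff₀ hτ0] at hN
    set n : ℕ := max (max (Nb (z⁻¹ • p)) (Nb p)) (max (Nb (z⁻¹ • x₀)) N) + 1 with hn
    have hn1 : Nb (z⁻¹ • p) ≤ n := by
      have := le_max_left (Nb (z⁻¹ • p)) (Nb p)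
      have := le_max_left (max (Nb (z⁻¹ • p)) (Nb p)) (max (Nb (z⁻¹ • x₀)) N)
      omega
    have hn2 : Nb p ≤ n := by
      have := le_max_right (Nb (z⁻¹ • p)) (Nb p)
      have := le_max_left (max (Nb (z⁻¹ • p)) (Nb p)) (max (Nb (z⁻¹ • x₀)) N)
      omega
    have hn3 : Nb (z⁻¹ • x₀) ≤ n := by
      have := le_max_left (Nb (z⁻¹ • x₀)) N
      have := le_max_right (max (Nb (z⁻¹ • p)) (Nb p)) (max (Nb (z⁻¹ • x₀)) N)
      omega
    have hn4 : N + 1 ≤ n := by
      have := le_max_right (Nb (z⁻¹ • x₀)) N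
      have := le_max_right (max (Nb (z⁻¹ • p)) (Nb p)) (max (Nb (z⁻¹ • x₀)) N)
      omega
    have han : (N : ℝ) * τ ≤ a n := by
      obtain ⟨m, hm⟩ : ∃ m, n = m + 1 := ⟨n - 1, by omega⟩
      rw [hm, hA m]
      have : (N : ℝ) ≤ m := by
        have : N ≤ m := by omega
        exact_mod_cast this
      nlinarith
    rw [← hb _ n hn1, ← hb _ n hn2, ← hb _ n hn3]
    simp only [β, hmove]
    have t1 : a n ≤ dist p x₀ + dist p (y n) := by
      have := dist_triangle x₀ p (y n)
      rw [dist_comm x₀ p] at this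
      exact this
    have t2 : a n ≤ dist x₀ (z • y n) + dist x₀ (z • x₀) := by
      have := dist_triangle x₀ (z • y n) (y n)
      rw [dist_comm (z • y n) (y n), hzy n] at this
      exact this
    have key := four_eq h4 p x₀ (y n) (z • y n) (by
      rw [hzy n]
      linarith)
    change dist p (y n) + dist x₀ (z • y n) = dist p (z • y n) + a n at key
    linarith
  refine height_criterion he g (fun u => b (u⁻¹ • x₀)) ?_ ?_ ?_
  · intro x
    refine ⟨dist (x⁻¹ • x₀) x₀, fun u => ?_⟩
    have h1 : (x * u)⁻¹ • x₀ = u⁻¹ • (x⁻¹ • x₀) := by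
      rw [mul_inv_rev, mul_smul]
    rw [h1]
    exact (hlip _ _).trans (le_of_eq (hiso _ _ _))
  · intro z hz u v
    have h1 : ∀ u : G, (u * z)⁻¹ • x₀ = z⁻¹ • (u⁻¹ • x₀) := by
      intro u
      rw [mul_inv_rev, mul_smul]
    show b ((u * z)⁻¹ • x₀) - b (u⁻¹ • x₀) = b ((v * z)⁻¹ • x₀) - b (v⁻¹ • x₀)
    rw [h1 u, h1 v, hshift z hz (u⁻¹ • x₀), hshift z hz (v⁻¹ • x₀)]
    ring
  · simp only [inv_one, one_smul]
    have h0 : b x₀ = 0 := by
      rw [← hb x₀ (Nb x₀) le_rfl]
      simp [β, a]
    have h1 : b (g⁻¹ • x₀) = τ := by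
      rw [← hb _ (Nb (g⁻¹ • x₀) + 1) (by omega)]
      simp only [β]
      have h2 : dist (g⁻¹ • x₀) (y (Nb (g⁻¹ • x₀) + 1)) = a (Nb (g⁻¹ • x₀) + 1 + 1) := by
        have := hiso g (g⁻¹ • x₀) (y (Nb (g⁻¹ • x₀) + 1))
        rw [smul_inv_smul] at this
        rw [← this]
        simp only [a, y, smul_smul, ← pow_succ']
      rw [h2, hA (Nb (g⁻¹ • x₀) + 1), hA (Nb (g⁻¹ • x₀))]
      push_cast
      ring
    rw [h0, h1]
    exact hτ0.ne'

end tree

end Vale.Agent.P184
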